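import Vale.Agent.P130.Chirp

/-! Chirps twisted by a rotation-driven shift are still almost unimodular. -/

noncomputable section
open MeasureTheory Finset Filter Topology
open scoped ComplexConjugate Real ENNReal Nat

namespace Vale.Agent.P130

def ta (m q : ℕ) (k : ℤ) : T := k • (((q : ℝ) / m : ℝ) : T)

def Good (L : ℤ) (m q : ℕ) : Prop :=
  0 < m ∧ L ∣ (m : ℤ) - 1 ∧ 0 < q ∧ q ≤ m ∧ L ∣ q ∧ 2 * L * m ∣ (q : ℤ) ^ 2

def nn (t : ℕ) : ℕ := 1 + (t + 1)!
def mm (t : ℕ) : ℕ := nn t ^ 2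
def qq (p : ℝ) (t : ℕ) : ℕ := t ! * nn t * ⌊p * nn t / t !⌋₊

theorem nn_pos (t : ℕ) : 0 < nn t := by unfold nn; omega

theorem nn_ge (t : ℕ) : (t + 1) * t ! ≤ nn t := by unfold nn; rw [Nat.factorial_succ]; omega

theorem mm_ge (t : ℕ) : t ≤ mm t := by
  have h1 := nn_ge t
  have h2 := Nat.factorial_pos t
  have h3 : t + 1 ≤ nn t := by nlinarith
  unfold mm; nlinarith

theorem tendsto_mm : Tendsto mm atTop atTop := tendsto_atTop_mono mm_ge tendsto_id

theorem qq_div (p : ℝ) (t : ℕ) :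
    (qq p t : ℝ) / mm t = (t ! : ℝ) / nn t * ⌊p * nn t / t !⌋₊ := by
  have : (0 : ℝ) < nn t := by exact_mod_cast nn_pos t
  unfold qq mm; push_cast; field_simp

theorem qq_bounds {p : ℝ} (hp : 0 ≤ p) (t : ℕ) :
    (qq p t : ℝ) / mm t ≤ p ∧ p - 1 / (t + 1) ≤ (qq p t : ℝ) / mm t := by
  have h1 : (0 : ℝ) < nn t := by exact_mod_cast nn_pos t
  have h2 : (0 : ℝ) < t ! := by exact_mod_cast Nat.factorial_pos t
  have h3 : ((t : ℝ) + 1) * t ! ≤ nn t := by exact_mod_cast nn_ge t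
  have e : (t ! : ℝ) / nn t * (p * nn t / t !) = p := by field_simp
  rw [qq_div]
  constructor
  · rw [← e]; gcongr
    rw [e]; exact Nat.floor_le (by positivity)
  · have h4 := (Nat.lt_floor_add_one (p * nn t / t !)).le
    have h5 : (t ! : ℝ) / nn t ≤ 1 / (t + 1) := by
      rw [div_le_div_iff₀ h1 (by positivity)]; linarith
    have h6 := mul_le_mul_of_nonneg_left h4 (show (0 : ℝ) ≤ t ! / nn t by positivity)
    rw [e] at h6; linarith

theorem tendsto_qq {p : ℝ} (hp : 0 ≤ p) :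
    Tendsto (fun t => (qq p t : ℝ) / mm t) atTop (𝓝 p) := by
  refine tendsto_of_tendsto_of_tendsto_of_le_of_le (g := fun t : ℕ => p - 1 / ((t : ℝ) + 1))
    (h := fun _ => p) ?_ tendsto_const_nhds (fun t => (qq_bounds hp t).2)
    fun t => (qq_bounds hp t).1
  simpa using (tendsto_one_div_add_atTop_nhds_zero_nat (𝕜 := ℝ)).const_sub p

theorem good_ev {L : ℤ} (hL : L ≠ 0) {p : ℝ} (hp : 0 < p) (hp1 : p ≤ 1) :
    ∀ᶠ t in atTop, Good L (mm t) (qq p t) := by
  filter_upwards [eventually_ge_atTop (2 * L.natAbs), (tendsto_qq hp.le).eventually_const_lt hp]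
    with t ht hq
  have hL' : 0 < L.natAbs := Int.natAbs_pos.2 hL
  have hm0 : 0 < mm t := pow_pos (nn_pos t) 2
  have hm' : (0 : ℝ) < mm t := by exact_mod_cast hm0
  have d1 : 2 * L ∣ (t ! : ℤ) := by
    have := Nat.dvd_factorial (m := 2 * L.natAbs) (by omega) ht
    rw [← Int.natAbs_dvd, Int.natAbs_mul]; exact_mod_cast this
  have d2 : L ∣ (t ! : ℤ) := (dvd_mul_left L 2).trans d1
  refine ⟨hm0, ?_, ?_, ?_, ?_, ?_⟩
  · have : (mm t : ℤ) - 1 = t ! * ((t + 1) * (2 + (t + 1) * t !)) := by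
      unfold mm nn; rw [Nat.factorial_succ]; push_cast; ring
    rw [this]; exact d2.mul_right _
  · rw [lt_div_iff₀ hm', zero_mul] at hq; exact_mod_cast hq
  · have := (qq_bounds hp.le t).1.trans hp1
    rw [div_le_one hm'] at this; exact_mod_cast this
  · unfold qq; push_cast; rw [mul_assoc]; exact d2.mul_right _
  · obtain ⟨a, ha⟩ := d1
    refine ⟨a * t ! * (⌊p * nn t / t !⌋₊ : ℤ) ^ 2, ?_⟩
    unfold qq mm; push_cast
    linear_combination (t ! * (nn t : ℤ) ^ 2 * (⌊p * nn t / t !⌋₊ : ℤ) ^ 2) * ha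

theorem chirp_shift {L : ℤ} (hL : L ≠ 0) {m q : ℕ} (hG : Good L m q) {h : ℤ} (hh : (q : ℤ) = L * h)
    (j k : ℤ) : ch (L • th m (k + j * h)) = ch (L • th m k) * ch (j • ta m q k) := by
  obtain ⟨hm0, -, -, -, -, s, hs⟩ := hG
  have hm' : (0 : ℝ) < m := by exact_mod_cast hm0
  have h1 : L * h ^ 2 = 2 * m * s := by
    apply mul_left_cancel₀ hL; rw [hh] at hs; linear_combination hs
  have h2 : L • th m (j * h) = 0 := by
    have h3 : (L : ℝ) * h ^ 2 = 2 * m * s := by exact_mod_cast h1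
    rw [th, zsmul_coe, ← coe_int (j ^ 2 * s)]; congr 1
    rw [mul_div_assoc', div_eq_iff (by positivity)]; push_cast
    linear_combination (j : ℝ) ^ 2 * h3
  have h4 : L • ((((j * h : ℤ) : ℝ) / m : ℝ) : T) = j • (((q : ℝ) / m : ℝ) : T) := by
    have h3 : (q : ℝ) = L * h := by exact_mod_cast hh
    rw [zsmul_coe, zsmul_coe, h3]; congr 1; push_cast; ring
  rw [th_add, smul_add, smul_add, h2, add_zero, ch_add, smul_comm L k, h4, ta, smul_comm]

/-- the multiplier produced by the label `L` -/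
def PL (Q' : ℕ) (L : ℤ) (m q : ℕ) (β β' : T) (N' : ℕ) (η : T) : ℂ :=
  ft m (fun k => ch (L • (th m k + β)) * ch (-((cell Q' (ta m q k + β') : ℤ) • η)))
    ((N' : ℤ) • η)

theorem PL_eq {Q' : ℕ} (hQ' : 0 < Q') (L : ℤ) (m q : ℕ) (β β' : T) (N' : ℕ) (η : T) :
    PL Q' L m q β β' N' η = ∑ c ∈ range Q', (ch (L • β) * ch (-((c : ℤ) • η))) *
      ft m (fun k => ch (L • th m k) * ind Q' c (ta m q k + β')) ((N' : ℤ) • η) := by
  simp only [← ft_smul]
  rw [← ft_sum, PL]
  refine congrFun (ft_congr fun k _ => ?_) _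
  rw [← sum_ind hQ' (ta m q k + β') fun c => ch (-((c : ℤ) • η)), Finset.mul_sum]
  refine Finset.sum_congr rfl fun c _ => ?_
  rw [smul_add, ch_add]; ring

theorem BM_PL {Q' : ℕ} (hQ' : 0 < Q') (L : ℤ) (m q : ℕ) (β β' : T) (N' : ℕ) :
    BM (PL Q' L m q β β' N') := by
  have : PL Q' L m q β β' N' = _ := funext (PL_eq hQ' L m q β β' N')
  rw [this]; fun_prop

theorem flat {Q' : ℕ} (hQ' : 0 < Q') {ε : ℝ} (hε : 0 < ε) : ∃ g, BM g ∧ nm g ≤ 1 ∧
    ∃ L₀ : ℕ, 0 < L₀ ∧ ∀ L : ℤ, L₀ ≤ |L| → ∀ m q, Good L m q → ∀ β β',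
      nt m (fun k => g (ta m q k + β')) ≤ 2 → ∀ N', ∃ Θ, UM Θ ∧ ∀ v,
        nm (fun η => (PL Q' L m q β β' N' η - Θ η) * ft N' v η) ≤ ε * nt N' v := by
  have hQ'' : (0 : ℝ) < Q' := by exact_mod_cast hQ'
  set δ := ε / (6 * Q') with hδ
  have hδ0 : 0 < δ := by positivity
  obtain ⟨B, g, hB0, hg, hg1, hB⟩ := cells_approx Q' hδ0
  have hBc : (0 : ℝ) < B.card := by exact_mod_cast Finset.card_pos.2 ⟨0, hB0⟩
  set δ' := δ / B.card with hδ'
  have hδ'0 : 0 < δ' := by positivity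
  obtain ⟨L₁, hL₁, hfl⟩ := chirp_flat hδ'0
  set J : ℝ := ∑ j ∈ B, |(j : ℝ)| with hJ
  obtain ⟨L₂, hL₂⟩ := exists_nat_gt (J / δ' ^ 2)
  refine ⟨g, hg, hg1, max L₁ L₂, by omega, fun L hL m q hG β β' hβ N' => ?_⟩
  have hL1 : (L₁ : ℤ) ≤ |L| := le_trans (by exact_mod_cast le_max_left _ _) hL
  have hL2 : (L₂ : ℝ) ≤ |(L : ℝ)| := by
    exact_mod_cast le_trans (show (L₂ : ℤ) ≤ (max L₁ L₂ : ℕ) by exact_mod_cast le_max_right _ _) hL
  have hL0 : L ≠ 0 := by rintro rfl; simp at hL1; omega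
  have hL' : (0 : ℝ) < |(L : ℝ)| := abs_pos.2 (by exact_mod_cast hL0)
  obtain ⟨h, hh⟩ := hG.2.2.2.2.1
  have hm0 := hG.1
  have hm' : (0 : ℝ) < m := by exact_mod_cast hm0
  have h0 : -h ≠ 0 := by
    have := hG.2.2.1
    rw [neg_ne_zero]; rintro rfl; simp at hh; omega
  have hfl' := hfl L hL1 m hm0 hG.2.1
  set D : (T → ℂ) → T → ℂ := fun f y => ft m (fun k => ch (L • th m k) * f (ta m q k + β')) y
    - f ((-h) • y + β') * ph (P0 L m y) with hD
  have D1 : ∀ j ∈ B, nm (D fun y => ch (j • y)) ≤ 3 * δ' := by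
    intro j hj
    have e : ∀ y, D (fun y => ch (j • y)) y = ch (j • β') *
        ((ft m (fun k => ch (L • th m (k + j * h))) y - ch (-((j * h) • y)) * P0 L m y)
          + ch (-((j * h) • y)) * (P0 L m y - ph (P0 L m y))) := by
      intro y
      have e1 : j • ((-h) • y + β') = j • β' + -((j * h) • y) := by module
      simp only [hD, chirp_shift hL0 hG hh, e1, ch_add]
      rw [ft_congr (v := fun k => ch (j • β') * (ch (L • th m k) * ch (j • ta m q k)))
        fun k _ => by rw [smul_add, ch_add]; ring, ft_smul]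
      ring
    rw [funext e, nm_smul, norm_ch, one_mul]
    refine (nm_add_le (by fun_prop) (by fun_prop)).trans ?_
    have s1 := shift_est m (fun k => ch (L • th m k)) (C := 1) (fun k => (norm_ch _).le) (j * h)
    have s2 : √((|j * h| : ℤ) / m) ≤ δ' := by
      rw [Real.sqrt_le_left hδ'0.le, div_le_iff₀ hm']
      have a1 : |(j : ℝ)| ≤ J :=
        Finset.single_le_sum (f := fun j : ℤ => |(j : ℝ)|) (fun _ _ => abs_nonneg _) hj
      have a2 : |(L : ℝ)| * |(h : ℝ)| ≤ m := by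
        have a3 : (q : ℝ) = L * h := by exact_mod_cast hh
        rw [← abs_mul, ← a3, Nat.abs_cast]; exact_mod_cast hG.2.2.2.1
      rw [div_lt_iff₀ (by positivity)] at hL₂
      have a4 : |(j : ℝ)| ≤ |(L : ℝ)| * δ' ^ 2 := by nlinarith [sq_nonneg δ']
      push_cast; rw [abs_mul]
      calc _ ≤ |(L : ℝ)| * δ' ^ 2 * |(h : ℝ)| := by gcongr
        _ = δ' ^ 2 * (|(L : ℝ)| * |(h : ℝ)|) := by ring
        _ ≤ _ := by gcongr
    rw [nm_um (Θ := fun y => ch (-((j * h) • y))) ⟨by fun_prop, fun _ => norm_ch _⟩]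
    unfold P0 at *
    linarith
  have D2 : ∀ c < Q', nm (D (ind Q' c)) ≤ 6 * δ := by
    intro c hc
    have e : ∀ y, D (ind Q' c) y = D (fun y => ind Q' c y - tr B (ind Q' c) y) y
        + ∑ j ∈ B, fourierCoeff (ind Q' c) j * D (fun y => ch (j • y)) y := by
      intro y
      simp only [hD, mul_sub, ft_sub, tr, Finset.mul_sum, ft_sum, Finset.sum_sub_distrib,
        sub_mul, Finset.sum_mul, ← ft_smul]
      simp only [mul_left_comm, mul_assoc]
      ring
    rw [funext e]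
    refine (nm_add_le (by simp only [hD]; fun_prop) (by simp only [hD]; fun_prop)).trans ?_
    have b1 : nm (D fun y => ind Q' c y - tr B (ind Q' c) y) ≤ 3 * δ := by
      refine (nm_sub_le (by fun_prop) (by fun_prop)).trans ?_
      have c1 : nt m (fun k => ch (L • th m k) * (ind Q' c (ta m q k + β')
          - tr B (ind Q' c) (ta m q k + β'))) ≤ nt m (fun k => δ * g (ta m q k + β')) :=
        nt_mono fun k _ => by
          rw [norm_mul, norm_ch, one_mul, norm_mul, Complex.norm_real, Real.norm_eq_abs,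
            abs_of_pos hδ0]
          exact hB c hc _
      have c2 : nm (fun y => (ind Q' c ((-h) • y + β') - tr B (ind Q' c) ((-h) • y + β')) *
          ph (P0 L m y)) ≤ nm (fun y => δ * g ((-h) • y + β')) :=
        nm_mono (by fun_prop) fun y => by
          rw [norm_mul, norm_ph, mul_one, norm_mul, Complex.norm_real, Real.norm_eq_abs,
            abs_of_pos hδ0]
          exact hB c hc _
      rw [nt_smul, Complex.norm_real, Real.norm_eq_abs, abs_of_pos hδ0] at c1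
      rw [nm_smul, Complex.norm_real, Real.norm_eq_abs, abs_of_pos hδ0,
        nm_comp (mp_aff h0 β') hg] at c2
      unfold nt at *
      nlinarith
    have b2 : nm (fun y => ∑ j ∈ B, fourierCoeff (ind Q' c) j * D (fun y => ch (j • y)) y)
        ≤ 3 * δ := by
      refine (nm_sum_le fun j _ => by simp only [hD]; fun_prop).trans ?_
      calc _ ≤ ∑ j ∈ B, 3 * δ' := Finset.sum_le_sum fun j hj => by
            rw [nm_smul]
            exact (mul_le_of_le_one_left (nm_nonneg _) (norm_fc (norm_ind _ _) j)).trans (D1 j hj)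
        _ = _ := by simp only [Finset.sum_const, nsmul_eq_mul, hδ']; field_simp
    linarith
  refine ⟨fun η => ch (L • β) * ch (-((cell Q' ((-h) • (N' : ℤ) • η + β') : ℤ) • η)) *
    ph (P0 L m ((N' : ℤ) • η)), ⟨?_, fun η => by simp [norm_ph]⟩, fun v => ?_⟩
  · have : BM (fun η => ch (L • β) * (∑ c ∈ range Q', ind Q' c ((-h) • (N' : ℤ) • η + β') *
      ch (-((c : ℤ) • η))) * ph (P0 L m ((N' : ℤ) • η))) := by fun_prop
    simp only [sum_ind hQ'] at this
    exact this.1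
  · have e : ∀ η, (PL Q' L m q β β' N' η - ch (L • β) *
        ch (-((cell Q' ((-h) • (N' : ℤ) • η + β') : ℤ) • η)) * ph (P0 L m ((N' : ℤ) • η))) *
        ft N' v η = ∑ c ∈ range Q', (ch (L • β) * ch (-((c : ℤ) • η))) *
          (D (ind Q' c) ((N' : ℤ) • η) * ft N' v η) := by
      intro η
      rw [PL_eq hQ', ← sum_ind hQ' ((-h) • (N' : ℤ) • η + β') fun c => ch (-((c : ℤ) • η)),
        Finset.mul_sum, Finset.sum_mul, ← Finset.sum_sub_distrib, Finset.sum_mul]
      refine Finset.sum_congr rfl fun c _ => ?_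
      simp only [hD]; ring
    rw [funext e]
    refine (nm_sum_le fun j _ => by simp only [hD]; fun_prop).trans ?_
    calc _ ≤ ∑ c ∈ range Q', 6 * δ * nt N' v := Finset.sum_le_sum fun c hc => by
          rw [nm_um (Θ := fun η => ch (L • β) * ch (-((c : ℤ) • η)))
            ⟨by fun_prop, fun _ => by simp⟩, nm_indep (by simp only [hD]; fun_prop)]
          exact mul_le_mul_of_nonneg_right (D2 c (mem_range.1 hc)) (nt_nonneg _ _)
      _ = _ := by simp only [Finset.sum_const, card_range, nsmul_eq_mul, hδ]; field_simp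

end Vale.Agent.P130
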