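import Vale.Agent.P130.Label
import Vale.Agent.P130.Flat

/-! Band-wise cyclic shifts act on chirps by labelled phases. -/

noncomputable section
open MeasureTheory Finset Filter Topology
open scoped ComplexConjugate Real ENNReal Nat

namespace Vale.Agent.P130

def gam (m q : ℕ) (r l : ℤ) (k : ℕ) : ℂ := ch (r • th m k + l • ta m q k)

def bp (w : ℕ) (α : ℕ → ℕ) (k : ℕ) : ℕ := k / w * w + (k % w + α (k / w)) % w

theorem bp_perm {w S m : ℕ} (hw : 0 < w) (hm : S * w ≤ m) {α : ℕ → ℕ} (hα : ∀ s, S ≤ s → α s = 0) :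
    IsPerm m (bp w α) := by
  have hd : ∀ k, bp w α k / w = k / w := fun k => by
    rw [bp, add_comm, Nat.add_mul_div_right _ _ hw, Nat.div_eq_of_lt (Nat.mod_lt _ hw), zero_add]
  refine IsPerm.of_inj (fun k hk => ?_) fun k _ k' _ h => ?_
  · rcases lt_or_ge (k / w) S with h | h
    · have := Nat.mod_lt (k % w + α (k / w)) hw
      have : (k / w + 1) * w ≤ S * w := Nat.mul_le_mul_right _ h
      unfold bp; nlinarith
    · rw [bp, hα _ h, add_zero, Nat.mod_mod, Nat.div_add_mod']; exact hk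
  · have h1 : k / w = k' / w := by rw [← hd k, h, hd]
    rw [bp, bp, h1, add_right_inj] at h
    have h2 := Nat.ModEq.add_right_cancel' _ h
    rw [Nat.ModEq, Nat.mod_mod, Nat.mod_mod] at h2
    rw [← Nat.div_add_mod k w, ← Nat.div_add_mod k' w, h1, h2]

theorem scale (Λ : Finset ℚ) (hΛ : 0 ∉ Λ) (L₀ : ℕ) :
    ∃ (ρ : ℕ) (Z : ℚ → ℤ), ∀ v ∈ Λ, (Z v : ℚ) = ρ * v ∧ (L₀ : ℤ) ≤ |Z v| := by
  have : ∀ v : ℚ, ∃ z : ℤ, v ∈ Λ → (z : ℚ) = (L₀ * ∏ v ∈ Λ, v.den : ℕ) * v ∧ (L₀ : ℤ) ≤ |z| := by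
    intro v
    by_cases hv : v ∈ Λ
    · obtain ⟨e, he⟩ := Finset.dvd_prod_of_mem (fun v : ℚ => v.den) hv
      have he0 : e ≠ 0 := by
        rintro rfl
        exact (Finset.prod_ne_zero_iff.2 fun v _ => Rat.den_nz v) (by simpa using he)
      have hn : v.num ≠ 0 := Rat.num_ne_zero.2 fun h => hΛ (h ▸ hv)
      refine ⟨L₀ * (e * v.num), fun _ => ⟨?_, ?_⟩⟩
      · rw [he]; push_cast; rw [← Rat.mul_den_eq_num]; ring
      · rw [abs_mul, Nat.abs_cast]
        exact le_mul_of_one_le_right (by positivity)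
          (Int.one_le_abs (mul_ne_zero (by exact_mod_cast he0) hn))
    · exact ⟨0, fun h => absurd h hv⟩
  choose Z hZ using this
  exact ⟨_, Z, hZ⟩

theorem nz_le {r : ℤ} {R : ℝ} (hr : |(r : ℝ)| ≤ R) {x : T} {b : ℝ} (hx : ‖x‖ ≤ b) :
    ‖r • x‖ ≤ R * b :=
  (norm_zsmul_le _ _).trans (mul_le_mul (by rwa [Int.norm_eq_abs]) hx (norm_nonneg _)
    ((abs_nonneg _).trans hr))

theorem coe_sub_le {a b c : ℝ} (h : |a - b| ≤ c) : ‖(a : T) - (b : T)‖ ≤ c := by
  rw [← AddCircle.coe_sub]; exact (norm_coe_le _).trans h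

theorem ch_lip' (x y : T) : ‖ch x - ch y‖ ≤ 8 * ‖x - y‖ :=
  (ch_lip x y).trans (mul_le_mul_of_nonneg_right (by linarith [Real.pi_le_four]) (norm_nonneg _))

theorem gam_add (m q : ℕ) (r l : ℤ) (k α : ℕ) : gam m q r l (k + α) = gam m q r l k *
    ch (r • (th m α + (α : ℤ) • (((k : ℝ) / m : ℝ) : T)) +
      l • (α : ℤ) • (((q : ℝ) / m : ℝ) : T)) := by
  rw [gam, gam, ← ch_add, Nat.cast_add, add_comm (k : ℤ), th_add]; congr 1
  simp only [ta, Int.cast_natCast]; module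

theorem norm_th (m : ℕ) (a : ℤ) : ‖th m a‖ ≤ (a : ℝ) ^ 2 / m := by
  refine (norm_coe_le _).trans ?_
  rw [abs_of_nonneg (by positivity), mul_comm, ← div_div]
  exact half_le_self (by positivity)

theorem nt_two {N : ℕ} {d : ℕ → ℂ} {b₁ b₂ : ℝ} (h₁ : 0 ≤ b₁) (h₂ : 0 ≤ b₂) (B₁ B₂ : Finset ℕ)
    (h : ∀ k, k ∉ B₂ → k ∈ B₁ → ‖d k‖ ≤ b₁) (h0 : ∀ k, k ∉ B₂ → k ∉ B₁ → d k = 0)
    (h' : ∀ k, ‖d k‖ ≤ b₂) : nt N d ≤ b₁ * √(B₁.card / N) + b₂ * √(B₂.card / N) := by
  have e : nt N d = nt N (fun n => (if n ∈ B₂ then 0 else d n) + (if n ∈ B₂ then d n else 0)) :=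
    nt_congr fun n _ => by split_ifs <;> simp
  rw [e]
  refine (nt_add_le _ _ _).trans (add_le_add ?_ ?_)
  · refine (nt_le_off le_rfl h₁ B₁ (fun k _ hk => ?_) fun k _ => ?_).trans (by simp)
    · split_ifs with hh
      · simp
      · simp [h0 k hh hk]
    · split_ifs with hh
      · simpa
      · by_cases hk : k ∈ B₁
        · exact h k hh hk
        · simpa [h0 k hh hk]
  · refine (nt_le_off le_rfl h₂ B₂ (fun k _ hk => by simp [hk]) fun k _ => ?_).trans (by simp)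
    split_ifs
    · exact h' k
    · simpa

/-- what the band shifts do to one chirp -/
def Split (S Q m : ℕ) (ε κ : ℝ) (Λ : Finset ℤ) (Lab : T → ℤ) (b : ℕ → ℕ → ℕ) (γ : ℕ → ℂ) : Prop :=
  ∃ (G : Finset ℕ) (γs : ℕ → ℕ → ℂ) (L : ℕ → ℤ) (y : ℕ → T), G.card ≤ S ∧
    (∀ s, γs s 0 = 0 ∧ (∀ k, m ≤ k → γs s k = 0) ∧ ∀ k, ‖γs s k‖ ≤ 1) ∧
    (∀ s ∈ G, L s ∈ Λ ∧ (∀ z, ‖z - y s‖ ≤ κ → Lab z = L s) ∧
      S * nt m (fun k => γs s (k + 1) - ch (y s) * γs s k) ≤ 2 * κ * ε) ∧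
    (∀ (c : ℕ) (ϑ : T), ‖ϑ - (((c : ℝ) / Q : ℝ) : T)‖ ≤ 1 / Q →
      nt m (fun k => γ (b c k) - ∑ s ∈ G, ch (L s • ϑ) * γs s k) ≤ ε) ∧
    nt m (fun k => γ k - ∑ s ∈ G, γs s k) ≤ ε

set_option maxHeartbeats 1600000 in
theorem td (R : ℕ) {ε : ℝ} (hε : 0 < ε) : ∃ p : ℝ, 0 < p ∧ p ≤ 1 ∧ ∃ S : ℕ, 0 < S ∧
    ∃ κ > (0 : ℝ), ∀ L₀ : ℕ, ∃ (Λ : Finset ℤ) (Q : ℕ) (Lab : T → ℤ), 0 < Q ∧
      (∀ L ∈ Λ, L₀ ≤ |L| ∧ |L| < Q) ∧ Measurable Lab ∧ (∀ z, Lab z ∈ Λ) ∧ ∀ᶠ t in atTop,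
        ∃ b : ℕ → ℕ → ℕ, (∀ c, IsPerm (mm t) (b c)) ∧ ∀ r l : ℤ, (r, l) ≠ (0, 0) → |r| ≤ R →
          |l| ≤ R → Split S Q (mm t) ε κ Λ Lab b (gam (mm t) (qq p t) r l) := by
  classical
  set δ := ε ^ 2 / 32 with hδ
  set κ' := ε / (128 * (R + 1)) with hκ'
  obtain ⟨p, hp0, hp1, κ, hκ, A, Λ, hΛ, hlab⟩ := labeling R (ε := δ) (κ' := κ') (by positivity)
    (by positivity)
  obtain ⟨S, hS1, hS2, hS⟩ : ∃ S : ℕ, 64 * R * (3 * A + 1) / ε ≤ S ∧ (32 * R / (κ * ε)) ^ 2 ≤ S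
      ∧ 0 < S := by
    have h1 := tendsto_natCast_atTop_atTop (R := ℝ)
    exact ((h1.eventually_ge_atTop _).and ((h1.eventually_ge_atTop _).and
      (eventually_gt_atTop 0))).exists
  have hS' : (0 : ℝ) < S := by exact_mod_cast hS
  refine ⟨p, hp0, hp1, S, hS, κ, hκ, fun L₀ => ?_⟩
  obtain ⟨lam, x, ls, Bad, hlam, hlamΛ, hBad, hx⟩ := hlab S hS
  obtain ⟨ρ, Z, hZ⟩ := scale Λ hΛ L₀
  obtain ⟨Q, hQ1, hQ⟩ : ∃ Q : ℕ, (∀ v ∈ Λ, 32 * |(Z v : ℝ)| / ε ≤ Q ∧ |(Z v : ℝ)| < Q) ∧ 0 < Q := by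
    have h1 := tendsto_natCast_atTop_atTop (R := ℝ)
    exact (((Finset.eventually_all _).2 fun v _ => (h1.eventually_ge_atTop _).and
      (h1.eventually_gt_atTop _)).and (eventually_gt_atTop 0)).exists
  have hQ' : (0 : ℝ) < Q := by exact_mod_cast hQ
  refine ⟨Λ.image Z, Q, fun z => Z (lam z), hQ, fun L hL => ?_,
    (measurable_of_countable Z).comp hlam, fun z => mem_image_of_mem _ (hlamΛ z), ?_⟩
  · obtain ⟨v, hv, rfl⟩ := mem_image.1 hL
    exact ⟨(hZ v hv).2, by exact_mod_cast (hQ1 v hv).2⟩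
  have hα : ∀ c s : ℕ, ∃ α ≤ A, (S ≤ s → α = 0) ∧ (s < S → s ∉ Bad →
      ‖(α : ℤ) • (x s : T) - ((ρ * ls s * (c / Q) : ℝ) : T)‖ ≤ κ' ∧
      ‖(α : ℤ) • (p : T) - ((ρ * (c / Q) : ℝ) : T)‖ ≤ κ') := by
    intro c s
    by_cases h : s < S ∧ s ∉ Bad
    · obtain ⟨α, h1, h2⟩ := (hx s h.1 h.2).2.2 ((ρ * ls s * (c / Q) : ℝ) : T)
        ((ρ * (c / Q) : ℝ) : T)
      exact ⟨α, h1, fun h' => by omega, fun _ _ => h2⟩
    · exact ⟨0, by omega, fun _ => rfl, fun h1 h2 => absurd ⟨h1, h2⟩ h⟩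
  choose α hαA hα0 hα using hα
  have hmm : Tendsto (fun t => (mm t : ℝ)) atTop atTop :=
    tendsto_natCast_atTop_atTop.comp tendsto_mm
  filter_upwards [hmm.eventually_ge_atTop ((S : ℝ) ^ 2), hmm.eventually_ge_atTop (A ^ 2 * S),
    hmm.eventually_ge_atTop (S * (A + 2) / δ), hmm.eventually_ge_atTop (8 * S ^ 2 / (κ * ε) ^ 2),
    (Metric.tendsto_nhds.1 (tendsto_qq hp0.le)) (1 / S) (by positivity)] with t m1 m2 m3 m4 hq
  rw [Real.dist_eq] at hq
  set m := mm t
  set q := qq p t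
  have hS1' : (1 : ℝ) ≤ S := by exact_mod_cast hS
  have hSm' : (S : ℝ) ≤ m := by nlinarith
  have hSm : S ≤ m := by exact_mod_cast hSm'
  have hm' : (0 : ℝ) < m := by linarith
  set w := m / S with hw
  have hw0 : 0 < w := Nat.div_pos hSm hS
  have hw1 : S * w ≤ m := Nat.mul_div_le m S
  have hw2 : m < S * w + S := by
    have := Nat.div_add_mod m S
    have := Nat.mod_lt m hS
    rw [hw]; omega
  have hw1' : (S : ℝ) * w ≤ m := by exact_mod_cast hw1
  have hw2' : (m : ℝ) < S * w + S := by exact_mod_cast hw2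
  refine ⟨fun c => bp w (α c), fun c => bp_perm hw0 hw1 (hα0 c), fun r l hrl hr hl => ?_⟩
  have hr' : |(r : ℝ)| ≤ R := by exact_mod_cast hr
  have hl' : |(l : ℝ)| ≤ R := by exact_mod_cast hl
  have hR : (0 : ℝ) ≤ R := Nat.cast_nonneg _
  set γ := gam m q r l with hγ
  have nγ : ∀ k, ‖γ k‖ = 1 := fun k => norm_ch _
  set I : ℕ → Finset ℕ := fun s => Ico (s * w + 1) (s * w + w - A) with hI
  set G := range S \ Bad with hG
  have hGm : ∀ s ∈ G, s < S ∧ s ∉ Bad := fun s hs => by simpa [hG] using hs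
  set γs : ℕ → ℕ → ℂ := fun s k => if s < S ∧ k ∈ I s then γ k else 0 with hγs
  set y : ℕ → T := fun s => r • (x s : T) + l • (p : T) with hy
  have hIdiv : ∀ s k, k ∈ I s → k / w = s := by
    intro s k hk
    simp only [hI, Finset.mem_Ico] at hk
    exact Nat.div_eq_of_lt_le (by omega) (by rw [add_mul]; omega)
  have hpos : ∀ s ∈ G, ∀ k, s * w ≤ k → k ≤ s * w + w → |(k : ℝ) / m - x s| ≤ 2 / S := by
    intro s hs k h1 h2
    obtain ⟨⟨x1, x2⟩, -⟩ := hx s (hGm s hs).1 (hGm s hs).2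
    have h1' : (s : ℝ) * w ≤ k := by exact_mod_cast h1
    have h2' : (k : ℝ) ≤ s * w + w := by exact_mod_cast h2
    have h3 : (s : ℝ) ≤ S := by exact_mod_cast (hGm s hs).1.le
    have h0 : (0 : ℝ) ≤ s := Nat.cast_nonneg _
    have a1 : (k : ℝ) / m ≤ (s + 1) / S := by rw [div_le_div_iff₀ hm' hS']; nlinarith
    have a2 : ((s : ℝ) - 1) / S ≤ (k : ℝ) / m := by rw [div_le_div_iff₀ hS' hm']; nlinarith
    have a3 : (2 : ℝ) / S = 1 / S + 1 / S := by ring
    have a4 : (0 : ℝ) < 1 / S := by positivity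
    rw [add_div] at a1 x2; rw [sub_div] at a2
    rw [abs_le]; constructor <;> linarith
  have hsum : ∀ (a : ℕ → ℂ) (k : ℕ), ∑ s ∈ G, a s * γs s k
      = if k / w ∈ G ∧ k ∈ I (k / w) then a (k / w) * γ k else 0 := by
    intro a k
    have h0 : ∀ s, s ≠ k / w → a s * γs s k = 0 := by
      intro s hs
      have : k ∉ I s := fun h => hs (hIdiv s k h).symm
      simp [hγs, this]
    by_cases h : k / w ∈ G
    · rw [Finset.sum_eq_single_of_mem _ h fun s _ hs => h0 s hs]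
      simp [hγs, h, (hGm _ h).1]
    · rw [Finset.sum_eq_zero fun s hs => h0 s fun e => h (e ▸ hs)]; simp [h]
  set Bk := (Bad.biUnion fun s => Ico (s * w) (s * w + w)) ∪ ((range S).biUnion fun s =>
    insert (s * w) (Ico (s * w + w - A) (s * w + w))) ∪ Ico (S * w) m with hBk
  have hBk1 : ∀ k < m, k ∉ Bk → k / w ∈ G ∧ k ∈ I (k / w) := by
    intro k hk hb
    have d1 := Nat.div_add_mod' k w
    have d2 := Nat.mod_lt k hw0
    simp only [hBk, mem_union, mem_biUnion, not_or, not_exists, not_and, Finset.mem_Ico,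
      mem_insert, mem_range] at hb
    obtain ⟨⟨b1, b2⟩, b3⟩ := hb
    have d3 : k / w < S := by
      rw [Nat.div_lt_iff_lt_mul hw0]; omega
    have := b2 _ d3
    refine ⟨Finset.mem_sdiff.2 ⟨mem_range.2 d3, fun h => b1 _ h (by omega) (by omega)⟩, ?_⟩
    simp only [hI, Finset.mem_Ico]; omega
  have hBk2 : 2 * √(Bk.card / m) ≤ ε / 2 := by
    have c1 : Bk.card ≤ Bad.card * w + S * (A + 1) + S := by
      refine (card_union_le _ _).trans (add_le_add ((card_union_le _ _).trans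
        (add_le_add ?_ ?_)) ?_)
      · exact card_biUnion_le_card_mul _ _ _ fun s _ => by simp
      · refine (card_biUnion_le_card_mul _ _ (A + 1) fun s _ => ?_).trans (by simp)
        refine (card_insert_le _ _).trans ?_
        rw [Nat.card_Ico]; omega
      · rw [Nat.card_Ico]; omega
    have c2 : (Bk.card : ℝ) ≤ Bad.card * w + S * (A + 1) + S := by exact_mod_cast c1
    have hδ0 : 0 < δ := by positivity
    rw [div_le_iff₀ hδ0] at m3
    have c3 : (Bad.card : ℝ) * w ≤ δ * m :=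
      calc _ ≤ δ * S * w := by gcongr
        _ = δ * (S * w) := by ring
        _ ≤ _ := by gcongr
    have c4 : √(Bk.card / m) ≤ ε / 4 := by
      rw [Real.sqrt_le_left (by positivity), div_le_iff₀ hm']
      have : (ε / 4) ^ 2 = 2 * δ := by rw [hδ]; ring
      rw [this]; linarith
    linarith
  have hlv : ∀ s ∈ G, ∀ z, ‖z - y s‖ ≤ κ → lam z = r * ls s + l :=
    fun s hs => (hx s (hGm s hs).1 (hGm s hs).2).2.1 r l hrl hr hl
  have hlv0 : ∀ s ∈ G, lam (y s) = r * ls s + l := fun s hs => hlv s hs _ (by simp [hκ.le])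
  have nγs : ∀ s k, ‖γs s k‖ ≤ 1 := by
    intro s k; simp only [hγs]; split_ifs
    · exact (nγ k).le
    · simp
  refine ⟨G, γs, fun s => Z (lam (y s)), y, (card_le_card sdiff_subset).trans (by simp),
    fun s => ⟨by simp [hγs, hI], fun k hk => ?_, nγs s⟩, fun s hs => ⟨mem_image_of_mem _ (hlamΛ _),
    fun z hz => by simp only [hlv s hs z hz, hlv0 s hs], ?_⟩, fun c ϑ hϑ => ?_, ?_⟩
  · refine if_neg fun h => ?_
    have h1 := h.2
    simp only [hI, Finset.mem_Ico] at h1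
    have : (s + 1) * w ≤ S * w := Nat.mul_le_mul_right _ h.1
    rw [add_mul] at this; omega
  · have hsS := (hGm s hs).1
    have t1 := nt_two (N := m) (d := fun k => γs s (k + 1) - ch (y s) * γs s k)
      (b₁ := 32 * R / S) (b₂ := 2) (by positivity) two_pos.le (I s) {s * w, s * w + w - A - 1}
      (fun k h2 h1 => ?_) (fun k h2 h1 => ?_) fun k => ?_
    · have u1 : √((I s).card / m) ≤ 1 / √S := by
        rw [one_div, ← Real.sqrt_inv]
        refine Real.sqrt_le_sqrt ?_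
        have : ((I s).card : ℝ) ≤ w := by
          exact_mod_cast (show (I s).card ≤ w by rw [hI, Nat.card_Ico]; omega)
        rw [div_le_iff₀ hm', inv_mul_eq_div, le_div_iff₀ hS']; nlinarith
      have u2 : √(({s * w, s * w + w - A - 1} : Finset ℕ).card / m) ≤ κ * ε / (2 * S) := by
        rw [Real.sqrt_le_left (by positivity), div_le_iff₀ hm']
        have : (({s * w, s * w + w - A - 1} : Finset ℕ).card : ℝ) ≤ 2 := by
          exact_mod_cast card_le_two
        refine this.trans ?_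
        rw [div_le_iff₀ (by positivity)] at m4
        rw [div_pow, div_mul_eq_mul_div, le_div_iff₀ (by positivity)]; linarith
      have u3 : 32 * R / √S ≤ κ * ε := by
        have := Real.le_sqrt_of_sq_le hS2
        rw [div_le_iff₀ (by positivity)] at this ⊢; linarith
      calc _ ≤ S * (32 * R / S * (1 / √S) + 2 * (κ * ε / (2 * S))) := by
            gcongr; exact t1.trans (by gcongr)
        _ = 32 * R / √S + κ * ε := by field_simp
        _ ≤ _ := by linarith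
    · have h3 : k + 1 ∈ I s := by
        simp only [hI, Finset.mem_Ico, mem_insert, mem_singleton] at *; omega
      simp only [hγs, hsS, h1, h3, and_self, if_true]
      rw [hγ, gam_add, mul_comm (ch (y s)), ← mul_sub, norm_mul, nγ, one_mul]
      refine (ch_lip' _ _).trans ?_
      have e : r • (th m (1 : ℕ) + ((1 : ℕ) : ℤ) • (((k : ℝ) / m : ℝ) : T)) +
          l • ((1 : ℕ) : ℤ) • (((q : ℝ) / m : ℝ) : T) - y s
          = r • th m 1 + r • ((((k : ℝ) / m : ℝ) : T) - (x s : T))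
            + l • ((((q : ℝ) / m : ℝ) : T) - (p : T)) := by
        simp only [hy]; push_cast; module
      simp only [hI, Finset.mem_Ico] at h1
      have v1 := nz_le hr' ((norm_th m 1).trans (show _ ≤ 1 / (S : ℝ) by
        push_cast; rw [one_pow]; gcongr))
      have v2 := nz_le hr' (coe_sub_le (hpos s hs k (by omega) (by omega)))
      have v3 := nz_le hl' (coe_sub_le hq.le)
      rw [e]
      have v4 := norm_add₃_le.trans (add_le_add_three v1 v2 v3)
      have v5 : (32 : ℝ) * R / S = 8 * (R * (1 / S) + R * (2 / S) + R * (1 / S)) := by ring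
      rw [v5]; linarith
    · have h3 : k + 1 ∉ I s := by
        simp only [hI, Finset.mem_Ico, mem_insert, mem_singleton] at *; omega
      simp [hγs, h1, h3]
    · refine (norm_sub_le _ _).trans ?_
      rw [norm_mul, norm_ch, one_mul]; linarith [nγs s (k + 1), nγs s k]
  · refine (nt_le_off (a := ε / 2) (b := 2) (by positivity) two_pos.le Bk (fun k hk hb => ?_)
      fun k _ => ?_).trans (by linarith)
    · obtain ⟨h1, h2⟩ := hBk1 k hk hb
      rw [hsum, if_pos ⟨h1, h2⟩]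
      set s := k / w with hs
      have hA := hαA c s
      obtain ⟨p1, p2⟩ := hα c s (hGm s h1).1 (hGm s h1).2
      simp only [hI, Finset.mem_Ico] at h2
      have d1 := Nat.div_add_mod' k w
      have e0 : bp w (α c) k = k + α c s := by
        rw [bp, ← hs, Nat.mod_eq_of_lt (by rw [← hs] at d1; omega)]; rw [← hs] at d1; omega
      beta_reduce
      set a := α c s
      rw [e0, hγ, gam_add, mul_comm (ch _), ← mul_sub, norm_mul, nγ, one_mul]
      refine (ch_lip' _ _).trans ?_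
      set L := Z (lam (y s)) with hL
      have hL1 : (L : ℝ) = ρ * (r * ls s + l) := by
        have := (hZ _ (hlamΛ (y s))).1
        rw [← hL, hlv0 s h1] at this
        exact_mod_cast congrArg (Rat.cast : ℚ → ℝ) this
      have e1 : L • (((c : ℝ) / Q : ℝ) : T)
          = r • ((ρ * ls s * (c / Q) : ℝ) : T) + l • ((ρ * (c / Q) : ℝ) : T) := by
        rw [zsmul_coe, zsmul_coe, zsmul_coe, ← AddCircle.coe_add, hL1]; congr 1; ring
      have e : r • (th m a + (a : ℤ) • (((k : ℝ) / m : ℝ) : T)) +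
          l • (a : ℤ) • (((q : ℝ) / m : ℝ) : T) - L • ϑ
          = (r • th m a + r • (a : ℤ) • ((((k : ℝ) / m : ℝ) : T) - (x s : T))
            + l • (a : ℤ) • ((((q : ℝ) / m : ℝ) : T) - (p : T)))
            + (r • ((a : ℤ) • (x s : T) - ((ρ * ls s * (c / Q) : ℝ) : T))
            + l • ((a : ℤ) • (p : T) - ((ρ * (c / Q) : ℝ) : T)))
            + (-L) • (ϑ - (((c : ℝ) / Q : ℝ) : T)) := by
        rw [smul_sub (-L), neg_smul L (((c : ℝ) / Q : ℝ) : T), e1]; module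
      have ha : |((a : ℤ) : ℝ)| ≤ A := by push_cast; rw [Nat.abs_cast]; exact_mod_cast hA
      have v1 := nz_le hr' ((norm_th m a).trans (show _ ≤ 1 / (S : ℝ) by
        rw [div_le_div_iff₀ hm' hS', ← sq_abs, one_mul]
        exact le_trans (by gcongr) m2))
      have v2 := nz_le hr' (nz_le ha (coe_sub_le (hpos s h1 k (by omega) (by omega))))
      have v3 := nz_le hl' (nz_le ha (coe_sub_le hq.le))
      have v4 := nz_le hr' p1
      have v5 := nz_le hl' p2
      have v6 := nz_le (r := -L) (R := |(L : ℝ)|) (by simp) hϑ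
      have w1 : R * (1 / S) + R * (A * (2 / S)) + R * (A * (1 / S)) ≤ ε / 64 := by
        rw [div_le_iff₀ hε] at hS1
        have : (R : ℝ) * (1 / S) + R * (A * (2 / S)) + R * (A * (1 / S))
            = R * (3 * A + 1) / S := by ring
        rw [this, div_le_div_iff₀ hS' (by norm_num)]; linarith
      have w2 : R * κ' + R * κ' ≤ ε / 64 := by
        have : R * κ' ≤ ε / 128 := by
          rw [hκ', ← mul_div_assoc, div_le_div_iff₀ (by positivity) (by norm_num)]; nlinarith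
        linarith
      have w3 : |(L : ℝ)| * (1 / Q) ≤ ε / 32 := by
        have := (hQ1 _ (hlamΛ (y s))).1
        rw [← hL, div_le_iff₀ hε] at this
        rw [mul_one_div, div_le_div_iff₀ hQ' (by norm_num)]; linarith
      rw [e]
      have := norm_add₃_le.trans (add_le_add_three (norm_add₃_le.trans (add_le_add_three v1 v2 v3))
        ((norm_add_le _ _).trans (add_le_add v4 v5)) v6)
      linarith
    · refine (norm_sub_le _ _).trans ?_
      rw [hsum, nγ]; split_ifs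
      · rw [norm_mul, norm_ch, nγ]; norm_num
      · simp
  · have e : ∀ k, ∑ s ∈ G, γs s k = if k / w ∈ G ∧ k ∈ I (k / w) then γ k else 0 := by
      intro k; simpa using hsum (fun _ => 1) k
    refine (nt_le_off (a := 0) (b := 2) le_rfl two_pos.le Bk (fun k hk hb => ?_)
      fun k _ => ?_).trans (by linarith)
    · rw [e, if_pos (hBk1 k hk hb)]; simp
    · rw [e]; split_ifs
      · simp
      · simp [nγ]

end Vale.Agent.P130
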