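import Mathlib

/-! Basic harmonic analysis on the circle: characters, bounded measurable functions,
the quadratic mean, finite Fourier sums. -/

noncomputable section
open MeasureTheory Finset Filter Topology
open scoped ComplexConjugate Real ENNReal

namespace Vale.Agent.P130

abbrev T := AddCircle (1 : ℝ)
abbrev hm : Measure T := AddCircle.haarAddCircle

theorem hm_eq : hm = volume := by
  rw [AddCircle.volume_eq_smul_haarAddCircle]; simp

def ch (x : T) : ℂ := AddCircle.toCircle x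

theorem ch_add (x y : T) : ch (x + y) = ch x * ch y := by
  simp [ch, AddCircle.toCircle_add]

@[simp] theorem ch_zero : ch 0 = 1 := by simp [ch]

@[simp] theorem norm_ch (x : T) : ‖ch x‖ = 1 := Circle.norm_coe _

theorem ch_neg (x : T) : ch (-x) = conj (ch x) := by
  rw [ch, AddCircle.toCircle_neg, Circle.coe_inv_eq_conj]; rfl

theorem ch_mul_neg (x : T) : ch x * ch (-x) = 1 := by rw [← ch_add]; simp

theorem fourier_eq (n : ℤ) (x : T) : fourier n x = ch (n • x) := rfl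

@[fun_prop] theorem continuous_ch : Continuous ch :=
  continuous_subtype_val.comp AddCircle.continuous_toCircle

@[fun_prop] theorem measurable_ch : Measurable ch := continuous_ch.measurable

theorem ch_coe (x : ℝ) : ch (x : T) = Complex.exp (Complex.I * ((2 * π * x : ℝ) : ℂ)) := by
  have := @fourier_coe_apply 1 1 x
  rw [fourier_eq, one_zsmul] at this
  rw [this]; congr 1; push_cast; ring

theorem exists_rep (x : T) : ∃ r : ℝ, (r : T) = x ∧ |r| = ‖x‖ ∧ |r| ≤ 1 / 2 := by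
  induction x using QuotientAddGroup.induction_on with
  | H a =>
    refine ⟨a - round a, ?_, ?_, abs_sub_round a⟩
    · rw [AddCircle.coe_sub]
      have : (((round a : ℤ) : ℝ) : T) = 0 := by
        rw [AddCircle.coe_eq_zero_iff]; exact ⟨round a, by simp⟩
      rw [this, sub_zero]
    · rw [UnitAddCircle.norm_eq]

theorem norm_ch_sub_one (x : T) : ‖ch x - 1‖ ≤ 2 * π * ‖x‖ ∧ 4 * ‖x‖ ≤ ‖ch x - 1‖ := by
  obtain ⟨r, rfl, h1, h2⟩ := exists_rep x
  rw [← h1, ch_coe, Complex.norm_exp_I_mul_ofReal_sub_one]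
  have e : 2 * π * r / 2 = π * r := by ring
  rw [e, Real.norm_eq_abs, abs_mul, abs_two]
  constructor
  · have := Real.abs_sin_le_abs (x := π * r)
    rw [abs_mul, abs_of_pos Real.pi_pos] at this; linarith
  · have h3 : |π * r| ≤ π / 2 := by
      rw [abs_mul, abs_of_pos Real.pi_pos]; nlinarith [Real.pi_pos]
    have := Real.mul_abs_le_abs_sin h3
    rw [abs_mul, abs_of_pos Real.pi_pos] at this
    have e2 : 2 / π * (π * |r|) = 2 * |r| := by field_simp
    linarith

theorem norm_ch_sub (x y : T) : ‖ch x - ch y‖ = ‖ch (x - y) - 1‖ := by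
  have : ch x - ch y = (ch (x - y) - 1) * ch y := by
    rw [sub_mul, ← ch_add]; simp
  rw [this, norm_mul, norm_ch, mul_one]

theorem ch_lip (x y : T) : ‖ch x - ch y‖ ≤ 2 * π * ‖x - y‖ := by
  rw [norm_ch_sub]; exact (norm_ch_sub_one _).1

theorem ch_low (x y : T) : 4 * ‖x - y‖ ≤ ‖ch x - ch y‖ := by
  rw [norm_ch_sub]; exact (norm_ch_sub_one _).2

theorem norm_coe_le (r : ℝ) : ‖(r : T)‖ ≤ |r| := by
  rw [UnitAddCircle.norm_eq]; simpa using round_le r 0

theorem coe_int (n : ℤ) : (((n : ℝ)) : T) = 0 := by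
  rw [AddCircle.coe_eq_zero_iff]; exact ⟨n, by simp⟩

theorem zsmul_coe (n : ℤ) (r : ℝ) : n • (r : T) = ((n * r : ℝ) : T) := by
  rw [← AddCircle.coe_zsmul, zsmul_eq_mul]

theorem mp_zsmul {n : ℤ} (hn : n ≠ 0) : MeasurePreserving (fun y : T => n • y) hm hm :=
  MeasureTheory.Measure.measurePreserving_zsmul hm hn

theorem mp_aff {n : ℤ} (hn : n ≠ 0) (b : T) : MeasurePreserving (fun y : T => n • y + b) hm hm :=
  (measurePreserving_add_right hm b).comp (mp_zsmul hn)

/-- bounded measurable functions -/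
@[fun_prop] def BM (F : T → ℂ) : Prop := Measurable F ∧ ∃ C, ∀ η, ‖F η‖ ≤ C

@[fun_prop] theorem BM.const (c : ℂ) : BM (fun _ => c) := ⟨measurable_const, ‖c‖, fun _ => le_rfl⟩

@[fun_prop] theorem BM.comp {F : T → ℂ} {g : T → T} (hF : BM F) (hg : Measurable g) :
    BM (fun η => F (g η)) := by
  obtain ⟨h, C, hC⟩ := hF; exact ⟨h.comp hg, C, fun _ => hC _⟩

@[fun_prop] theorem BM.add {F G : T → ℂ} (hF : BM F) (hG : BM G) : BM (fun η => F η + G η) := by
  obtain ⟨h, C, hC⟩ := hF; obtain ⟨h', C', hC'⟩ := hG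
  exact ⟨h.add h', C + C', fun η => (norm_add_le _ _).trans (add_le_add (hC η) (hC' η))⟩

@[fun_prop] theorem BM.sub {F G : T → ℂ} (hF : BM F) (hG : BM G) : BM (fun η => F η - G η) := by
  obtain ⟨h, C, hC⟩ := hF; obtain ⟨h', C', hC'⟩ := hG
  exact ⟨h.sub h', C + C', fun η => (norm_sub_le _ _).trans (add_le_add (hC η) (hC' η))⟩

@[fun_prop] theorem BM.mul {F G : T → ℂ} (hF : BM F) (hG : BM G) : BM (fun η => F η * G η) := by
  obtain ⟨h, C, hC⟩ := hF; obtain ⟨h', C', hC'⟩ := hG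
  refine ⟨h.mul h', C * C', fun η => ?_⟩
  rw [norm_mul]
  exact mul_le_mul (hC η) (hC' η) (norm_nonneg _) ((norm_nonneg _).trans (hC η))

@[fun_prop] theorem BM.conj {F : T → ℂ} (hF : BM F) : BM (fun η => conj (F η)) := by
  obtain ⟨h, C, hC⟩ := hF
  exact ⟨Complex.continuous_conj.measurable.comp h, C, fun η => by simpa using hC η⟩

@[fun_prop] theorem BM.sum {ι : Type*} {s : Finset ι} {F : ι → T → ℂ} (hF : ∀ i ∈ s, BM (F i)) :
    BM (fun η => ∑ i ∈ s, F i η) := by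
  classical
  induction s using Finset.induction_on with
  | empty => simpa using BM.const 0
  | insert a s ha ih =>
    simp only [Finset.sum_insert ha]
    exact (hF a (by simp)).add (ih fun i hi => hF i (by simp [hi]))

@[fun_prop] theorem BM_ch : BM ch := ⟨measurable_ch, 1, fun _ => (norm_ch _).le⟩

theorem BM.memLp {F : T → ℂ} (hF : BM F) (p : ℝ≥0∞) : MemLp F p hm := by
  obtain ⟨h, C, hC⟩ := hF
  exact MemLp.of_bound h.aestronglyMeasurable C (Eventually.of_forall hC)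

theorem BM.integrable {F : T → ℂ} (hF : BM F) : Integrable F hm :=
  memLp_one_iff_integrable.1 (hF.memLp 1)

theorem BM.int_sq {F : T → ℂ} (hF : BM F) : Integrable (fun η => ‖F η‖ ^ 2) hm :=
  (hF.memLp 2).integrable_norm_pow two_ne_zero

/-- unimodular measurable functions -/
def UM (F : T → ℂ) : Prop := Measurable F ∧ ∀ η, ‖F η‖ = 1

theorem UM.bm {F : T → ℂ} (hF : UM F) : BM F := ⟨hF.1, 1, fun η => (hF.2 η).le⟩

/-- quadratic mean -/
def nm (F : T → ℂ) : ℝ := √(∫ η, ‖F η‖ ^ 2 ∂hm)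

theorem nm_nonneg (F : T → ℂ) : 0 ≤ nm F := Real.sqrt_nonneg _

theorem nm_sq (F : T → ℂ) : nm F ^ 2 = ∫ η, ‖F η‖ ^ 2 ∂hm :=
  Real.sq_sqrt (integral_nonneg fun _ => by positivity)

theorem norm_L2 {α : Type*} [MeasurableSpace α] {μ : Measure α} (F : Lp ℂ 2 μ) :
    ‖F‖ = √(∫ η, ‖F η‖ ^ 2 ∂μ) := by
  have h := @L2.inner_def α ℂ ℂ _ _ _ _ _ F F
  rw [inner_self_eq_norm_sq_to_K] at h
  simp only [inner_self_eq_norm_sq_to_K] at h
  have h2 : ‖F‖ ^ 2 = ∫ η, ‖F η‖ ^ 2 ∂μ := by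
    have : ∫ η, ((‖F η‖ : ℂ)) ^ 2 ∂μ = ((∫ η, ‖F η‖ ^ 2 ∂μ : ℝ) : ℂ) := by
      rw [← integral_complex_ofReal]; simp
    erw [this] at h
    apply Complex.ofReal_injective
    rw [← h]; simp
  rw [← h2, Real.sqrt_sq (norm_nonneg _)]

theorem nm_eq_norm {F : T → ℂ} (hF : MemLp F 2 hm) : nm F = ‖hF.toLp F‖ := by
  rw [norm_L2, nm]; congr 1
  refine integral_congr_ae ?_
  filter_upwards [hF.coeFn_toLp] with η h; rw [h]

theorem nm_add_le {F G : T → ℂ} (hF : BM F) (hG : BM G) :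
    nm (fun η => F η + G η) ≤ nm F + nm G := by
  rw [nm_eq_norm (hF.memLp 2), nm_eq_norm (hG.memLp 2), nm_eq_norm ((hF.add hG).memLp 2)]
  exact le_of_eq_of_le (congrArg _ (MemLp.toLp_add (hF.memLp 2) (hG.memLp 2))) (norm_add_le _ _)

theorem nm_congr {F G : T → ℂ} (h : ∀ η, ‖F η‖ = ‖G η‖) : nm F = nm G := by
  simp only [nm, h]

theorem nm_mono {F G : T → ℂ} (hG : BM G) (h : ∀ η, ‖F η‖ ≤ ‖G η‖) : nm F ≤ nm G := by
  refine Real.sqrt_le_sqrt (integral_mono_of_nonneg (Eventually.of_forall fun _ => by positivity)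
    hG.int_sq (Eventually.of_forall fun η => ?_))
  exact pow_le_pow_left₀ (norm_nonneg _) (h η) 2

theorem nm_sub_le {F G : T → ℂ} (hF : BM F) (hG : BM G) :
    nm (fun η => F η - G η) ≤ nm F + nm G := by
  have h := nm_add_le hF (show BM (fun η => (-1) * G η) by fun_prop)
  rw [nm_congr (F := fun η => (-1) * G η) (G := G) (by simp)] at h
  exact le_of_eq_of_le (nm_congr fun η => by congr 1; ring) h

theorem nm_smul (c : ℂ) (F : T → ℂ) : nm (fun η => c * F η) = ‖c‖ * nm F := by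
  simp only [nm, norm_mul, mul_pow]
  rw [integral_const_mul, Real.sqrt_mul (by positivity), Real.sqrt_sq (norm_nonneg _)]

theorem nm_zero : nm (fun _ => 0) = 0 := by simp [nm]

theorem nm_sum_le {ι : Type*} {s : Finset ι} {F : ι → T → ℂ} (hF : ∀ i ∈ s, BM (F i)) :
    nm (fun η => ∑ i ∈ s, F i η) ≤ ∑ i ∈ s, nm (F i) := by
  classical
  induction s using Finset.induction_on with
  | empty => simp [nm_zero]
  | insert a s ha ih =>
    simp only [Finset.sum_insert ha]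
    have h2 : ∀ i ∈ s, BM (F i) := fun i hi => hF i (by simp [hi])
    exact (nm_add_le (hF a (by simp)) (BM.sum h2)).trans (add_le_add le_rfl (ih h2))

theorem nm_um {Θ : T → ℂ} (h : UM Θ) (F : T → ℂ) : nm (fun η => Θ η * F η) = nm F :=
  nm_congr fun η => by rw [norm_mul, h.2, one_mul]

theorem nm_comp {g : T → T} (hg : MeasurePreserving g hm hm) {F : T → ℂ} (hF : BM F) :
    nm (fun η => F (g η)) = nm F := by
  unfold nm; congr 1
  have := integral_map (μ := hm) hg.measurable.aemeasurable (f := fun η => ‖F η‖ ^ 2)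
    (by have := hF.1; fun_prop)
  rw [hg.map_eq] at this; exact this.symm

theorem nm_tri {F G H : T → ℂ} (hF : BM F) (hG : BM G) (hH : BM H) :
    nm (fun η => F η - H η) ≤ nm (fun η => F η - G η) + nm (fun η => G η - H η) :=
  le_of_eq_of_le (nm_congr fun η => by congr 1; ring) (nm_add_le (hF.sub hG) (hG.sub hH))


/-! ### finite Fourier sums -/

theorem int_cc {F : T → ℂ} : ∫ η, F η * conj (F η) ∂hm = ((nm F ^ 2 : ℝ) : ℂ) := by
  rw [nm_sq, ← integral_complex_ofReal]; congr 1; ext η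
  rw [Complex.mul_conj, Complex.normSq_eq_norm_sq]

theorem wpars {ι : Type*} {G : T → ℂ} (hG : BM G) (s : Finset ι) (fr : ι → ℤ) (a : ι → ℂ)
    (h : ∀ i ∈ s, ∀ j ∈ s, i ≠ j → ∫ η, G η * conj (G η) * ch ((fr i - fr j) • η) ∂hm = 0) :
    nm (fun η => G η * ∑ i ∈ s, a i * ch (fr i • η)) ^ 2 = nm G ^ 2 * ∑ i ∈ s, ‖a i‖ ^ 2 := by
  classical
  apply Complex.ofReal_injective
  rw [← int_cc]
  have e : ∀ η, G η * (∑ i ∈ s, a i * ch (fr i • η)) * conj (G η * ∑ i ∈ s, a i * ch (fr i • η))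
      = ∑ i ∈ s, ∑ j ∈ s, (a i * conj (a j)) * (G η * conj (G η) * ch ((fr i - fr j) • η)) := by
    intro η
    simp only [map_mul, map_sum, Finset.mul_sum, Finset.sum_mul, ← ch_neg]
    rw [Finset.sum_comm]
    refine Finset.sum_congr rfl fun i _ => Finset.sum_congr rfl fun j _ => ?_
    rw [sub_smul, sub_eq_add_neg, ch_add]; ring
  simp only [e]
  rw [integral_finset_sum _ fun i _ => (BM.integrable (by fun_prop))]
  push_cast
  rw [Finset.mul_sum]
  refine Finset.sum_congr rfl fun i hi => ?_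
  rw [integral_finset_sum _ fun j _ => (BM.integrable (by fun_prop)), Finset.sum_eq_single i]
  · rw [integral_const_mul]
    simp only [sub_self, zero_smul, ch_zero, mul_one]
    rw [int_cc, Complex.mul_conj, Complex.normSq_eq_norm_sq]; push_cast; ring
  · intro j hj hji
    rw [integral_const_mul, h i hi j hj (Ne.symm hji), mul_zero]
  · intro h; exact absurd hi h

theorem int_rot {φ : T → ℂ} {N j : ℤ} (hN : 0 < N) (hj : j ≠ 0) (hjN : |j| < N) :
    ∫ η, φ (N • η) * ch (j • η) ∂hm = 0 := by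
  set b : T := (((1 : ℝ) / N : ℝ) : T) with hb
  have hN' : (0 : ℝ) < N := by exact_mod_cast hN
  have h1 : N • b = 0 := by
    rw [hb, zsmul_coe, mul_one_div_cancel hN'.ne']; simpa using coe_int 1
  have h2 : ch (j • b) ≠ 1 := by
    intro h
    have h3 := (norm_ch_sub_one (j • b)).2
    rw [h, sub_self, norm_zero] at h3
    have h4 : j • b = 0 := norm_le_zero_iff.1 (by linarith)
    rw [hb, zsmul_coe, AddCircle.coe_eq_zero_iff] at h4
    obtain ⟨n, hn⟩ := h4
    have h5 : n * N = j := by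
      have : (n : ℝ) * N = j := by
        simp only [zsmul_eq_mul, mul_one] at hn; rw [hn]; field_simp
      exact_mod_cast this
    have h6 : n ≠ 0 := by rintro rfl; simp at h5; exact hj h5.symm
    have h7 : 1 ≤ |n| := Int.one_le_abs h6
    rw [← h5, abs_mul, abs_of_pos hN] at hjN; nlinarith
  have h3 := integral_add_right_eq_self (μ := hm) (fun η => φ (N • η) * ch (j • η)) b
  simp only [smul_add, h1, add_zero, ch_add, ← mul_assoc] at h3
  rw [integral_mul_const] at h3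
  have : (∫ η, φ (N • η) * ch (j • η) ∂hm) * (ch (j • b) - 1) = 0 := by rw [mul_sub, h3]; ring
  exact (mul_eq_zero.1 this).resolve_right (sub_ne_zero.2 h2)

theorem nm_one : nm (fun _ => 1) = 1 := by simp [nm]

theorem pars {ι : Type*} (s : Finset ι) (fr : ι → ℤ) (a : ι → ℂ) (h : Set.InjOn fr s) :
    nm (fun η => ∑ i ∈ s, a i * ch (fr i • η)) ^ 2 = ∑ i ∈ s, ‖a i‖ ^ 2 := by
  have := wpars (BM.const 1) s fr a fun i hi j hj hij => by
    have h0 : fr i - fr j ≠ 0 := sub_ne_zero.2 fun e => hij (h hi hj e)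
    have := int_rot (φ := fun _ => 1) (N := |fr i - fr j| + 1) (by positivity) h0 (by linarith)
    simpa using this
  simpa [nm_one] using this

/-- normalised finite Fourier transform -/
def ft (N : ℕ) (u : ℕ → ℂ) (η : T) : ℂ :=
  ∑ n ∈ range N, ((√N)⁻¹ : ℝ) * u n * ch ((n : ℤ) • η)

@[fun_prop] theorem BM_ft (N : ℕ) (u : ℕ → ℂ) : BM (ft N u) := by unfold ft; fun_prop

/-- normalised norm of a finite sequence -/
def nt (N : ℕ) (u : ℕ → ℂ) : ℝ := nm (ft N u)

theorem nt_nonneg (N : ℕ) (u : ℕ → ℂ) : 0 ≤ nt N u := nm_nonneg _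

theorem sum_nrm (N : ℕ) (u : ℕ → ℂ) :
    ∑ n ∈ range N, ‖(((√N)⁻¹ : ℝ) : ℂ) * u n‖ ^ 2 = (∑ n ∈ range N, ‖u n‖ ^ 2) / N := by
  rw [Finset.sum_div]
  refine Finset.sum_congr rfl fun n _ => ?_
  rw [norm_mul, mul_pow, Complex.norm_real, Real.norm_eq_abs, sq_abs, inv_pow,
    Real.sq_sqrt (Nat.cast_nonneg _)]
  ring

theorem nt_sq (N : ℕ) (u : ℕ → ℂ) : nt N u ^ 2 = (∑ n ∈ range N, ‖u n‖ ^ 2) / N := by
  rw [← sum_nrm]
  exact pars (range N) (fun n => (n : ℤ)) _ fun _ _ _ _ h => Nat.cast_injective h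

theorem nt_eq (N : ℕ) (u : ℕ → ℂ) : nt N u = √((∑ n ∈ range N, ‖u n‖ ^ 2) / N) := by
  rw [← nt_sq, Real.sqrt_sq (nt_nonneg _ _)]

theorem nm_indep {G : T → ℂ} (hG : BM G) (N : ℕ) (u : ℕ → ℂ) :
    nm (fun η => G ((N : ℤ) • η) * ft N u η) = nm G * nt N u := by
  rcases Nat.eq_zero_or_pos N with rfl | hN
  · simp [ft, nt, nm]
  have hN' : (0 : ℤ) < N := by exact_mod_cast hN
  have := wpars (G := fun η => G ((N : ℤ) • η)) (by fun_prop) (range N) (fun n => (n : ℤ))
    (fun n => ((√N)⁻¹ : ℝ) * u n) fun i hi j hj hij => by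
      refine int_rot (φ := fun y => G y * conj (G y)) hN' (by omega) ?_
      simp only [mem_range] at hi hj
      rw [abs_lt]; omega
  rw [nm_comp (mp_zsmul hN'.ne') hG, sum_nrm, ← nt_sq, ← mul_pow] at this
  exact (pow_left_inj₀ (nm_nonneg _) (mul_nonneg (nm_nonneg _) (nt_nonneg _ _)) two_ne_zero).1 this

theorem ft_congr {N : ℕ} {u v : ℕ → ℂ} (h : ∀ n < N, u n = v n) : ft N u = ft N v := by
  ext η; exact Finset.sum_congr rfl fun n hn => by rw [h n (mem_range.1 hn)]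

theorem nt_congr {N : ℕ} {u v : ℕ → ℂ} (h : ∀ n < N, u n = v n) : nt N u = nt N v := by
  rw [nt, ft_congr h, nt]

theorem ft_add (N : ℕ) (u v : ℕ → ℂ) (η : T) :
    ft N (fun n => u n + v n) η = ft N u η + ft N v η := by
  simp only [ft, ← Finset.sum_add_distrib]; exact Finset.sum_congr rfl fun _ _ => by ring

theorem ft_sub (N : ℕ) (u v : ℕ → ℂ) (η : T) :
    ft N (fun n => u n - v n) η = ft N u η - ft N v η := by
  simp only [ft, ← Finset.sum_sub_distrib]; exact Finset.sum_congr rfl fun _ _ => by ring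

theorem ft_smul (N : ℕ) (c : ℂ) (u : ℕ → ℂ) (η : T) :
    ft N (fun n => c * u n) η = c * ft N u η := by
  simp only [ft, Finset.mul_sum]; exact Finset.sum_congr rfl fun _ _ => by ring

theorem ft_sum {ι : Type*} (s : Finset ι) (N : ℕ) (u : ι → ℕ → ℂ) (η : T) :
    ft N (fun n => ∑ i ∈ s, u i n) η = ∑ i ∈ s, ft N (u i) η := by
  simp only [ft, Finset.mul_sum, Finset.sum_mul]; rw [Finset.sum_comm]

theorem nt_add_le (N : ℕ) (u v : ℕ → ℂ) : nt N (fun n => u n + v n) ≤ nt N u + nt N v := by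
  unfold nt
  exact le_of_eq_of_le (nm_congr fun η => by rw [ft_add]) (nm_add_le (BM_ft _ _) (BM_ft _ _))

theorem nt_sub_le (N : ℕ) (u v : ℕ → ℂ) : nt N (fun n => u n - v n) ≤ nt N u + nt N v := by
  unfold nt
  exact le_of_eq_of_le (nm_congr fun η => by rw [ft_sub]) (nm_sub_le (BM_ft _ _) (BM_ft _ _))

theorem nt_smul (N : ℕ) (c : ℂ) (u : ℕ → ℂ) : nt N (fun n => c * u n) = ‖c‖ * nt N u := by
  unfold nt; rw [← nm_smul]; exact nm_congr fun η => by rw [ft_smul]

theorem nt_sum_le {ι : Type*} (s : Finset ι) (N : ℕ) (u : ι → ℕ → ℂ) :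
    nt N (fun n => ∑ i ∈ s, u i n) ≤ ∑ i ∈ s, nt N (u i) := by
  unfold nt
  exact le_of_eq_of_le (nm_congr fun η => by rw [ft_sum]) (nm_sum_le fun _ _ => BM_ft _ _)

theorem nt_mono {N : ℕ} {u v : ℕ → ℂ} (h : ∀ n < N, ‖u n‖ ≤ ‖v n‖) : nt N u ≤ nt N v := by
  rw [nt_eq, nt_eq]
  gcongr with n hn
  exact h n (mem_range.1 hn)

theorem nt_le_of_sq {N : ℕ} {u : ℕ → ℂ} {b : ℝ} (hb : 0 ≤ b)
    (h : ∑ n ∈ range N, ‖u n‖ ^ 2 ≤ b ^ 2 * N) : nt N u ≤ b := by
  rcases Nat.eq_zero_or_pos N with rfl | hN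
  · simp [nt_eq, hb]
  rw [nt_eq, Real.sqrt_le_left hb, div_le_iff₀ (by exact_mod_cast hN)]; exact h

theorem nt_le_sup {N : ℕ} {u : ℕ → ℂ} {b : ℝ} (hb : 0 ≤ b) (h : ∀ n < N, ‖u n‖ ≤ b) :
    nt N u ≤ b := by
  refine nt_le_of_sq hb ?_
  calc _ ≤ ∑ n ∈ range N, b ^ 2 := Finset.sum_le_sum fun n hn =>
        pow_le_pow_left₀ (norm_nonneg _) (h n (mem_range.1 hn)) 2
    _ = _ := by simp [mul_comm]

/-- a sequence that is at most `a` off a set `B` and at most `b` everywhere -/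
theorem nt_le_off {N : ℕ} {u : ℕ → ℂ} {a b : ℝ} (ha : 0 ≤ a) (hb : 0 ≤ b) (B : Finset ℕ)
    (h : ∀ n < N, n ∉ B → ‖u n‖ ≤ a) (h' : ∀ n < N, ‖u n‖ ≤ b) :
    nt N u ≤ a + b * √(B.card / N) := by
  have e : nt N u = nt N (fun n => (if n ∈ B then 0 else u n) + (if n ∈ B then u n else 0)) :=
    nt_congr fun n _ => by split_ifs <;> simp
  rw [e]
  refine (nt_add_le _ _ _).trans (add_le_add (nt_le_sup ha fun n hn => ?_) ?_)
  · split_ifs with hh
    · simpa
    · exact h n hn hh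
  · rw [nt_eq, ← Real.sqrt_sq hb, ← Real.sqrt_mul (by positivity), ← mul_div_assoc]
    gcongr
    calc _ ≤ ∑ n ∈ range N, (if n ∈ B then b ^ 2 else 0) := Finset.sum_le_sum fun n hn => by
          split_ifs
          · exact pow_le_pow_left₀ (norm_nonneg _) (h' n (mem_range.1 hn)) 2
          · simp
      _ = ∑ n ∈ range N ∩ B, b ^ 2 := by rw [Finset.sum_ite_mem]
      _ ≤ ∑ n ∈ B, b ^ 2 := Finset.sum_le_sum_of_subset_of_nonneg inter_subset_right
          fun _ _ _ => by positivity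
      _ = _ := by simp [mul_comm]

theorem sum_blocks {M : Type*} [AddCommMonoid M] (m N : ℕ) (F : ℕ → M) :
    ∑ x ∈ range (m * N), F x = ∑ k ∈ range m, ∑ i ∈ range N, F (k * N + i) := by
  induction m with
  | zero => simp
  | succ m ih => rw [add_mul, one_mul, Finset.sum_range_add, ih, Finset.sum_range_succ]

theorem ft_blocks (m N : ℕ) (V : ℕ → ℂ) (η : T) :
    ft (m * N) V η = ∑ k ∈ range m, ((√m)⁻¹ : ℝ) * ft N (fun i => V (k * N + i)) η *
      ch ((k : ℤ) • (N : ℤ) • η) := by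
  rw [ft, sum_blocks]
  refine Finset.sum_congr rfl fun k _ => ?_
  rw [ft, Finset.mul_sum, Finset.sum_mul]
  refine Finset.sum_congr rfl fun i _ => ?_
  have : ((k * N + i : ℕ) : ℤ) • η = (i : ℤ) • η + (k : ℤ) • (N : ℤ) • η := by
    push_cast; module
  rw [this, ch_add, Nat.cast_mul, Real.sqrt_mul (Nat.cast_nonneg _)]; push_cast; ring

theorem nt_blocks {m N : ℕ} {V : ℕ → ℂ} {b : ℝ} (hb : 0 ≤ b)
    (h : ∀ k < m, nt N (fun i => V (k * N + i)) ≤ b) : nt (m * N) V ≤ b := by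
  rcases Nat.eq_zero_or_pos N with rfl | hN
  · simp [nt_eq, hb]
  refine nt_le_of_sq hb ?_
  rw [sum_blocks]
  calc _ ≤ ∑ k ∈ range m, b ^ 2 * N := Finset.sum_le_sum fun k hk => by
        have h1 := pow_le_pow_left₀ (nt_nonneg _ _) (h k (mem_range.1 hk)) 2
        rwa [nt_sq, div_le_iff₀ (by exact_mod_cast hN)] at h1
    _ = _ := by simp; ring

/-- tensor product of a pattern of length `N` with a sequence of periods -/
def ten (N : ℕ) (c γ : ℕ → ℂ) (x : ℕ) : ℂ := c (x % N) * γ (x / N)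

theorem ten_block {N : ℕ} (c γ : ℕ → ℂ) (k : ℕ) {i : ℕ} (hi : i < N) :
    ten N c γ (k * N + i) = c i * γ k := by
  have hN : 0 < N := by omega
  rw [ten, add_comm, Nat.add_mul_mod_self_right, Nat.add_mul_div_right _ _ hN,
    Nat.mod_eq_of_lt hi, Nat.div_eq_of_lt hi, zero_add]

theorem ft_ten (m N : ℕ) (c γ : ℕ → ℂ) (η : T) :
    ft (m * N) (ten N c γ) η = ft m γ ((N : ℤ) • η) * ft N c η := by
  rw [ft_blocks]
  conv_rhs => rw [ft, Finset.sum_mul]
  refine Finset.sum_congr rfl fun k _ => ?_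
  rw [ft_congr (v := fun i => γ k * c i) fun i hi => by rw [ten_block _ _ _ hi, mul_comm], ft_smul]
  ring

theorem nt_ten (m N : ℕ) (c γ : ℕ → ℂ) : nt (m * N) (ten N c γ) = nt m γ * nt N c := by
  rw [nt, nt, ← nm_indep (BM_ft _ _)]; exact nm_congr fun η => by rw [ft_ten]

theorem ft_shift {N b : ℕ} {v : ℕ → ℂ} (h0 : ∀ x < b, v x = 0) (h1 : ∀ x, N ≤ x → v x = 0)
    (η : T) : ft N (fun x => v (x + b)) η = ch (-((b : ℤ) • η)) * ft N v η := by
  set F : ℕ → ℂ := fun n => ((√N)⁻¹ : ℝ) * v n * ch ((n : ℤ) • η) with hF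
  have e1 : ∑ n ∈ range (N + b), F n = ∑ n ∈ range N, F n := by
    rw [Finset.sum_range_add, Finset.sum_eq_zero (s := range b), add_zero]
    intro x _; simp [hF, h1 (N + x) (by omega)]
  have e2 : ∑ n ∈ range (b + N), F n = ∑ n ∈ range N, F (b + n) := by
    rw [Finset.sum_range_add, Finset.sum_eq_zero (s := range b), zero_add]
    intro x hx; simp [hF, h0 x (mem_range.1 hx)]
  rw [add_comm, e1] at e2
  have e3 : ft N v η = ∑ n ∈ range N, F n := rfl
  rw [e3, e2, ft, Finset.mul_sum]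
  refine Finset.sum_congr rfl fun n _ => ?_
  have : (n : ℤ) • η = -((b : ℤ) • η) + ((b + n : ℕ) : ℤ) • η := by push_cast; module
  rw [this, ch_add, hF, add_comm b n]; ring

theorem shift_est (N : ℕ) (a : ℤ → ℂ) {C : ℝ} (hC : ∀ k, ‖a k‖ ≤ C) (b : ℤ) :
    nm (fun η => ft N (fun n => a (n + b)) η - ch (-(b • η)) * ft N (fun n => a n) η)
      ≤ 2 * C * √(|b| / N) := by
  have hC0 : 0 ≤ C := (norm_nonneg _).trans (hC 0)
  set f : ℤ → ℂ := fun k => ((√N)⁻¹ : ℝ) * a k with hf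
  have key : ∀ s : Finset ℤ, (s.card : ℝ) ≤ |b| →
      nm (fun η => ∑ k ∈ s, f k * ch (k • η)) ≤ C * √(|b| / N) := by
    intro s hs
    refine le_of_sq_le_sq ?_ (by positivity) |> fun h => h
    rw [pars s (fun k => k) f fun _ _ _ _ h => h, mul_pow, Real.sq_sqrt (by positivity)]
    calc _ ≤ ∑ k ∈ s, C ^ 2 / N := Finset.sum_le_sum fun k _ => by
          rw [hf, norm_mul, mul_pow, Complex.norm_real, Real.norm_eq_abs, sq_abs, inv_pow,
            Real.sq_sqrt (Nat.cast_nonneg _), mul_comm, ← div_eq_mul_inv]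
          gcongr; exact hC k
      _ = s.card * (C ^ 2 / N) := by simp
      _ ≤ |b| * (C ^ 2 / N) := by gcongr
      _ = _ := by ring
  have e1 : ∀ (c : ℤ) (η : T), ch (c • η) * ft N (fun n => a (n + c)) η
      = ∑ k ∈ Finset.Ico c (N + c), f k * ch (k • η) := by
    intro c η
    rw [ft, Finset.mul_sum]
    refine Finset.sum_bij (fun n _ => (n : ℤ) + c) ?_ ?_ ?_ ?_
    · intro n hn; simp only [mem_range, Finset.mem_Ico] at *; omega
    · intro n _ n' _ h; omega
    · intro k hk; simp only [Finset.mem_Ico] at hk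
      exact ⟨(k - c).toNat, by simp only [mem_range]; omega, by omega⟩
    · intro n _; rw [add_smul, ch_add, hf]; ring
  have e2 : ∀ η : T, ‖ft N (fun n => a (n + b)) η - ch (-(b • η)) * ft N (fun n => a n) η‖
      = ‖∑ k ∈ Finset.Ico b (N + b) \ Finset.Ico 0 (N + 0 : ℤ), f k * ch (k • η)
        - ∑ k ∈ Finset.Ico 0 (N + 0 : ℤ) \ Finset.Ico b (N + b), f k * ch (k • η)‖ := by
    intro η
    rw [Finset.sum_sdiff_sub_sum_sdiff, ← e1, ← e1]
    have : ∀ z : ℂ, ‖z‖ = ‖ch (b • η) * z‖ := fun z => by rw [norm_mul, norm_ch, one_mul]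
    rw [this, mul_sub, ← mul_assoc, ch_mul_neg]
    simp
  rw [nm_congr e2]
  refine (nm_sub_le (by fun_prop) (by fun_prop)).trans ?_
  have c1 : ∀ c d : ℤ, ((Finset.Ico c (N + c) \ Finset.Ico d (N + d)).card : ℝ) ≤ |c - d| := by
    intro c d
    have : (Finset.Ico c (N + c) \ Finset.Ico d (N + d)).card ≤ (c - d).natAbs := by
      rcases le_total c d with h | h
      · refine (Finset.card_le_card (t := Finset.Ico c d) fun k hk => ?_).trans ?_
        · simp only [Finset.mem_sdiff, Finset.mem_Ico] at *; omega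
        · rw [Int.card_Ico]; omega
      · refine (Finset.card_le_card (t := Finset.Ico (N + d) (N + c)) fun k hk => ?_).trans ?_
        · simp only [Finset.mem_sdiff, Finset.mem_Ico] at *; omega
        · rw [Int.card_Ico]; omega
    calc _ ≤ (((c - d).natAbs : ℕ) : ℝ) := by exact_mod_cast this
      _ = _ := by rw [Nat.cast_natAbs]
  have k1 := key _ (by simpa using c1 b 0)
  have k2 := key _ (by simpa using c1 0 b)
  simp only [add_zero] at *
  linarith

end Vale.Agent.P130
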