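import Vale.Agent.P130.Basic

/-! Cells of the circle, trigonometric approximation, finite permutations. -/

noncomputable section
open MeasureTheory Finset Filter Topology
open scoped ComplexConjugate Real ENNReal

namespace Vale.Agent.P130

def rep (y : T) : ℝ := (AddCircle.equivIco 1 0 y : ℝ)

theorem rep_nonneg (y : T) : 0 ≤ rep y := (AddCircle.equivIco 1 0 y).2.1

theorem rep_lt (y : T) : rep y < 1 := by simpa [rep] using (AddCircle.equivIco 1 0 y).2.2

theorem coe_rep (y : T) : ((rep y : ℝ) : T) = y := (AddCircle.equivIco 1 0).symm_apply_apply y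

theorem rep_coe {x : ℝ} (h0 : 0 ≤ x) (h1 : x < 1) : rep (x : T) = x := by
  rw [rep, AddCircle.coe_equivIco_mk_apply, div_one, mul_one, Int.fract_eq_self.2 ⟨h0, h1⟩]

theorem measurable_rep : Measurable rep :=
  measurable_subtype_coe.comp (AddCircle.measurableEquivIco 1 0).measurable

def cell (Q : ℕ) (y : T) : ℕ := ⌊Q * rep y⌋₊

@[fun_prop] theorem measurable_cell (Q : ℕ) : Measurable (cell Q) :=
  Nat.measurable_floor.comp (measurable_rep.const_mul _)

theorem cell_eq_iff {Q : ℕ} (hQ : 0 < Q) (y : T) (c : ℕ) :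
    cell Q y = c ↔ (c : ℝ) / Q ≤ rep y ∧ rep y < (c + 1) / Q := by
  have hQ' : (0 : ℝ) < Q := by exact_mod_cast hQ
  rw [cell, Nat.floor_eq_iff (mul_nonneg hQ'.le (rep_nonneg y)), div_le_iff₀ hQ', lt_div_iff₀ hQ',
    mul_comm]

theorem cell_lt {Q : ℕ} (hQ : 0 < Q) (y : T) : cell Q y < Q := by
  have hQ' : (0 : ℝ) < Q := by exact_mod_cast hQ
  rw [cell, Nat.floor_lt (mul_nonneg hQ'.le (rep_nonneg y))]
  nlinarith [rep_lt y]

theorem cell_div (m N : ℕ) (hm0 : 0 < m) (y : T) : cell (m * N) y / m = cell N y := by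
  have : (0 : ℝ) < m := by exact_mod_cast hm0
  rw [cell, cell, ← Nat.floor_div_natCast]; congr 1; push_cast; field_simp

theorem norm_sub_cell {Q : ℕ} (hQ : 0 < Q) (y : T) :
    ‖y - (((cell Q y : ℝ) / Q : ℝ) : T)‖ ≤ 1 / Q := by
  obtain ⟨h1, h2⟩ := (cell_eq_iff hQ y _).1 rfl
  conv_lhs => enter [1, 1]; rw [← coe_rep y]
  rw [← AddCircle.coe_sub]
  refine (norm_coe_le _).trans ?_
  rw [add_div] at h2
  rw [abs_of_nonneg (by linarith)]; linarith

theorem norm_le_of_cell {Q : ℕ} (hQ : 0 < Q) {y z : T} (h : cell Q y = cell Q z) :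
    ‖y - z‖ ≤ 1 / Q := by
  obtain ⟨h1, h2⟩ := (cell_eq_iff hQ y _).1 h
  obtain ⟨h3, h4⟩ := (cell_eq_iff hQ z _).1 rfl
  rw [← coe_rep y, ← coe_rep z, ← AddCircle.coe_sub]
  refine (norm_coe_le _).trans ?_
  rw [add_div] at h2 h4
  rw [abs_le]; constructor <;> linarith

theorem cell_stable {Q : ℕ} (hQ : 0 < Q) {y z : T} {κ : ℝ}
    (h : ∀ j < Q, κ < ‖y - (((j : ℝ) / Q : ℝ) : T)‖) (hz : ‖z - y‖ ≤ κ) :
    cell Q z = cell Q y := by
  have hQ' : (0 : ℝ) < Q := by exact_mod_cast hQ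
  obtain ⟨h1, h2⟩ := (cell_eq_iff hQ y _).1 rfl
  have hc := cell_lt hQ y
  set c := cell Q y
  obtain ⟨r, hr, hr1, -⟩ := exists_rep (z - y)
  have hr2 : |r| ≤ κ := hr1 ▸ hz
  have a1 : κ < rep y - c / Q := by
    refine (h c hc).trans_le ?_
    conv_lhs => enter [1, 1]; rw [← coe_rep y]
    rw [← AddCircle.coe_sub]
    exact (norm_coe_le _).trans (abs_of_nonneg (by linarith)).le
  have a2 : κ < (c + 1) / Q - rep y := by
    have : ∃ j < Q, (((j : ℝ) / Q : ℝ) : T) = (((c + 1 : ℝ) / Q : ℝ) : T) := by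
      rcases Nat.lt_or_ge (c + 1) Q with h3 | h3
      · exact ⟨c + 1, h3, by push_cast; rfl⟩
      · refine ⟨0, hQ, ?_⟩
        have : (c + 1 : ℝ) = Q := by exact_mod_cast (show c + 1 = Q by omega)
        rw [this, div_self hQ'.ne']; simpa using (coe_int 1).symm
    obtain ⟨j, hj, e⟩ := this
    refine (h j hj).trans_le ?_
    rw [e]
    conv_lhs => enter [1, 1]; rw [← coe_rep y]
    rw [← AddCircle.coe_sub]
    refine (norm_coe_le _).trans ?_
    rw [abs_of_nonpos (by linarith)]; linarith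
  have a3 : (c + 1 : ℝ) / Q ≤ 1 := by
    rw [div_le_one hQ']; exact_mod_cast hc
  have a4 : (0 : ℝ) ≤ c / Q := by positivity
  rw [abs_le] at hr2
  have e : z = ((rep y + r : ℝ) : T) := by rw [AddCircle.coe_add, coe_rep, hr]; abel
  rw [cell_eq_iff hQ, e, rep_coe (by linarith) (by linarith)]
  constructor <;> linarith

theorem meas_cell {Q : ℕ} (hQ : 0 < Q) {c : ℕ} (hc : c < Q) :
    hm {y | cell Q y = c} = ENNReal.ofReal (1 / Q) := by
  have hQ' : (0 : ℝ) < Q := by exact_mod_cast hQ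
  have hms : MeasurableSet {y | cell Q y = c} := measurable_cell Q (measurableSet_singleton c)
  rw [hm_eq, ← (UnitAddCircle.measurePreserving_mk 0).measure_preimage hms.nullMeasurableSet,
    ← Measure.restrict_congr_set Ico_ae_eq_Ioc,
    Measure.restrict_apply (AddCircle.measurable_mk' hms)]
  have a3 : (c + 1 : ℝ) / Q ≤ 1 := by
    rw [div_le_one hQ']; exact_mod_cast hc
  have a4 : (0 : ℝ) ≤ c / Q := by positivity
  have : (QuotientAddGroup.mk ⁻¹' {y : T | cell Q y = c}) ∩ Set.Ico (0 : ℝ) (0 + 1)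
      = Set.Ico ((c : ℝ) / Q) ((c + 1) / Q) := by
    ext x
    simp only [Set.mem_inter_iff, Set.mem_preimage, Set.mem_ofPred_eq, Set.mem_Ico, zero_add,
      cell_eq_iff hQ]
    constructor
    · rintro ⟨h1, h2, h3⟩; rwa [rep_coe h2 h3] at h1
    · rintro ⟨h1, h2⟩
      have h3 : 0 ≤ x := by linarith
      have h4 : x < 1 := by linarith
      rw [rep_coe h3 h4]; exact ⟨⟨h1, h2⟩, h3, h4⟩
  erw [this]
  rw [Real.volume_Ico]; congr 1; ring

/-- indicator of a cell -/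
def ind (Q c : ℕ) (y : T) : ℂ := if cell Q y = c then 1 else 0

theorem norm_ind (Q c : ℕ) (y : T) : ‖ind Q c y‖ ≤ 1 := by unfold ind; split_ifs <;> simp

@[fun_prop] theorem BM_ind (Q c : ℕ) : BM (ind Q c) :=
  ⟨Measurable.ite (measurable_cell Q (measurableSet_singleton c)) measurable_const
    measurable_const, 1, norm_ind Q c⟩

theorem int_ind {Q : ℕ} (hQ : 0 < Q) {c : ℕ} (hc : c < Q) : ∫ y, ind Q c y ∂hm = 1 / Q := by
  have hms : MeasurableSet {y | cell Q y = c} := measurable_cell Q (measurableSet_singleton c)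
  have : ind Q c = Set.indicator {y | cell Q y = c} (fun _ => 1) := by
    ext y; simp [ind, Set.indicator_apply]
  rw [this, integral_indicator_const _ hms, Measure.real, meas_cell hQ hc,
    ENNReal.toReal_ofReal (by positivity)]
  simp

theorem sum_ind {Q : ℕ} (hQ : 0 < Q) (y : T) (F : ℕ → ℂ) :
    ∑ c ∈ range Q, ind Q c y * F c = F (cell Q y) := by
  rw [Finset.sum_eq_single (cell Q y)]
  · simp [ind]
  · intro b _ hb; simp [ind, hb.symm]
  · intro h; exact absurd (mem_range.2 (cell_lt hQ y)) h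

@[fun_prop] theorem BM.norm {F : T → ℂ} (hF : BM F) : BM (fun η => ((‖F η‖ : ℝ) : ℂ)) := by
  obtain ⟨h, C, hC⟩ := hF
  exact ⟨by fun_prop, C, fun η => by simpa using hC η⟩

theorem avg2 {g₁ g₂ : T → ℂ} (h₁ : BM g₁) (h₂ : BM g₂) (n₁ : nm g₁ ≤ 1) (n₂ : nm g₂ ≤ 1)
    (m : ℕ) (x : ℕ → T) :
    ∃ β, nt m (fun k => g₁ (x k + β)) ≤ 2 ∧ nt m (fun k => g₂ (x k + β)) ≤ 2 := by
  have i1 : ∀ {g : T → ℂ}, BM g → ∀ k, Integrable (fun β => ‖g (x k + β)‖ ^ 2) hm :=
    fun hg k => (hg.comp (g := fun β => x k + β) (by fun_prop)).int_sq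
  have i2 : ∀ {g : T → ℂ}, nm g ≤ 1 → ∀ k, ∫ β, ‖g (x k + β)‖ ^ 2 ∂hm ≤ 1 := by
    intro g hg k
    rw [integral_add_left_eq_self (fun β => ‖g β‖ ^ 2), ← nm_sq]
    exact pow_le_one₀ (nm_nonneg _) hg
  have i3 : ∀ k ∈ range m, Integrable (fun β => ‖g₁ (x k + β)‖ ^ 2 + ‖g₂ (x k + β)‖ ^ 2) hm :=
    fun k _ => (i1 h₁ k).add (i1 h₂ k)
  obtain ⟨β, hβ⟩ := exists_le_integral (integrable_finsetSum _ i3)
  rw [integral_finsetSum _ i3] at hβ
  have : ∑ k ∈ range m, ∫ β, (‖g₁ (x k + β)‖ ^ 2 + ‖g₂ (x k + β)‖ ^ 2) ∂hm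
      ≤ ∑ k ∈ range m, (2 : ℝ) := Finset.sum_le_sum fun k _ => by
    rw [integral_add (i1 h₁ k) (i1 h₂ k)]; linarith [i2 n₁ k, i2 n₂ k]
  rw [Finset.sum_add_distrib] at hβ
  simp only [Finset.sum_const, card_range, nsmul_eq_mul] at this
  have p1 : 0 ≤ ∑ k ∈ range m, ‖g₁ (x k + β)‖ ^ 2 := by positivity
  have p2 : 0 ≤ ∑ k ∈ range m, ‖g₂ (x k + β)‖ ^ 2 := by positivity
  have p3 : (0 : ℝ) ≤ m := by positivity
  exact ⟨β, nt_le_of_sq two_pos.le (by linarith), nt_le_of_sq two_pos.le (by linarith)⟩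

/-- Fourier partial sum -/
def tr (B : Finset ℤ) (f : T → ℂ) (η : T) : ℂ := ∑ r ∈ B, fourierCoeff f r * ch (r • η)

@[fun_prop] theorem BM_tr (B : Finset ℤ) (f : T → ℂ) : BM (tr B f) := by unfold tr; fun_prop

theorem norm_fc {f : T → ℂ} (h : ∀ y, ‖f y‖ ≤ 1) (r : ℤ) : ‖fourierCoeff f r‖ ≤ 1 := by
  have := norm_integral_le_of_norm_le_const (μ := hm) (C := 1)
    (f := fun t => fourier (-r) t • f t) (Eventually.of_forall fun y => by
      rw [norm_smul, fourier_eq, norm_ch, one_mul]; exact h y)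
  simpa [fourierCoeff] using this

theorem fc_zero (f : T → ℂ) : fourierCoeff f 0 = ∫ y, f y ∂hm := by simp [fourierCoeff]

theorem norm_tr {f : T → ℂ} (h : ∀ y, ‖f y‖ ≤ 1) (B : Finset ℤ) (η : T) :
    ‖tr B f η‖ ≤ B.card := by
  refine (norm_sum_le _ _).trans ?_
  calc _ ≤ ∑ r ∈ B, (1 : ℝ) := Finset.sum_le_sum fun r _ => by
        rw [norm_mul, norm_ch, mul_one]; exact norm_fc h r
    _ = _ := by simp

theorem tr_approx {f : T → ℂ} (hf : BM f) {δ : ℝ} (hδ : 0 < δ) :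
    ∀ᶠ B in atTop, nm (fun η => f η - tr B f η) ≤ δ := by
  have h := hasSum_fourier_series_L2 ((hf.memLp 2).toLp f)
  have h2 := (Metric.tendsto_nhds.1 h) δ hδ
  simp only [SummationFilter.unconditional_filter] at h2
  filter_upwards [h2] with B hB
  rw [dist_comm, dist_eq_norm, norm_L2] at hB
  refine le_of_eq_of_le ?_ hB.le
  unfold nm; congr 1
  refine integral_congr_ae ?_
  have e : ∑ i ∈ B, fourierCoeff ((hf.memLp 2).toLp f) i • fourierLp (T := 1) 2 i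
      = ContinuousMap.toLp 2 hm ℂ (∑ i ∈ B, fourierCoeff f i • fourier i) := by
    rw [map_sum]
    refine Finset.sum_congr rfl fun i _ => ?_
    rw [map_smul, fourierCoeff_congr_ae (hf.memLp 2).coeFn_toLp]
  rw [e]
  filter_upwards [Lp.coeFn_sub ((hf.memLp 2).toLp f)
    (ContinuousMap.toLp 2 hm ℂ (∑ i ∈ B, fourierCoeff f i • fourier i)),
    (hf.memLp 2).coeFn_toLp, ContinuousMap.coeFn_toLp (p := 2) (μ := hm) (𝕜 := ℂ)
      (∑ i ∈ B, fourierCoeff f i • fourier i)] with η h1 h2 h3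
  rw [h1, Pi.sub_apply, h2, h3]
  simp [tr, ch]

/-- Fourier truncations of all cell indicators, with one dominating function -/
theorem cells_approx (Q : ℕ) {δ : ℝ} (hδ : 0 < δ) : ∃ (B : Finset ℤ) (g : T → ℂ), 0 ∈ B ∧ BM g ∧
    nm g ≤ 1 ∧ ∀ c < Q, ∀ y, ‖ind Q c y - tr B (ind Q c) y‖ ≤ δ * ‖g y‖ := by
  have h1 : ∀ᶠ B in atTop, ∀ c ∈ range Q,
      nm (fun η => ind Q c η - tr B (ind Q c) η) ≤ δ / (Q + 1) :=
    (Finset.eventually_all _).2 fun c _ => tr_approx (BM_ind Q c) (by positivity)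
  obtain ⟨B, hB, hB0⟩ := (h1.and (eventually_ge_atTop {0})).exists
  refine ⟨B, fun y => (δ⁻¹ : ℝ) * ∑ c ∈ range Q, ((‖ind Q c y - tr B (ind Q c) y‖ : ℝ) : ℂ),
    hB0 (by simp), by fun_prop, ?_, fun c hc y => ?_⟩
  · rw [nm_smul, Complex.norm_real, Real.norm_eq_abs, abs_of_pos (by positivity),
      inv_mul_le_iff₀ hδ, mul_one]
    refine (nm_sum_le fun c _ => by fun_prop).trans ?_
    calc _ ≤ ∑ c ∈ range Q, δ / (Q + 1) := Finset.sum_le_sum fun c hc =>
          le_of_eq_of_le (nm_congr fun η => by simp) (hB c hc)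
      _ = Q * (δ / (Q + 1)) := by simp
      _ ≤ _ := by rw [← mul_div_assoc, div_le_iff₀ (by positivity)]; nlinarith
  · rw [norm_mul, Complex.norm_real, Real.norm_eq_abs, abs_of_pos (by positivity), ← mul_assoc,
      mul_inv_cancel₀ hδ.ne', one_mul, ← Complex.ofReal_sum, Complex.norm_real, Real.norm_eq_abs,
      abs_of_nonneg (by positivity)]
    exact Finset.single_le_sum (f := fun c => ‖ind Q c y - tr B (ind Q c) y‖)
      (fun _ _ => norm_nonneg _) (mem_range.2 hc)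

/-! ### permutations of an initial segment -/

def IsPerm (N : ℕ) (f : ℕ → ℕ) : Prop := Set.BijOn f (Set.Iio N) (Set.Iio N)

theorem IsPerm.of_inj {N : ℕ} {f : ℕ → ℕ} (h1 : ∀ x < N, f x < N)
    (h2 : ∀ x < N, ∀ y < N, f x = f y → x = y) : IsPerm N f :=
  ((Set.finite_Iio N).injOn_iff_bijOn_of_mapsTo fun x hx => h1 x hx).1
    fun x hx y hy h => h2 x hx y hy h

theorem IsPerm.lt {N : ℕ} {f : ℕ → ℕ} (h : IsPerm N f) {x : ℕ} (hx : x < N) : f x < N := h.1 hx

theorem IsPerm.sum {M : Type*} [AddCommMonoid M] {N : ℕ} {f : ℕ → ℕ} (h : IsPerm N f)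
    (F : ℕ → M) : ∑ x ∈ range N, F (f x) = ∑ x ∈ range N, F x :=
  Finset.sum_nbij f (fun x hx => mem_range.2 (h.lt (mem_range.1 hx)))
    (by simpa using h.2.1) (by simpa using h.2.2) fun _ _ => rfl

theorem IsPerm.nt {N : ℕ} {f : ℕ → ℕ} (h : IsPerm N f) (u : ℕ → ℂ) :
    nt N (fun x => u (f x)) = nt N u := by
  rw [nt_eq, nt_eq, h.sum fun x => ‖u x‖ ^ 2]

theorem IsPerm.card {N : ℕ} {f : ℕ → ℕ} (h : IsPerm N f) (P : ℕ → Prop) [DecidablePred P] :
    ((range N).filter fun x => P (f x)).card = ((range N).filter P).card := by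
  simp only [Finset.card_filter]; exact h.sum fun x => if P x then 1 else 0

theorem IsPerm.comp {N : ℕ} {f g : ℕ → ℕ} (h : IsPerm N f) (h' : IsPerm N g) :
    IsPerm N (fun x => f (g x)) := Set.BijOn.comp h h'

theorem isPerm_id (N : ℕ) : IsPerm N (fun x => x) := Set.bijOn_id _

theorem isPerm_add {N : ℕ} (hN : 0 < N) (b : ℕ) : IsPerm N (fun x => (x + b) % N) :=
  IsPerm.of_inj (fun _ _ => Nat.mod_lt _ hN) fun x hx y hy h => by
    have := Nat.ModEq.add_right_cancel' b h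
    rwa [Nat.ModEq, Nat.mod_eq_of_lt hx, Nat.mod_eq_of_lt hy] at this

end Vale.Agent.P130
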