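import Vale.Agent.P130.Cell

/-! Quadratic chirps give almost unimodular polynomials. -/

noncomputable section
open MeasureTheory Finset Filter Topology
open scoped ComplexConjugate Real ENNReal

namespace Vale.Agent.P130

def th (m : ℕ) (k : ℤ) : T := (((k : ℝ) ^ 2 / (2 * m) : ℝ) : T)

def ph (z : ℂ) : ℂ := if z = 0 then 1 else z / ‖z‖

theorem norm_ph (z : ℂ) : ‖ph z‖ = 1 := by
  unfold ph; split_ifs with h
  · simp
  · rw [norm_div, Complex.norm_real, norm_norm, div_self (norm_ne_zero_iff.2 h)]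

@[fun_prop] theorem measurable_ph : Measurable ph :=
  Measurable.ite (measurableSet_singleton 0) measurable_const (by fun_prop)

theorem norm_sub_ph (z : ℂ) : ‖z - ph z‖ ≤ |‖z‖ ^ 2 - 1| := by
  have h1 : ‖z - ph z‖ = |‖z‖ - 1| := by
    unfold ph; split_ifs with h
    · simp [h]
    · have h0 : (‖z‖ : ℂ) ≠ 0 := by exact_mod_cast norm_ne_zero_iff.2 h
      have : z - z / ‖z‖ = ((‖z‖ - 1 : ℝ) : ℂ) * (z / ‖z‖) := by push_cast; field_simp
      rw [this, norm_mul, norm_div, Complex.norm_real, Complex.norm_real, norm_norm,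
        div_self (norm_ne_zero_iff.2 h), mul_one, Real.norm_eq_abs]
  have : ‖z‖ ^ 2 - 1 = (‖z‖ - 1) * (‖z‖ + 1) := by ring
  rw [h1, this, abs_mul, abs_of_pos (a := ‖z‖ + 1) (by positivity)]
  exact le_mul_of_one_le_right (abs_nonneg _) (by linarith [norm_nonneg z])

theorem sq_sum (m : ℕ) (b : ℕ → ℂ) : ‖∑ k ∈ range m, b k‖ ^ 2 = ∑ k ∈ range m, ‖b k‖ ^ 2 +
    2 * (∑ j ∈ range m, ∑ k ∈ range j, b j * conj (b k)).re := by
  induction m with
  | zero => simp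
  | succ m ih =>
    rw [Finset.sum_range_succ, Finset.sum_range_succ, Finset.sum_range_succ, ← Finset.mul_sum,
      ← map_sum, Complex.add_re, add_comm (∑ k ∈ range m, b k), ← Complex.normSq_eq_norm_sq,
      Complex.normSq_add, Complex.normSq_eq_norm_sq, Complex.normSq_eq_norm_sq, ih]
    ring

theorem tri_flip (m : ℕ) (F : ℕ → ℕ → ℂ) : ∑ j ∈ range m, ∑ k ∈ range j, F j k
    = ∑ l ∈ range (m - 1), ∑ k ∈ range (m - (l + 1)), F (k + (l + 1)) k := by
  rw [Finset.sum_sigma', Finset.sum_sigma']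
  refine Finset.sum_nbij' (fun x => ⟨x.1 - x.2 - 1, x.2⟩) (fun x => ⟨x.2 + (x.1 + 1), x.2⟩)
    ?_ ?_ ?_ ?_ ?_
  · rintro ⟨a, b⟩ h; simp only [mem_sigma, mem_range] at *; omega
  · rintro ⟨a, b⟩ h; simp only [mem_sigma, mem_range] at *; omega
  · rintro ⟨a, b⟩ h; simp only [mem_sigma, mem_range] at *; congr 1; omega
  · rintro ⟨a, b⟩ h; simp only [mem_sigma, mem_range] at *; congr 1; omega
  · rintro ⟨a, b⟩ h; simp only [mem_sigma, mem_range] at *; congr 1; omega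

/-- aperiodic autocorrelation -/
def ac (m : ℕ) (a : ℕ → ℂ) (l : ℕ) : ℂ :=
  (∑ k ∈ range (m - l), a (k + l) * conj (a k)) / m

theorem flat_of_ac {m : ℕ} (hm0 : 0 < m) {a : ℕ → ℂ} (ha : ∀ k, ‖a k‖ = 1) :
    nm (fun y => ft m a y - ph (ft m a y)) ≤ 2 * √(∑ l ∈ range (m - 1), ‖ac m a (l + 1)‖ ^ 2) := by
  have hm' : (0 : ℝ) < m := by exact_mod_cast hm0
  rw [← pars (range (m - 1)) (fun l => ((l + 1 : ℕ) : ℤ)) _ (fun _ _ _ _ h => by
    simpa using h), Real.sqrt_sq (nm_nonneg _)]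
  have e2 : (2 : ℝ) = ‖(2 : ℂ)‖ := by simp
  rw [e2, ← nm_smul]
  refine nm_mono (by fun_prop) fun y => (norm_sub_ph _).trans ?_
  rw [ft, sq_sum, tri_flip]
  have e : ∑ k ∈ range m, ‖(((√m)⁻¹ : ℝ) : ℂ) * a k * ch ((k : ℤ) • y)‖ ^ 2 = 1 := by
    simp only [norm_mul _ (ch _), norm_ch, mul_one]
    rw [sum_nrm]; simp [ha, hm'.ne']
  rw [e, add_sub_cancel_left, abs_mul, norm_mul, abs_two, ← e2]
  refine mul_le_mul_of_nonneg_left ((Complex.abs_re_le_norm _).trans (le_of_eq ?_)) two_pos.le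
  congr 1
  refine Finset.sum_congr rfl fun l _ => ?_
  rw [ac, Finset.sum_div, Finset.sum_mul]
  refine Finset.sum_congr rfl fun k _ => ?_
  have h1 : ((l + 1 : ℕ) : ℤ) • y = ((k + (l + 1) : ℕ) : ℤ) • y + -((k : ℤ) • y) := by
    push_cast; module
  have h2 : (((√m)⁻¹ : ℝ) : ℂ) * (((√m)⁻¹ : ℝ) : ℂ) = (m : ℂ)⁻¹ := by
    rw [← Complex.ofReal_mul, ← mul_inv, Real.mul_self_sqrt hm'.le]; simp
  rw [h1, ch_add, ch_neg, map_mul, map_mul, Complex.conj_ofReal, div_eq_mul_inv, ← h2]; ring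

theorem geo (n : ℕ) (w : T) : ‖∑ k ∈ range n, ch ((k : ℤ) • w)‖ * (4 * ‖w‖)
    ≤ ‖ch ((n : ℤ) • w) - 1‖ := by
  have : (∑ k ∈ range n, ch ((k : ℤ) • w)) * (ch w - 1) = ch ((n : ℤ) • w) - 1 := by
    induction n with
    | zero => simp
    | succ n ih =>
      rw [Finset.sum_range_succ, add_mul, ih, Nat.cast_succ, add_smul, one_smul, ch_add]; ring
  rw [← this, norm_mul]
  exact mul_le_mul_of_nonneg_left (norm_ch_sub_one w).2 (norm_nonneg _)

theorem th_add (m : ℕ) (k l : ℤ) :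
    th m (k + l) = th m k + th m l + k • (((l : ℝ) / m : ℝ) : T) := by
  rw [th, th, th, zsmul_coe, ← AddCircle.coe_add, ← AddCircle.coe_add]; congr 1
  rcases eq_or_ne (m : ℝ) 0 with h | h
  · simp [h]
  · push_cast; field_simp; ring

theorem ac_chirp {m : ℕ} {L : ℤ} (hL : L ≠ 0) (hd : L ∣ (m : ℤ) - 1) {l : ℕ} (hl0 : 0 < l)
    (hl : l < m) : (m : ℤ) ∣ l + ((m : ℤ) - 1) / L * Int.bmod (L * l) m ∧
      Int.bmod (L * l) m ≠ 0 ∧
      ‖ac m (fun k => ch (L • th m k)) l‖ ^ 2 ≤ 1 / (Int.bmod (L * l) m : ℝ) ^ 2 ∧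
      ‖ac m (fun k => ch (L • th m k)) l‖ ^ 2 ≤ 4 * (Int.bmod (L * l) m : ℝ) ^ 2 / (L : ℝ) ^ 2 := by
  have hm0 : 0 < m := by omega
  have hm' : (0 : ℝ) < m := by exact_mod_cast hm0
  obtain ⟨m', hm1⟩ := hd
  have hq : ((m : ℤ) - 1) / L = m' := by rw [hm1, Int.mul_ediv_cancel_left _ hL]
  obtain ⟨a, ha⟩ : (m : ℤ) ∣ Int.bmod (L * l) m - L * l := Int.dvd_bmod_sub_self
  have b1 := Int.le_bmod (x := L * l) hm0
  have b2 := Int.bmod_lt (x := L * l) hm0
  set e := Int.bmod (L * l) m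
  have d1 : (l : ℤ) + m' * e = m * (l + m' * a) := by
    have : e = L * l + m * a := by linarith
    rw [this]; linear_combination (-(l : ℤ)) * hm1
  have he : e ≠ 0 := by
    intro h
    rw [h, mul_zero, add_zero] at d1
    have := Int.le_of_dvd (by exact_mod_cast hl0) ⟨_, d1⟩
    omega
  refine ⟨⟨_, by rw [hq, d1]⟩, he, ?_⟩
  have he' : (0 : ℝ) < |(e : ℝ)| := abs_pos.2 (by exact_mod_cast he)
  have hL' : (0 : ℝ) < |(L : ℝ)| := abs_pos.2 (by exact_mod_cast hL)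
  set w : T := (((e : ℝ) / m : ℝ) : T) with hw
  have hw1 : L • (((l : ℝ) / m : ℝ) : T) = w := by
    have : (e : ℝ) / m = L * (l / m) + a := by
      have : (e : ℝ) = L * l + m * a := by exact_mod_cast (show e = L * l + m * a by linarith)
      rw [this]; field_simp
    rw [hw, this, AddCircle.coe_add, coe_int, add_zero, zsmul_coe]
  have hw2 : ‖w‖ = |(e : ℝ)| / m := by
    have h2 : |(e : ℝ) / m| ≤ |(1 : ℝ)| / 2 := by
      rw [abs_div, abs_of_pos hm', abs_one, div_le_div_iff₀ hm' two_pos]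
      have : |e| * 2 ≤ 1 * m := by rw [abs_eq_max_neg, max_mul_of_nonneg _ _ (by norm_num)]; omega
      exact_mod_cast this
    rw [hw, (AddCircle.norm_coe_eq_abs_iff 1 one_ne_zero).2 h2, abs_div, abs_of_pos hm']
  have hw3 : ‖((m - l : ℕ) : ℤ) • w‖ ≤ (e : ℝ) ^ 2 / |(L : ℝ)| := by
    have d2 : (l : ℝ) + m' * e = m * (l + m' * a) := by exact_mod_cast d1
    have : (((m - l : ℕ) : ℤ) : ℝ) * ((e : ℝ) / m)
        = m' * e ^ 2 / m + ((e - (l + m' * a) * e : ℤ) : ℝ) := by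
      rw [div_add' _ _ _ hm'.ne', mul_div_assoc']; congr 1
      push_cast [hl.le]; linear_combination (-(e : ℝ)) * d2
    rw [hw, zsmul_coe, this, AddCircle.coe_add, coe_int, add_zero]
    refine (norm_coe_le _).trans ?_
    rw [abs_div, abs_of_pos hm', abs_mul, abs_of_nonneg (sq_nonneg (e : ℝ)),
      div_le_div_iff₀ hm' hL']
    have h3 : |(L : ℝ)| * |(m' : ℝ)| ≤ m := by
      rw [← abs_mul]
      have : (L : ℝ) * m' = m - 1 := by exact_mod_cast hm1.symm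
      have h4 : (1 : ℝ) ≤ m := by exact_mod_cast hm0
      rw [this, abs_of_nonneg (by linarith)]; linarith
    nlinarith [sq_nonneg (e : ℝ)]
  have e1 : ‖ac m (fun k => ch (L • th m k)) l‖
      = ‖∑ k ∈ range (m - l), ch ((k : ℤ) • w)‖ / m := by
    rw [ac, norm_div, Complex.norm_natCast]; congr 1
    have : ∀ k : ℕ, ch (L • th m ((k + l : ℕ) : ℤ)) * conj (ch (L • th m k))
        = ch (L • th m l) * ch ((k : ℤ) • w) := by
      intro k
      rw [← ch_neg, ← ch_add, ← ch_add, Nat.cast_add, th_add, ← hw1]; congr 1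
      push_cast; module
    simp only [this, ← Finset.mul_sum, norm_mul, norm_ch, one_mul]
  have g := geo (m - l) w
  rw [hw2] at g
  have g1 : ‖ch (((m - l : ℕ) : ℤ) • w) - 1‖ ≤ 2 := (norm_sub_le _ _).trans (by simp; norm_num)
  have g2 := (norm_ch_sub_one (((m - l : ℕ) : ℤ) • w)).1
  rw [e1]
  set s := ‖∑ k ∈ range (m - l), ch ((k : ℤ) • w)‖
  have hs : 0 ≤ s / m := by positivity
  have g3 : s * (4 * (|(e : ℝ)| / m)) = 4 * (s / m * |(e : ℝ)|) := by ring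
  rw [g3] at g
  constructor
  · rw [← sq_abs (e : ℝ), ← one_pow 2, ← div_pow]
    refine pow_le_pow_left₀ hs ?_ 2
    rw [le_div_iff₀ he']; linarith
  · have : 4 * (e : ℝ) ^ 2 / (L : ℝ) ^ 2 = (2 * |(e : ℝ)| / |(L : ℝ)|) ^ 2 := by
      rw [div_pow, mul_pow, sq_abs, sq_abs]; norm_num
    rw [this]
    refine pow_le_pow_left₀ hs ?_ 2
    have h5 : 2 * π * ‖((m - l : ℕ) : ℤ) • w‖ ≤ 8 * ((e : ℝ) ^ 2 / |(L : ℝ)|) :=
      mul_le_mul (by linarith [Real.pi_le_four]) hw3 (norm_nonneg _) (by norm_num)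
    refine le_of_mul_le_mul_right ?_ he'
    have : 2 * |(e : ℝ)| / |(L : ℝ)| * |(e : ℝ)| = 2 * ((e : ℝ) ^ 2 / |(L : ℝ)|) := by
      rw [← sq_abs (e : ℝ)]; ring
    rw [this]; linarith

/-- the chirp polynomial -/
def P0 (L : ℤ) (m : ℕ) : T → ℂ := ft m (fun k => ch (L • th m k))

@[fun_prop] theorem BM_P0 (L : ℤ) (m : ℕ) : BM (P0 L m) := BM_ft _ _

theorem UM_ph {F : T → ℂ} (hF : BM F) : UM (fun y => ph (F y)) :=
  ⟨measurable_ph.comp hF.1, fun _ => norm_ph _⟩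

@[fun_prop] theorem BM_ph {F : T → ℂ} (hF : BM F) : BM (fun y => ph (F y)) := (UM_ph hF).bm

theorem chirp_flat {ε : ℝ} (hε : 0 < ε) : ∃ L₀ : ℕ, 0 < L₀ ∧ ∀ L : ℤ, L₀ ≤ |L| → ∀ m : ℕ, 0 < m →
    L ∣ (m : ℤ) - 1 → nm (fun y => P0 L m y - ph (P0 L m y)) ≤ ε := by
  have hs : Summable fun n : ℤ => 1 / (n : ℝ) ^ 2 := Real.summable_one_div_int_pow.2 one_lt_two
  obtain ⟨s, hs⟩ := summable_iff_vanishing_norm.1 hs (ε ^ 2 / 8) (by positivity)
  set C : ℝ := ∑ e ∈ s, 4 * (e : ℝ) ^ 2 with hC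
  have hC0 : 0 ≤ C := by positivity
  obtain ⟨L₀, hL₀⟩ := exists_nat_gt (8 * C / ε ^ 2)
  refine ⟨L₀ + 1, by omega, fun L hL m hm0 hd => ?_⟩
  have hL0 : L ≠ 0 := by rintro rfl; simp at hL; omega
  refine (flat_of_ac hm0 fun k => norm_ch _).trans ?_
  rw [← le_div_iff₀' two_pos, Real.sqrt_le_left (by positivity)]
  set E : ℕ → ℤ := fun l => Int.bmod (L * (l + 1 : ℕ)) m with hE
  have key := fun l (hl : l ∈ range (m - 1)) =>
    ac_chirp hL0 hd (l := l + 1) (by omega) (by simp at hl; omega)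
  have inj : Set.InjOn E (range (m - 1)) := by
    intro l hl l' hl' h
    have h1 := (key l hl).1
    have h2 := (key l' hl').1
    simp only [hE] at h
    rw [h] at h1
    have h3 := dvd_sub h1 h2
    rw [add_sub_add_right_eq_sub] at h3
    have := Int.eq_zero_of_abs_lt_dvd h3 (by
      simp only [coe_range, Set.mem_Iio] at hl hl'; rw [abs_lt]; omega)
    omega
  set g : ℤ → ℝ := fun e => if e ∈ s then 4 * (e : ℝ) ^ 2 / (L : ℝ) ^ 2 else 1 / (e : ℝ) ^ 2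
  calc _ ≤ ∑ l ∈ range (m - 1), g (E l) := Finset.sum_le_sum fun l hl => by
        simp only [g]; split_ifs
        · exact (key l hl).2.2.2
        · exact (key l hl).2.2.1
    _ = ∑ e ∈ (range (m - 1)).image E, g e := (Finset.sum_image inj).symm
    _ ≤ C / (L : ℝ) ^ 2 + ε ^ 2 / 8 := by
        rw [Finset.sum_ite]
        refine add_le_add ?_ ?_
        · rw [hC, Finset.sum_div]
          exact Finset.sum_le_sum_of_subset_of_nonneg (fun e he => (mem_filter.1 he).2)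
            fun _ _ _ => by positivity
        · exact (le_abs_self _).trans (hs _ (Finset.disjoint_left.2
            fun e he => (mem_filter.1 he).2)).le
    _ ≤ _ := by
        have h1 : (L₀ + 1 : ℝ) ≤ |(L : ℝ)| := by exact_mod_cast hL
        have h2 : (L₀ : ℝ) ≤ (L : ℝ) ^ 2 := by
          rw [← sq_abs]; nlinarith [Nat.cast_nonneg (α := ℝ) L₀]
        have h3 : (0 : ℝ) < (L : ℝ) ^ 2 := by positivity
        have h4 : C / (L : ℝ) ^ 2 ≤ ε ^ 2 / 8 := by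
          rw [div_lt_iff₀ (by positivity)] at hL₀
          rw [div_le_iff₀ h3]; nlinarith [sq_nonneg ε]
        linarith

end Vale.Agent.P130
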