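import Vale.Agent.P130.Bands

/-! The core design step. -/

noncomputable section
open MeasureTheory Finset Filter Topology
open scoped ComplexConjugate Real ENNReal Nat

namespace Vale.Agent.P130

def lift (N : ℕ) (f : ℕ → ℕ) (y : ℕ) : ℕ := f (y / N) * N + y % N

theorem lift_mod {N : ℕ} (f : ℕ → ℕ) (y : ℕ) : lift N f y % N = y % N := by
  rw [lift, add_comm, Nat.add_mul_mod_self_right, Nat.mod_mod]

theorem lift_div {N : ℕ} (hN : 0 < N) (f : ℕ → ℕ) (y : ℕ) : lift N f y / N = f (y / N) := by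
  rw [lift, add_comm, Nat.add_mul_div_right _ _ hN, Nat.div_eq_of_lt (Nat.mod_lt _ hN), zero_add]

theorem lift_perm {N m : ℕ} (hN : 0 < N) {f : ℕ → ℕ} (hf : IsPerm m f) :
    IsPerm (m * N) (lift N f) := by
  have hd : ∀ y < m * N, y / N < m := fun y hy => (Nat.div_lt_iff_lt_mul hN).2 hy
  refine IsPerm.of_inj (fun y hy => ?_) fun y hy z hz h => ?_
  · rw [← Nat.div_lt_iff_lt_mul hN, lift_div hN]; exact hf.lt (hd y hy)
  · have h1 : y % N = z % N := by rw [← lift_mod f y, h, lift_mod]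
    have h2 : y / N = z / N := hf.2.1 (hd y hy) (hd z hz) (by
      rw [← lift_div hN f, h, lift_div hN])
    rw [← Nat.div_add_mod y N, ← Nat.div_add_mod z N, h1, h2]

theorem ten_lift {N : ℕ} (hN : 0 < N) (c γ : ℕ → ℂ) (f : ℕ → ℕ) (y : ℕ) :
    ten N c γ (lift N f y) = ten N c (fun k => γ (f k)) y := by
  rw [ten, ten, lift_mod, lift_div hN]

/-- number of places where `f` does not commute with the cyclic successor -/
def dfc (N' N : ℕ) (f : ℕ → ℕ) : ℕ :=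
  ((range N').filter fun x => f ((x + 1) % N') ≠ (f x + 1) % N).card

theorem card_last (m : ℕ) {N : ℕ} : ((range (m * N)).filter fun x => x % N = N - 1).card ≤ m := by
  rw [card_filter, sum_blocks]
  calc _ ≤ ∑ k ∈ range m, 1 := Finset.sum_le_sum fun k _ => by
        rw [← card_filter]
        refine card_le_one.2 fun a ha b hb => ?_
        simp only [mem_filter, mem_range, add_comm (k * N), Nat.add_mul_mod_self_right] at ha hb
        rw [Nat.mod_eq_of_lt ha.1] at ha; rw [Nat.mod_eq_of_lt hb.1] at hb; omega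
    _ = m := by simp

theorem succ_block {m N x : ℕ} (hx : x < m * N) (h : x % N ≠ N - 1) :
    x + 1 < m * N ∧ (x + 1) / N = x / N ∧ (x + 1) % N = x % N + 1 := by
  have hN : 0 < N := Nat.pos_of_ne_zero (by rintro rfl; simp at hx)
  have h1 := Nat.mod_lt x hN
  have h2 := Nat.div_add_mod' x N
  have h3 : (x / N + 1) * N ≤ m * N := Nat.mul_le_mul_right _ ((Nat.div_lt_iff_lt_mul hN).2 hx)
  rw [add_mul] at h3
  have h4 : (x + 1) / N = x / N := Nat.div_eq_of_lt_le (by omega) (by rw [add_mul]; omega)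
  have h5 := Nat.div_add_mod' (x + 1) N
  rw [h4] at h5
  exact ⟨by omega, h4, by omega⟩

theorem dfc_lift {N m : ℕ} (hN : 0 < N) {f : ℕ → ℕ} (hf : IsPerm m f) (b : ℕ) :
    dfc (m * N) (m * N) (fun x => lift N f ((x + b) % (m * N))) ≤ m := by
  rcases Nat.eq_zero_or_pos m with rfl | hm0
  · simp [dfc]
  have hp : 0 < m * N := by positivity
  refine le_trans ?_ (card_last m (N := N))
  rw [← (isPerm_add hp b).card fun x => x % N = N - 1]
  refine card_le_card fun x hx => ?_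
  simp only [mem_filter] at hx ⊢
  refine ⟨hx.1, by_contra fun h => hx.2 ?_⟩
  have hy := Nat.mod_lt (x + b) hp
  have e : ((x + 1) % (m * N) + b) % (m * N) = ((x + b) % (m * N) + 1) % (m * N) := by
    rw [Nat.mod_add_mod, Nat.mod_add_mod, add_right_comm]
  rw [e]
  set y := (x + b) % (m * N)
  obtain ⟨h1, h2, h3⟩ := succ_block hy h
  obtain ⟨h4, -, -⟩ := succ_block ((lift_perm hN hf).lt hy) (by rwa [lift_mod])
  rw [Nat.mod_eq_of_lt h1, Nat.mod_eq_of_lt h4, lift, lift, h2, h3, add_assoc]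

def pull (N : ℕ) (sk : ℕ → ℕ → ℕ) (x : ℕ) : ℕ := sk (x / N) (x % N)

theorem pull_block {N : ℕ} (sk : ℕ → ℕ → ℕ) (k : ℕ) {i : ℕ} (hi : i < N) :
    pull N sk (k * N + i) = sk k i := by
  have hN : 0 < N := by omega
  rw [pull, add_comm, Nat.add_mul_mod_self_right, Nat.add_mul_div_right _ _ hN,
    Nat.mod_eq_of_lt hi, Nat.div_eq_of_lt hi, zero_add]

/-- the permutation used in the period `k` -/
def sel (Q Q' : ℕ) (σ : ℕ → ℕ → ℕ → ℕ) (m q : ℕ) (β β' : T) (k : ℕ) : ℕ → ℕ :=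
  σ (cell Q (th m k + β)) (cell Q' (ta m q k + β'))

def Abar (Q Q' : ℕ) (σ : ℕ → ℕ → ℕ → ℕ) (h : ℕ → ℂ) (i : ℕ) : ℂ :=
  ((Q : ℂ) * Q')⁻¹ * ∑ c ∈ range Q, ∑ c' ∈ range Q', h (σ c c' i)

theorem sum_ch_zero {Q : ℕ} {L : ℤ} (hL : L ≠ 0) (hQ : |L| < Q) :
    ∑ c ∈ range Q, ch (L • (((c : ℝ) / Q : ℝ) : T)) = 0 := by
  have hQ' : (0 : ℝ) < Q := by
    have : (0 : ℤ) < Q := (abs_nonneg L).trans_lt hQ
    exact_mod_cast this
  have h := geo Q (((L : ℝ) / Q : ℝ) : T)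
  have h1 : ((Q : ℕ) : ℤ) • (((L : ℝ) / Q : ℝ) : T) = 0 := by
    rw [zsmul_coe, ← coe_int L]; congr 1; push_cast; field_simp
  have h2 : (((L : ℝ) / Q : ℝ) : T) ≠ 0 := by
    rw [Ne, AddCircle.coe_eq_zero_iff]
    rintro ⟨n, hn⟩
    have h5 : n * Q = L := by
      have : (n : ℝ) * Q = L := by
        simp only [zsmul_eq_mul, mul_one] at hn; rw [hn]; field_simp
      exact_mod_cast this
    have h6 : n ≠ 0 := by rintro rfl; simp at h5; exact hL h5.symm
    have h7 : 1 ≤ |n| := Int.one_le_abs h6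
    rw [← h5, abs_mul, Nat.abs_cast] at hQ; nlinarith
  rw [h1, ch_zero, sub_self, norm_zero] at h
  have h3 := norm_pos_iff.2 h2
  have h4 : ∀ c : ℕ, L • (((c : ℝ) / Q : ℝ) : T) = (c : ℤ) • (((L : ℝ) / Q : ℝ) : T) := by
    intro c; rw [zsmul_coe, zsmul_coe]; congr 1; push_cast; ring
  simp only [h4]
  exact norm_le_zero_iff.1 (by nlinarith [norm_nonneg (∑ k ∈ range Q,
    ch ((k : ℤ) • (((L : ℝ) / Q : ℝ) : T)))])

theorem ten_sub_sum {N : ℕ} (c γ : ℕ → ℂ) (G : Finset ℕ) (a : ℕ → ℂ) (γs : ℕ → ℕ → ℂ) (x : ℕ) :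
    ten N c γ x = ten N c (fun k => γ k - ∑ s ∈ G, a s * γs s k) x
      + ∑ s ∈ G, a s * ten N c (γs s) x := by
  simp only [ten, mul_sub, Finset.mul_sum, mul_left_comm]; ring

theorem abar_split {N S Q m : ℕ} (hN : 0 < N) (hm0 : 0 < m) (hQ : 0 < Q) {ε κ : ℝ} {Λ : Finset ℤ}
    (hΛ : ∀ L ∈ Λ, L ≠ 0 ∧ |L| < Q) {Lab : T → ℤ} {b : ℕ → ℕ → ℕ} {γ : ℕ → ℂ}
    (h : Split S Q m ε κ Λ Lab b γ) (c₀ : ℕ → ℂ) :
    nt (m * N) (Abar Q N (fun c c' x => lift N (b c) ((x + c') % (m * N))) (ten N c₀ γ))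
      ≤ ε * nt N c₀ := by
  obtain ⟨G, γs, L, y, -, -, h2, h3, -⟩ := h
  have hQ' : (0 : ℝ) < Q := by exact_mod_cast hQ
  have hN' : (0 : ℝ) < N := by exact_mod_cast hN
  set E : ℕ → ℕ → ℂ := fun c k => γ (b c k) -
    ∑ s ∈ G, ch (L s • (((c : ℝ) / Q : ℝ) : T)) * γs s k with hE
  have e : ∀ x, Abar Q N (fun c c' x => lift N (b c) ((x + c') % (m * N))) (ten N c₀ γ) x
      = ((Q : ℂ) * N)⁻¹ * ∑ c ∈ range Q, ∑ c' ∈ range N,
        ten N c₀ (E c) ((x + c') % (m * N)) := by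
    intro x
    rw [Abar, Finset.sum_comm, Finset.sum_comm (s := range Q)]; congr 1
    refine Finset.sum_congr rfl fun c' _ => ?_
    simp only [ten_lift hN]
    rw [Finset.sum_congr rfl fun c _ => ten_sub_sum c₀ (fun k => γ (b c k)) G
      (fun s => ch (L s • (((c : ℝ) / Q : ℝ) : T))) γs _, Finset.sum_add_distrib,
      Finset.sum_comm (s := range Q), Finset.sum_eq_zero (s := G), add_zero]
    intro s hs
    rw [← Finset.sum_mul, sum_ch_zero (hΛ _ (h2 s hs).1).1 (hΛ _ (h2 s hs).1).2, zero_mul]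
  rw [funext e, nt_smul, norm_inv, norm_mul, Complex.norm_natCast, Complex.norm_natCast,
    inv_mul_le_iff₀ (by positivity)]
  refine (nt_sum_le _ _ _).trans ?_
  calc _ ≤ ∑ c ∈ range Q, ∑ c' ∈ range N, ε * nt N c₀ := Finset.sum_le_sum fun c _ => by
        refine (nt_sum_le _ _ _).trans (Finset.sum_le_sum fun c' _ => ?_)
        rw [(isPerm_add (by positivity) c').nt (ten N c₀ (E c)), nt_ten]
        exact mul_le_mul_of_nonneg_right (h3 c _ (by simp)) (nt_nonneg _ _)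
    _ = _ := by simp; ring

theorem compat_split {N S Q m : ℕ} (hN : 0 < N) (hm0 : 0 < m) (hQ : 0 < Q) {ε ε' κ : ℝ}
    (hκ : 0 < κ) (hε : 0 ≤ ε) (hε' : 0 ≤ ε') {Λ : Finset ℤ}
    {Lab : T → ℤ} {b : ℕ → ℕ → ℕ} {γ : ℕ → ℂ}
    (h : Split S Q m ε κ Λ Lab b γ) (hS : 0 < S) (c₀ : ℕ → ℂ) {m' q' : ℕ} {β β' : T}
    {Θ : ℤ → T → ℂ} (hΘ : ∀ L, UM (Θ L)) (hΘ' : UM fun η => Θ (Lab (-((N : ℤ) • η))) η)
    (hfl : ∀ L ∈ Λ, ∀ v, nm (fun η => (PL N L m' q' β β' (m * N) η - Θ L η) * ft (m * N) v η)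
      ≤ ε' * nt (m * N) v) :
    nm (fun η => ft (m' * (m * N)) (fun x => ten N c₀ γ (pull (m * N) (sel Q N
      (fun c c' x => lift N (b c) ((x + c') % (m * N))) m' q' β β') x)) η
      - Θ (Lab (-((N : ℤ) • η))) η * ft (m * N) (ten N c₀ γ) η)
      ≤ (S * ε' + 3 * ε) * nt N c₀ := by
  obtain ⟨G, γs, L, y, h0, h1, h2, h3, h4⟩ := h
  have hp : 0 < m * N := by positivity
  have hS' : (0 : ℝ) < S := by exact_mod_cast hS
  have hG : (G.card : ℝ) ≤ S := by exact_mod_cast h0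
  have hc₀ := nt_nonneg N c₀
  set Θ₀ : T → ℂ := fun η => Θ (Lab (-((N : ℤ) • η))) η with hΘ₀
  set ck : ℕ → ℕ := fun k => cell N (ta m' q' k + β') with hck
  set v : ℕ → ℕ → ℂ := fun s => ten N c₀ (γs s) with hv
  have v0 : ∀ s, ∀ x < N, v s x = 0 := fun s x hx => by
    simp [hv, ten, Nat.div_eq_of_lt hx, (h1 s).1]
  have v1 : ∀ s x, m * N ≤ x → v s x = 0 := fun s x hx => by
    simp [hv, ten, (h1 s).2.1 _ ((Nat.le_div_iff_mul_le hN).2 hx)]
  have v2 : ∀ s, nt (m * N) (v s) ≤ nt N c₀ := fun s => by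
    rw [hv, nt_ten]
    exact mul_le_of_le_one_left hc₀ (nt_le_sup one_pos.le fun k _ => (h1 s).2.2 k)
  set E : ℕ → ℕ → ℂ := fun k j => γ (b (cell Q (th m' k + β)) j) -
    ∑ s ∈ G, ch (L s • (th m' k + β)) * γs s j with hE
  set W : ℕ → ℂ := fun x => ten N c₀ (E (x / (m * N)))
    ((x % (m * N) + ck (x / (m * N))) % (m * N)) with hW
  have bl : ∀ k, ∀ i < m * N, (k * (m * N) + i) / (m * N) = k ∧ (k * (m * N) + i) % (m * N) = i :=
    fun k i hi => by
      rw [add_comm, Nat.add_mul_mod_self_right, Nat.add_mul_div_right _ _ hp,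
        Nat.mod_eq_of_lt hi, Nat.div_eq_of_lt hi, zero_add]; exact ⟨rfl, rfl⟩
  have nW : nt (m' * (m * N)) W ≤ ε * nt N c₀ := by
    refine nt_blocks (by positivity) fun k _ => ?_
    rw [nt_congr (v := fun i => ten N c₀ (E k) ((i + ck k) % (m * N))) fun i hi => by
      simp only [hW, (bl k i hi).1, (bl k i hi).2], (isPerm_add hp _).nt (ten N c₀ (E k)), nt_ten]
    exact mul_le_mul_of_nonneg_right (h3 _ _ (norm_sub_cell hQ _)) hc₀
  have e1 : ∀ η, ft (m' * (m * N)) (fun x => ten N c₀ γ (pull (m * N) (sel Q N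
      (fun c c' x => lift N (b c) ((x + c') % (m * N))) m' q' β β') x)) η
      = ft (m' * (m * N)) W η + ∑ s ∈ G, PL N (L s) m' q' β β' (m * N) η * ft (m * N) (v s) η := by
    intro η
    simp only [PL, ft_blocks m', ft.eq_1 m', Finset.sum_mul]
    rw [Finset.sum_comm, ← Finset.sum_add_distrib]
    refine Finset.sum_congr rfl fun k _ => ?_
    have hc : ck k < N := cell_lt hN _
    have hNm : N ≤ m * N := Nat.le_mul_of_pos_left _ hm0
    rw [ft_congr (v := fun i => W (k * (m * N) + i) +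
      ∑ s ∈ G, ch (L s • (th m' k + β)) * v s (i + ck k)) fun i hi => ?_, ft_add, ft_sum]
    · simp only [ft_smul, mul_add, add_mul, Finset.mul_sum, Finset.sum_mul]
      congr 1
      refine Finset.sum_congr rfl fun s _ => ?_
      rw [ft_shift (fun x hx => v0 s x (by omega)) (v1 s)]; ring
    · rw [pull_block _ _ hi, sel, ten_lift hN,
        ten_sub_sum c₀ _ G (fun s => ch (L s • (th m' k + β))) γs]
      simp only [hW, (bl k i hi).1, (bl k i hi).2]
      congr 1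
      refine Finset.sum_congr rfl fun s _ => ?_
      congr 1
      rcases lt_or_ge (i + ck k) (m * N) with h | h
      · rw [Nat.mod_eq_of_lt h]
      · rw [v1 s _ h]
        refine v0 s _ ?_
        rw [Nat.mod_eq_sub_mod h, Nat.mod_eq_of_lt (by omega)]; omega
  have e2 : ∀ η, ft (m * N) (ten N c₀ γ) η = ft (m * N) (ten N c₀ fun k => γ k - ∑ s ∈ G, γs s k) η
      + ∑ s ∈ G, ft (m * N) (v s) η := by
    intro η
    rw [← ft_sum, ← ft_add]
    exact congrFun (ft_congr fun x _ => by simpa using ten_sub_sum c₀ γ G (fun _ => 1) γs x) η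
  have b0 := hΘ'.bm
  have b1 := fun L => (hΘ L).bm
  have b2 := fun L => BM_PL hN L m' q' β β' (m * N)
  have loc : ∀ s ∈ G, nm (fun η => (Θ (L s) η - Θ₀ η) * ft (m * N) (v s) η)
      ≤ ε / S * nt N c₀ := by
    intro s hs
    obtain ⟨-, l2, l3⟩ := h2 s hs
    have a1 : nm (fun η => (Θ (L s) η - Θ₀ η) * ft (m * N) (v s) η) ≤ nm (fun η => ((2 * κ)⁻¹ : ℝ)
        * ft (m * N) (ten N c₀ fun k => γs s (k + 1) - ch (y s) * γs s k) η) := by
      refine nm_mono (by fun_prop) fun η => ?_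
      rw [ft_congr (u := ten N c₀ fun k => γs s (k + 1) - ch (y s) * γs s k)
        (v := fun x => v s (x + N) - ch (y s) * v s x) fun x _ => by
        simp only [hv, ten, Nat.add_mod_right, Nat.add_div_right _ hN]; ring,
        ft_sub, ft_smul, ft_shift (v0 s) (v1 s), ← sub_mul, ← mul_assoc, norm_mul, norm_mul,
        norm_mul, Complex.norm_real, Real.norm_eq_abs, abs_of_pos (by positivity)]
      refine mul_le_mul_of_nonneg_right ?_ (norm_nonneg _)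
      rcases le_or_gt ‖-((N : ℤ) • η) - y s‖ κ with h | h
      · simp only [hΘ₀, l2 _ h, sub_self, norm_zero]; positivity
      · have := ch_low (-((N : ℤ) • η)) (y s)
        refine (norm_sub_le _ _).trans ?_
        rw [(hΘ _).2, hΘ'.2, le_inv_mul_iff₀ (by positivity)]; linarith
    rw [nm_smul, Complex.norm_real, Real.norm_eq_abs, abs_of_pos (by positivity), ← nt, nt_ten,
      ← mul_assoc] at a1
    refine a1.trans (mul_le_mul_of_nonneg_right ?_ hc₀)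
    rw [inv_mul_le_iff₀ (by positivity), ← mul_div_assoc, le_div_iff₀ hS']; linarith
  have e3 : ∀ η, ft (m' * (m * N)) (fun x => ten N c₀ γ (pull (m * N) (sel Q N
      (fun c c' x => lift N (b c) ((x + c') % (m * N))) m' q' β β') x)) η
      - Θ₀ η * ft (m * N) (ten N c₀ γ) η
      = (∑ s ∈ G, ((PL N (L s) m' q' β β' (m * N) η - Θ (L s) η) * ft (m * N) (v s) η
        + (Θ (L s) η - Θ₀ η) * ft (m * N) (v s) η)) + (ft (m' * (m * N)) W η
        - Θ₀ η * ft (m * N) (ten N c₀ fun k => γ k - ∑ s ∈ G, γs s k) η) := by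
    intro η
    rw [e1, e2, mul_add, Finset.mul_sum]
    simp only [sub_mul, sub_add_sub_cancel, Finset.sum_sub_distrib]; ring
  refine le_of_eq_of_le (congrArg nm (funext e3)) ?_
  refine (nm_add_le (by fun_prop) (by fun_prop)).trans ?_
  have f1 := (nm_sum_le (s := G) (F := fun s η =>
    (PL N (L s) m' q' β β' (m * N) η - Θ (L s) η) * ft (m * N) (v s) η
      + (Θ (L s) η - Θ₀ η) * ft (m * N) (v s) η) fun s _ => by fun_prop).trans
    (Finset.sum_le_card_nsmul _ _ ((ε' + ε / S) * nt N c₀) fun s hs => by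
      refine (nm_add_le (by fun_prop) (by fun_prop)).trans ?_
      have := hfl _ (h2 s hs).1 (v s)
      have := mul_le_mul_of_nonneg_left (v2 s) hε'
      linarith [loc s hs])
  have f2 := nm_sub_le (BM_ft (m' * (m * N)) W) (show BM fun η => Θ₀ η *
    ft (m * N) (ten N c₀ fun k => γ k - ∑ s ∈ G, γs s k) η by fun_prop)
  rw [nm_um hΘ', ← nt, ← nt, nt_ten] at f2
  have f3 := mul_le_mul_of_nonneg_right h4 hc₀
  have f4 : G.card • ((ε' + ε / S) * nt N c₀) ≤ (S * ε' + ε) * nt N c₀ := by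
    rw [nsmul_eq_mul]
    calc _ ≤ S * ((ε' + ε / S) * nt N c₀) := by gcongr
      _ = _ := by field_simp
  linarith

theorem core {N : ℕ} (hN : 0 < N) (R : ℕ) {ε : ℝ} (hε : 0 < ε) :
    ∃ p : ℝ, 0 < p ∧ p ≤ 1 ∧ ∃ (Q : ℕ) (g : T → ℂ), 0 < Q ∧ BM g ∧ nm g ≤ 1 ∧ ∀ᶠ t in atTop,
      ∃ σ : ℕ → ℕ → ℕ → ℕ, (∀ c c', IsPerm (mm t * N) (σ c c') ∧
        dfc (mm t * N) (mm t * N) (σ c c') ≤ mm t ∧ ∀ x, σ c c' x % N = (x + c') % N) ∧
      (∀ (r l : ℤ) (c₀ : ℕ → ℂ), (r, l) ≠ (0, 0) → |r| ≤ R → |l| ≤ R →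
        nt (mm t * N) (Abar Q N σ (ten N c₀ (gam (mm t) (qq p t) r l))) ≤ ε * nt N c₀) ∧
      ∀ p' : ℝ, 0 < p' → p' ≤ 1 → ∀ᶠ t' in atTop, ∀ β β' : T,
        nt (mm t') (fun k => g (ta (mm t') (qq p' t') k + β')) ≤ 2 → ∃ Θ, UM Θ ∧
          ∀ (r l : ℤ) (c₀ : ℕ → ℂ), (r, l) ≠ (0, 0) → |r| ≤ R → |l| ≤ R →
            nm (fun η => ft (mm t' * (mm t * N)) (fun x => ten N c₀ (gam (mm t) (qq p t) r l)
              (pull (mm t * N) (sel Q N σ (mm t') (qq p' t') β β') x)) η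
              - Θ η * ft (mm t * N) (ten N c₀ (gam (mm t) (qq p t) r l)) η) ≤ ε * nt N c₀ := by
  obtain ⟨p, hp0, hp1, S, hS, κ, hκ, htd⟩ := td R (ε := ε / 4) (by positivity)
  have hS' : (0 : ℝ) < S := by exact_mod_cast hS
  obtain ⟨g, hg, hg1, L₀, hL₀, hfl⟩ := flat hN (ε := ε / 4 / S) (by positivity)
  obtain ⟨Λ, Q, Lab, hQ, hΛ, hLab, hLabΛ, hev⟩ := htd L₀
  have hΛ0 : ∀ L ∈ Λ, L ≠ 0 := fun L hL h => by
    have := (hΛ L hL).1
    rw [h] at this; simp at this; omega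
  refine ⟨p, hp0, hp1, Q, g, hQ, hg, hg1, ?_⟩
  filter_upwards [hev] with t ⟨b, hb, hsp⟩
  have hm0 : 0 < mm t := pow_pos (nn_pos t) 2
  refine ⟨fun c c' x => lift N (b c) ((x + c') % (mm t * N)), fun c c' => ⟨(lift_perm hN (hb c)).comp
    (isPerm_add (by positivity) c'), dfc_lift hN (hb c) c', fun x => ?_⟩,
    fun r l c₀ h1 h2 h3 => ?_, fun p' hp0' hp1' => ?_⟩
  · rw [lift_mod, Nat.mod_mod_of_dvd _ (dvd_mul_left _ _)]
  · refine (abar_split hN hm0 hQ (fun L hL => ⟨hΛ0 L hL, (hΛ L hL).2⟩) (hsp r l h1 h2 h3)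
      c₀).trans (mul_le_mul_of_nonneg_right (by linarith) (nt_nonneg _ _))
  filter_upwards [(Finset.eventually_all Λ).2 fun L hL => good_ev (hΛ0 L hL) hp0' hp1']
    with t' hG β β' hβ
  have : ∀ L : ℤ, ∃ Θ, UM Θ ∧ (L ∈ Λ → ∀ v, nm (fun η => (PL N L (mm t') (qq p' t') β β'
      (mm t * N) η - Θ η) * ft (mm t * N) v η) ≤ ε / 4 / S * nt (mm t * N) v) := by
    intro L
    by_cases hL : L ∈ Λ
    · obtain ⟨Θ, h1, h2⟩ := hfl L (hΛ L hL).1 _ _ (hG L hL) β β' hβ (mm t * N)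
      exact ⟨Θ, h1, fun _ => h2⟩
    · exact ⟨fun _ => 1, ⟨measurable_const, by simp⟩, fun h => absurd h hL⟩
  choose Θ hΘ hΘ' using this
  have hU : UM fun η => Θ (Lab (-((N : ℤ) • η))) η := by
    refine ⟨?_, fun η => (hΘ _).2 η⟩
    have : Measurable fun w : ℤ × T => Θ w.1 w.2 :=
      measurable_from_prod_countable_right fun L => (hΘ L).1
    exact this.comp ((hLab.comp (by fun_prop)).prodMk measurable_id)
  refine ⟨_, hU, fun r l c₀ h1 h2 h3 => ?_⟩
  refine (compat_split hN hm0 hQ hκ (by positivity) (by positivity) (hsp r l h1 h2 h3) hS c₀ hΘ hU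
    hΘ').trans (le_of_eq ?_)
  field_simp; ring

end Vale.Agent.P130
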