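import Vale.Agent.P130.Model

/-! Hilbert space tools. -/

noncomputable section
open MeasureTheory Finset Filter Topology
open scoped ComplexConjugate Real ENNReal Nat BoundedContinuousFunction InnerProductSpace

namespace Vale.Agent.P130

abbrev K := Lp ℂ 2 hm

theorem norm_sub_L2 {α : Type*} [MeasurableSpace α] {μ : Measure α} {g g' : Lp ℂ 2 μ}
    {a b : α → ℂ} (h : g =ᵐ[μ] a) (h' : g' =ᵐ[μ] b) :
    ‖g - g'‖ = √(∫ x, ‖a x - b x‖ ^ 2 ∂μ) := by
  rw [norm_L2]; congr 1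
  refine integral_congr_ae ?_
  filter_upwards [Lp.coeFn_sub g g', h, h'] with x h1 h2 h3
  rw [h1, Pi.sub_apply, h2, h3]

def Mu : C(T, ℂ) →L[ℂ] K →L[ℂ] K :=
  ((ContinuousLinearMap.mul ℂ ℂ).holderL hm ⊤ 2 2).comp (ContinuousMap.toLp ⊤ hm ℂ)

theorem coe_Mu (ψ : C(T, ℂ)) (F : K) : Mu ψ F =ᵐ[hm] fun η => ψ η * F η := by
  filter_upwards [(ContinuousLinearMap.mul ℂ ℂ).coeFn_holder (r := 2)
    (ContinuousMap.toLp ⊤ hm ℂ ψ) F, ContinuousMap.coeFn_toLp (p := ⊤) (μ := hm) (𝕜 := ℂ) ψ]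
    with η h1 h2
  rw [h2] at h1
  exact h1

theorem norm_Mu (ψ : C(T, ℂ)) (F : K) : ‖Mu ψ F‖ ≤ ‖ψ‖ * ‖F‖ :=
  Lp.norm_le_mul_norm_of_ae_le_mul ((coe_Mu ψ F).mono fun η h => by
    rw [h, norm_mul]; gcongr; exact ψ.norm_coe_le_norm η)

theorem ext_rel {H G : Type*} [NormedAddCommGroup H] [NormedAddCommGroup G] [CompleteSpace G]
    {R : H → G → Prop} (hsub : ∀ g F g' F', R g F → R g' F' → ‖g - g'‖ = ‖F - F'‖)
    (hcl : ∀ g F, (∀ ε > (0 : ℝ), ∃ g' F', R g' F' ∧ ‖g - g'‖ ≤ ε ∧ ‖F - F'‖ ≤ ε) → R g F)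
    {g : H} (h : ∀ ε > (0 : ℝ), ∃ g' F', R g' F' ∧ ‖g - g'‖ ≤ ε) : ∃ F, R g F := by
  choose a b hab hga using fun n : ℕ => h (1 / ((n : ℝ) + 1)) (by positivity)
  have h1 : Tendsto a atTop (𝓝 g) := by
    rw [tendsto_iff_norm_sub_tendsto_zero]
    exact squeeze_zero (fun _ => norm_nonneg _) (fun n => by rw [norm_sub_rev]; exact hga n)
      tendsto_one_div_add_atTop_nhds_zero_nat
  have h2 : CauchySeq b := by
    have := h1.cauchySeq
    rw [Metric.cauchySeq_iff] at this ⊢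
    simpa only [dist_eq_norm, hsub _ _ _ _ (hab _) (hab _)] using this
  obtain ⟨F, hF⟩ := cauchySeq_tendsto_of_complete h2
  refine ⟨F, hcl g F fun ε hε => ?_⟩
  obtain ⟨n, h3, h4⟩ := (((Metric.tendsto_nhds.1 h1) ε hε).and
    ((Metric.tendsto_nhds.1 hF) ε hε)).exists
  rw [dist_comm, dist_eq_norm] at h3 h4
  exact ⟨_, _, hab n, h3.le, h4.le⟩

theorem trunc {Θ : T → ℂ} (hΘ : UM Θ) {ε : ℝ} (hε : 0 < ε) :
    ∃ ψ : C(T, ℂ), ‖ψ‖ ≤ 1 ∧ nm (fun η => 1 - ψ η * Θ η) ≤ ε := by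
  have hb := hΘ.bm
  obtain ⟨G, hG⟩ := (ContinuousMap.toLp_denseRange ℂ hm ℂ (p := 2) (by simp)).exists_dist_lt
    ((hb.conj.memLp 2).toLp _) (half_pos hε)
  rw [dist_eq_norm, norm_sub_L2 (MemLp.coeFn_toLp _) (ContinuousMap.coeFn_toLp hm G)] at hG
  have bG : BM G := ⟨G.continuous.measurable, _, G.norm_coe_le_norm⟩
  have h1 : ∀ η, (1 : ℝ) ≤ max 1 ‖G η‖ := fun η => le_max_left _ _
  refine ⟨⟨fun η => G η / (max 1 ‖G η‖ : ℝ), G.continuous.div (by fun_prop) fun η => by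
    exact_mod_cast (one_pos.trans_le (h1 η)).ne'⟩, (ContinuousMap.norm_le _ one_pos.le).2 fun η => ?_,
    ?_⟩
  · rw [ContinuousMap.coe_mk, norm_div, Complex.norm_real, Real.norm_eq_abs,
      abs_of_pos (one_pos.trans_le (h1 η)), div_le_one (one_pos.trans_le (h1 η))]
    exact le_max_right _ _
  refine (nm_mono (G := fun η => 2 * (conj (Θ η) - G η)) (by fun_prop) fun η => ?_).trans ?_
  · have e1 : conj (Θ η) * Θ η = 1 := by rw [Complex.conj_mul', hΘ.2]; simp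
    rw [ContinuousMap.coe_mk, ← e1, ← sub_mul, norm_mul, hΘ.2, mul_one, norm_mul]
    have e2 : ‖G η - G η / (max 1 ‖G η‖ : ℝ)‖ ≤ ‖conj (Θ η) - G η‖ := by
      rcases le_total ‖G η‖ 1 with h | h
      · simp [max_eq_left h]
      · have h0 : (‖G η‖ : ℂ) ≠ 0 := by exact_mod_cast (one_pos.trans_le h).ne'
        have : G η - G η / ‖G η‖ = ((‖G η‖ - 1 : ℝ) : ℂ) * (G η / ‖G η‖) := by
          push_cast; field_simp
        rw [max_eq_right h, this, norm_mul, norm_div, Complex.norm_real, Complex.norm_real,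
          norm_norm, div_self (one_pos.trans_le h).ne', mul_one, Real.norm_eq_abs,
          abs_of_nonneg (by linarith), norm_sub_rev]
        have := norm_sub_norm_le (G η) (conj (Θ η))
        rwa [RCLike.norm_conj, hΘ.2] at this
    have := norm_sub_le_norm_sub_add_norm_sub (conj (Θ η)) (G η) (G η / (max 1 ‖G η‖ : ℝ))
    simp only [Complex.norm_ofNat]; linarith
  · rw [nm_smul]
    have : nm (fun η => conj (Θ η) - G η) < ε / 2 := hG
    simp only [Complex.norm_ofNat]; linarith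

end Vale.Agent.P130
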