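import Vale.Agent.P130.Label1

/-! The labelling lemma: an almost equivariant rational label for the integer affine maps. -/

noncomputable section
open MeasureTheory Finset Filter Topology
open scoped ComplexConjugate Real ENNReal Nat

namespace Vale.Agent.P130

def act (g u : ℤ × ℤ) : ℤ × ℤ := (u.1 * g.1, u.1 * g.2 + u.2)

theorem act_inj {g : ℤ × ℤ} (hg : g.1 ≠ 0) : Function.Injective (act g) := by
  rintro ⟨a, b⟩ ⟨a', b'⟩ h
  simp only [act, Prod.mk.injEq] at h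
  have := mul_right_cancel₀ hg h.1
  subst this
  simpa using h.2

theorem aff_folner (R : ℕ) {ε : ℝ} (hε : 0 < ε) : ∃ (F F' D : Finset (ℤ × ℤ)) (M : ℤ) (A : ℕ),
    (1, 0) ∈ F ∧ F'.Nonempty ∧ (∀ u ∈ F', u.1 ≠ 0) ∧ (∀ u ∈ F, u.1 ≠ 0 ∧ u.2 < M ∧ |u.1| ≤ A) ∧ D ⊆ F' ∧
    (D.card : ℝ) ≤ ε * F'.card ∧ ∀ r l : ℤ, r ≠ 0 → |r| ≤ R → |l| ≤ R →
      (∀ u ∈ F, act (r, l) u ∈ F') ∧ ∀ v ∈ F', v ∉ D → ∃ u ∈ F, act (r, l) u = v := by
  classical
  set G : Finset ℤ := insert 1 ((Icc (-R : ℤ) R).erase 0) with hG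
  set G₂ := G ×ˢ Icc (-R : ℤ) R with hG₂
  set δ := ε / (3 * G₂.card + ε) with hδ
  have hδ0 : 0 < δ := by positivity
  have hδ1 : δ ≤ 1 := by
    rw [hδ, div_le_one (by positivity)]; linarith [Nat.cast_nonneg (α := ℝ) G₂.card]
  have hδ2 : G₂.card * (3 * δ) ≤ ε := by
    rw [hδ, ← mul_div_assoc, ← mul_div_assoc, div_le_iff₀ (by positivity)]; nlinarith
  obtain ⟨B, B', h1, h0, hBB, hmul, hcard⟩ := folner G (by simp [hG]) hδ0
  set A := B'.sup Int.natAbs with hA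
  have hA' : ∀ a ∈ B', |a| ≤ A := fun a ha => by
    have := Finset.le_sup (f := Int.natAbs) ha
    rw [← hA] at this; rw [← Int.natCast_natAbs]; exact_mod_cast this
  obtain ⟨H, hH⟩ := exists_nat_ge ((A * R : ℝ) / δ)
  set F := B ×ˢ Icc (-H : ℤ) H with hF
  set F' := B' ×ˢ Icc (-(H + A * R : ℕ) : ℤ) (H + A * R : ℕ) with hF'
  have cI : ∀ n : ℕ, ((Icc (-n : ℤ) n).card : ℝ) = 2 * n + 1 := by
    intro n
    have : (Icc (-n : ℤ) n).card = 2 * n + 1 := by rw [Int.card_Icc]; omega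
    rw [this]; push_cast; ring
  have cF : (F'.card : ℝ) ≤ (1 + δ) * (1 + δ) * F.card := by
    rw [hF, hF', card_product, card_product, Nat.cast_mul, Nat.cast_mul, cI, cI]
    rw [div_le_iff₀ hδ0] at hH
    have : (2 * ((H + A * R : ℕ) : ℝ) + 1) ≤ (1 + δ) * (2 * H + 1) := by
      push_cast; nlinarith
    calc _ ≤ ((1 + δ) * B.card) * ((1 + δ) * (2 * H + 1)) := by gcongr
      _ = _ := by ring
  have maps : ∀ g ∈ G₂, ∀ u ∈ F, act g u ∈ F' := by
    rintro ⟨r, l⟩ hg ⟨a, b⟩ hu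
    simp only [hG₂, hF, hF', mem_product, Finset.mem_Icc, act] at hg hu ⊢
    refine ⟨hmul a hu.1 r hg.1, ?_⟩
    have h2 : |a * l| ≤ A * R := by
      rw [abs_mul]; exact mul_le_mul (hA' a (hBB hu.1)) (abs_le.2 hg.2) (abs_nonneg _) (by omega)
    rw [abs_le] at h2
    push_cast; omega
  have hg0 : ∀ g ∈ G₂, g.1 ≠ 0 := by
    intro g hg h
    have := (mem_product.1 hg).1
    rw [h] at this; simp [hG] at this
  have hFF : (F.card : ℝ) ≤ F'.card := by
    have : (1, 0) ∈ G₂ := by simp [hG₂, hG]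
    exact_mod_cast card_le_card_of_injOn _ (maps _ this) (act_inj (hg0 _ this)).injOn
  refine ⟨F, F', G₂.biUnion fun g => F' \ F.image (act g), H + 1, A, by simp [hF, h1],
    ⟨_, maps (1, 0) (by simp [hG₂, hG]) (1, 0) (by simp [hF, h1])⟩, ?_, ?_, ?_, ?_, fun r l hr hr1 hl1 => ?_⟩
  · intro u hu h; exact h0 (h ▸ (mem_product.1 hu).1)
  · intro u hu
    simp only [hF, mem_product, Finset.mem_Icc] at hu
    exact ⟨fun h => h0 (h ▸ hBB hu.1), by omega, hA' _ (hBB hu.1)⟩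
  · intro u hu
    obtain ⟨g, -, h⟩ := mem_biUnion.1 hu
    exact (mem_sdiff.1 h).1
  · have c1 : ∀ g ∈ G₂, ((F' \ F.image (act g)).card : ℝ) ≤ 3 * δ * F'.card := by
      intro g hg
      have hs : F.image (act g) ⊆ F' := image_subset_iff.2 (maps g hg)
      rw [card_sdiff_of_subset hs, Nat.cast_sub (card_le_card hs),
        card_image_of_injective _ (act_inj (hg0 g hg))]
      have : (0 : ℝ) ≤ F.card := Nat.cast_nonneg _
      have h3 : δ * δ * F.card ≤ δ * F.card := by gcongr; nlinarith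
      nlinarith
    calc _ ≤ ((∑ g ∈ G₂, (F' \ F.image (act g)).card : ℕ) : ℝ) := by
          exact_mod_cast card_biUnion_le
      _ ≤ ∑ g ∈ G₂, 3 * δ * F'.card := by push_cast; exact Finset.sum_le_sum c1
      _ = G₂.card * (3 * δ) * F'.card := by simp; ring
      _ ≤ _ := by gcongr
  · have hg : (r, l) ∈ G₂ := by
      simp only [hG₂, hG, mem_product, mem_insert, mem_erase, Finset.mem_Icc]
      exact ⟨Or.inr ⟨hr, abs_le.1 hr1⟩, abs_le.1 hl1⟩
    refine ⟨maps _ hg, fun v hv hD => ?_⟩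
    by_contra h
    refine hD (mem_biUnion.2 ⟨_, hg, mem_sdiff.2 ⟨hv, fun h' => h ?_⟩⟩)
    simpa using h'

theorem irr_ne {p : ℝ} (hp : Irrational p) {b : ℤ} (hb : b ≠ 0) (j q : ℕ) :
    b • (p : T) + -(((j : ℝ) / q : ℝ) : T) ≠ 0 := by
  intro h
  rw [zsmul_coe, ← AddCircle.coe_neg, ← AddCircle.coe_add, AddCircle.coe_eq_zero_iff] at h
  obtain ⟨n, hn⟩ := h
  have h1 : Irrational (b * p) := hp.intCast_mul hb
  refine h1 ⟨n + j / q, ?_⟩
  simp only [zsmul_eq_mul, mul_one] at hn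
  push_cast; linarith

theorem labeling (R : ℕ) {ε κ' : ℝ} (hε : 0 < ε) (hκ' : 0 < κ') :
    ∃ p : ℝ, 0 < p ∧ p ≤ 1 ∧ ∃ κ > (0 : ℝ), ∃ (A : ℕ) (Λ : Finset ℚ), 0 ∉ Λ ∧ ∀ S : ℕ, 0 < S →
      ∃ (lam : T → ℚ) (x : ℕ → ℝ) (ls : ℕ → ℚ) (Bad : Finset ℕ), Measurable lam ∧
        (∀ y, lam y ∈ Λ) ∧ (Bad.card : ℝ) ≤ ε * S ∧ ∀ s < S, s ∉ Bad →
          ((s : ℝ) / S ≤ x s ∧ x s ≤ (s + 1) / S) ∧
          (∀ r l : ℤ, (r, l) ≠ (0, 0) → |r| ≤ R → |l| ≤ R → ∀ y,
            ‖y - (r • (x s : T) + l • (p : T))‖ ≤ κ → lam y = r * ls s + l) ∧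
          ∀ b₁ b₂ : T, ∃ α ≤ A, ‖(α : ℤ) • (x s : T) - b₁‖ ≤ κ' ∧
            ‖(α : ℤ) • (p : T) - b₂‖ ≤ κ' := by
  classical
  have hε4 : 0 < ε / 4 := by positivity
  obtain ⟨p, hp0, hp1, hp, A, E₁, hE₁, hdens⟩ := dens hε4 hκ'
  obtain ⟨F, F', D, M, A₁, hF1, hF'ne, hF'0, hF, hD, hDc, hact⟩ := aff_folner R hε4
  set pt : T → ℤ × ℤ → T := fun x u => u.1 • x + u.2 • (p : T) with hpt
  set G : Finset ℤ := (Icc (-R : ℤ) R).erase 0 with hG
  set F₃ := F' ∪ G.image fun l => ((0 : ℤ), l) with hF₃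
  obtain ⟨ρ, hρ, hE₂⟩ := small_set F₃.offDiag (fun w => w.1.1 - w.2.1)
    (fun w => (w.1.2 - w.2.2) • (p : T)) (fun w hw h => by
      have h1 := (mem_offDiag.1 hw).2.2
      have h2 : w.1.2 - w.2.2 ≠ 0 := fun h2 => h1 (Prod.ext (by omega) (by omega))
      simpa using irr_ne hp h2 0 1) hε4
  obtain ⟨q₀, hq₀⟩ := exists_nat_one_div_lt hρ
  set q := q₀ + 1 with hq
  have hq0 : 0 < q := by omega
  have hq1 : (1 : ℝ) / q ≤ ρ := by rw [hq]; push_cast; exact hq₀.le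
  obtain ⟨κ₁, hκ₁, hE₃⟩ := small_set (F₃ ×ˢ range q) (fun w => w.1.1)
    (fun w => w.1.2 • (p : T) + -(((w.2 : ℝ) / q : ℝ) : T)) (fun w hw h => by
      refine irr_ne hp ?_ _ _
      rcases mem_union.1 (mem_product.1 hw).1 with h1 | h1
      · exact absurd h (hF'0 _ h1)
      · obtain ⟨l, hl, h2⟩ := mem_image.1 h1
        rw [← h2]; exact (mem_erase.1 hl).1) hε4
  refine ⟨p, hp0, hp1, κ₁ / (A₁ + 1), by positivity, A,
    F.image (fun u => ((M : ℚ) - u.2) / u.1) ∪ G.image Int.cast, ?_, fun S hS => ?_⟩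
  · intro h
    rcases mem_union.1 h with h | h
    · obtain ⟨u, hu, h⟩ := mem_image.1 h
      obtain ⟨h1, h2, -⟩ := hF u hu
      rcases div_eq_zero_iff.1 h with h | h
      · have : M - u.2 = 0 := by exact_mod_cast h
        omega
      · exact h1 (by exact_mod_cast h)
    · obtain ⟨l, hl, h⟩ := mem_image.1 h
      exact (mem_erase.1 hl).1 (by exact_mod_cast h)
  obtain ⟨x, Bad₀, hBad₀, hx⟩ := bands (ε := 3 * (ε / 4)) (by positivity)
    ((measure_union_le _ _).trans ((add_le_add ((measure_union_le _ _).trans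
      (add_le_add hE₁ hE₂)) hE₃).trans (le_of_eq (by
        rw [← ENNReal.ofReal_add hε4.le hε4.le, ← ENNReal.ofReal_add (by positivity) hε4.le]
        congr 1; ring)))) hS
  have dist : ∀ s < S, s ∉ Bad₀ → ∀ u ∈ F₃, ∀ v ∈ F₃,
      cell q (pt (x s) u) = cell q (pt (x s) v) → u = v := by
    intro s hs hb u hu v hv h
    by_contra huv
    refine (hx s hs hb).2.2 (Or.inl (Or.inr ⟨(u, v), mem_offDiag.2 ⟨hu, hv, huv⟩, ?_⟩))
    refine le_trans (le_of_eq ?_) ((norm_le_of_cell hq0 h).trans hq1)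
    congr 1; simp only [hpt]; module
  have stab : ∀ s < S, s ∉ Bad₀ → ∀ u ∈ F₃, ∀ z, ‖z - pt (x s) u‖ ≤ κ₁ →
      cell q z = cell q (pt (x s) u) := by
    intro s hs hb u hu z hz
    refine cell_stable hq0 (fun j hj => ?_) hz
    by_contra h
    refine (hx s hs hb).2.2 (Or.inr ⟨(u, j), mem_product.2 ⟨hu, mem_range.2 hj⟩, ?_⟩)
    refine le_trans (le_of_eq ?_) (not_lt.1 h)
    congr 1; simp only [hpt]; abel
  set fi : ℕ → Fin q := fun n => ⟨n % q, Nat.mod_lt _ hq0⟩ with hfi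
  have fi_inj : ∀ y z, fi (cell q y) = fi (cell q z) → cell q y = cell q z := by
    intro y z h
    simpa [hfi, Nat.mod_eq_of_lt (cell_lt hq0 _)] using h
  set ι : ℕ → ℤ × ℤ → Fin q := fun s u => fi (cell q (pt (x s) u)) with hι
  have ι_inj : ∀ s < S, s ∉ Bad₀ → Set.InjOn (ι s) F' := fun s hs hb u hu v hv h =>
    dist s hs hb u (mem_union_left _ hu) v (mem_union_left _ hv) (fi_inj _ _ h)
  set bad : Equiv.Perm (Fin q) → ℕ → Prop := fun ω s =>
    ∃ u ∈ D, ∀ v ∈ F', ω (ι s v) ≤ ω (ι s u) with hbad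
  have hF'c : (0 : ℝ) < F'.card := by exact_mod_cast card_pos.2 hF'ne
  obtain ⟨ω, -, hω⟩ : ∃ ω ∈ (univ : Finset (Equiv.Perm (Fin q))),
      (((range S).filter fun s => s ∉ Bad₀ ∧ bad ω s).card : ℝ) ≤ ε / 4 * S := by
    refine Finset.exists_le_of_sum_le univ_nonempty ?_
    simp only [card_filter, Nat.cast_sum]
    rw [Finset.sum_comm]
    calc _ ≤ ∑ s ∈ range S, ε / 4 * (univ : Finset (Equiv.Perm (Fin q))).card := by
          refine Finset.sum_le_sum fun s hs => ?_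
          by_cases hb : s ∈ Bad₀
          · simp [hb]; positivity
          have h1 := minhash F' D hD (ι s) (ι_inj s (mem_range.1 hs) hb)
          have h2 : ((univ.filter fun ω => bad ω s).card : ℝ) * F'.card
              ≤ D.card * (univ : Finset (Equiv.Perm (Fin q))).card := by exact_mod_cast h1
          have h3 : ((univ.filter fun ω => bad ω s).card : ℝ)
              ≤ ε / 4 * (univ : Finset (Equiv.Perm (Fin q))).card := by
            refine le_of_mul_le_mul_right (h2.trans ?_) hF'c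
            calc _ ≤ (ε / 4 * F'.card) * (univ : Finset (Equiv.Perm (Fin q))).card := by gcongr
              _ = _ := by ring
          simpa only [card_filter, Nat.cast_sum, hb, not_false_eq_true, true_and] using h3
      _ = _ := by simp; ring
  have : Nonempty F := ⟨⟨_, hF1⟩⟩
  have harg : ∀ κf : F → ℕ, ∃ u : F, ∀ v, ω (fi (κf v)) ≤ ω (fi (κf u)) :=
    fun κf => Finite.exists_max _
  choose arg harg using harg
  have htop : ∀ s, ∃ u ∈ F', ∀ v ∈ F', ω (ι s v) ≤ ω (ι s u) :=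
    fun s => exists_max_image F' _ hF'ne
  choose top htop1 htop using htop
  set Gf : ℕ × (F → ℕ) → ℚ := fun w => if h : ∃ l ∈ G, w.1 = cell q (l • (p : T)) then
    (h.choose : ℚ) else ((M : ℚ) - (arg w.2).1.2) / (arg w.2).1.1 with hGf
  refine ⟨fun y => Gf (cell q y, fun u => cell q (pt y u)), x,
    fun s => ((M : ℚ) - (top s).2) / (top s).1,
    Bad₀ ∪ (range S).filter fun s => s ∉ Bad₀ ∧ bad ω s, ?_, fun y => ?_, ?_, fun s hs hb => ?_⟩
  · refine (measurable_of_countable Gf).comp ((measurable_cell q).prodMk ?_)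
    exact measurable_pi_lambda _ fun u => by simp only [hpt]; fun_prop
  · simp only [hGf]
    split_ifs with h
    · exact mem_union_right _ (mem_image_of_mem _ h.choose_spec.1)
    · exact mem_union_left _ (mem_image.2 ⟨_, (arg _).2, rfl⟩)
  · calc _ ≤ ((Bad₀.card + ((range S).filter fun s => s ∉ Bad₀ ∧ bad ω s).card : ℕ) : ℝ) := by
          exact_mod_cast card_union_le _ _
      _ ≤ _ := by push_cast; linarith
  have hb0 : s ∉ Bad₀ := fun h => hb (mem_union_left _ h)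
  have hb1 : ¬ bad ω s := fun h => hb (mem_union_right _ (mem_filter.2 ⟨mem_range.2 hs, hb0, h⟩))
  obtain ⟨x1, x2, x3⟩ := hx s hs hb0
  refine ⟨⟨x1, x2⟩, fun r l hrl hr hl y hy => ?_, hdens _ fun h => x3 (Or.inl (Or.inl h))⟩
  have hκ : κ₁ / (A₁ + 1) ≤ κ₁ := div_le_self hκ₁.le (by linarith [Nat.cast_nonneg (α := ℝ) A₁])
  have hG3 : ∀ l ∈ G, ((0 : ℤ), l) ∈ F₃ := fun l hl => mem_union_right _ (mem_image_of_mem _ hl)
  have hpt0 : ∀ l, pt (x s) (0, l) = l • (p : T) := fun l => by simp [hpt]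
  by_cases hr0 : r = 0
  · subst hr0
    have hlG : l ∈ G := mem_erase.2 ⟨fun h => hrl (by rw [h]), Finset.mem_Icc.2 (abs_le.1 hl)⟩
    have c1 := stab s hs hb0 _ (hG3 l hlG) y (hy.trans hκ)
    have h : ∃ l ∈ G, cell q y = cell q (l • (p : T)) := ⟨l, hlG, by rw [c1, hpt0]⟩
    simp only [hGf, dif_pos h]
    have := dist s hs hb0 _ (hG3 _ h.choose_spec.1) _ (hG3 l hlG)
      (by rw [hpt0, ← h.choose_spec.2, c1])
    rw [show h.choose = l from (Prod.ext_iff.1 this).2]; simp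
  obtain ⟨ha1, ha2⟩ := hact r l hr0 hr hl
  have hrl' : (r, l) ∈ F₃ := mem_union_left _ (by simpa [act] using ha1 _ hF1)
  have c1 := stab s hs hb0 _ hrl' y (hy.trans hκ)
  have h : ¬ ∃ l ∈ G, cell q y = cell q (l • (p : T)) := by
    rintro ⟨l', hl', h⟩
    have := dist s hs hb0 _ hrl' _ (hG3 _ hl') (by rw [hpt0, ← h, c1])
    exact hr0 (Prod.ext_iff.1 this).1
  simp only [hGf, dif_neg h]
  obtain ⟨u₀, hu₀, e₀⟩ := ha2 _ (htop1 s) fun hD' => hb1 ⟨_, hD', htop s⟩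
  have c2 : ∀ u ∈ F, cell q (pt y u) = cell q (pt (x s) (act (r, l) u)) := by
    intro u hu
    refine stab s hs hb0 _ (mem_union_left _ (ha1 u hu)) _ ?_
    have : pt y u - pt (x s) (act (r, l) u) = u.1 • (y - (r • (x s : T) + l • (p : T))) := by
      simp only [hpt, act]; module
    rw [this]
    refine (norm_zsmul_le _ _).trans ?_
    have h1 : ‖u.1‖ ≤ A₁ + 1 := by
      rw [Int.norm_eq_abs]
      have : |(u.1 : ℝ)| ≤ A₁ := by exact_mod_cast (hF u hu).2.2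
      linarith
    calc _ ≤ (A₁ + 1) * (κ₁ / (A₁ + 1)) := by gcongr
      _ = _ := by field_simp
  set a := arg fun u : F => cell q (pt y u) with ha
  have c3 := harg (fun u : F => cell q (pt y u)) ⟨u₀, hu₀⟩
  rw [← ha, c2 _ hu₀, c2 _ a.2, e₀] at c3
  have c4 := htop s _ (ha1 _ a.2)
  have c5 : act (r, l) a = top s :=
    ι_inj s hs hb0 (ha1 _ a.2) (htop1 s) (ω.injective (le_antisymm c4 c3))
  have c6 : ((a : ℤ × ℤ).1 : ℚ) ≠ 0 := by exact_mod_cast (hF _ a.2).1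
  have c7 : (r : ℚ) ≠ 0 := by exact_mod_cast hr0
  rw [← c5]; simp only [act]; push_cast; field_simp; ring

end Vale.Agent.P130
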