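import Vale.Agent.P130.Cell

/-! Ingredients of the labelling lemma. -/

noncomputable section
open MeasureTheory Finset Filter Topology
open scoped ComplexConjugate Real ENNReal Nat

namespace Vale.Agent.P130

theorem meas_ball {a : ℤ} (ha : a ≠ 0) (z : T) {ρ : ℝ} :
    hm {x | ‖a • x + z‖ ≤ ρ} ≤ ENNReal.ofReal (2 * ρ) := by
  have : {x : T | ‖a • x + z‖ ≤ ρ} = (fun x => a • x + z) ⁻¹' Metric.closedBall 0 ρ := by
    ext x; simp
  rw [this, (mp_aff ha z).measure_preimage measurableSet_closedBall.nullMeasurableSet, hm_eq,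
    AddCircle.volume_closedBall]
  exact ENNReal.ofReal_le_ofReal (min_le_right _ _)

theorem small_set {ι : Type*} (I : Finset ι) (a : ι → ℤ) (z : ι → T)
    (h : ∀ i ∈ I, a i = 0 → z i ≠ 0) {ε : ℝ} (hε : 0 < ε) :
    ∃ ρ > 0, hm {x | ∃ i ∈ I, ‖a i • x + z i‖ ≤ ρ} ≤ ENNReal.ofReal ε := by
  have h1 : ∀ᶠ ρ in 𝓝[>] (0 : ℝ), ∀ i ∈ I, a i = 0 → ρ < ‖z i‖ := by
    refine (Finset.eventually_all _).2 fun i hi => ?_
    by_cases h0 : a i = 0
    · have := norm_pos_iff.2 (h i hi h0)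
      filter_upwards [nhdsWithin_le_nhds (gt_mem_nhds this)] with ρ hρ _ using hρ
    · simp [h0]
  have h2 : ∀ᶠ ρ in 𝓝[>] (0 : ℝ), ρ < ε / (2 * I.card + 1) :=
    nhdsWithin_le_nhds (gt_mem_nhds (by positivity))
  obtain ⟨ρ, ⟨h1, h2⟩, h3⟩ := ((h1.and h2).and self_mem_nhdsWithin).exists
  have h3 : 0 < ρ := h3
  refine ⟨ρ, h3, ?_⟩
  have e : {x : T | ∃ i ∈ I, ‖a i • x + z i‖ ≤ ρ} = ⋃ i ∈ I, {x | ‖a i • x + z i‖ ≤ ρ} := by
    ext x; simp
  rw [e]
  refine (measure_biUnion_finset_le _ _).trans ?_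
  calc _ ≤ ∑ i ∈ I, ENNReal.ofReal (2 * ρ) := Finset.sum_le_sum fun i hi => by
        by_cases h0 : a i = 0
        · have : {x : T | ‖a i • x + z i‖ ≤ ρ} = ∅ := by
            ext x; simp [h0, h1 i hi h0]
          simp [this]
        · exact meas_ball h0 _
    _ = ENNReal.ofReal (I.card * (2 * ρ)) := by
        rw [Finset.sum_const, nsmul_eq_mul, ENNReal.ofReal_mul (Nat.cast_nonneg _),
          ENNReal.ofReal_natCast]
    _ ≤ _ := by
        refine ENNReal.ofReal_le_ofReal ?_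
        rw [lt_div_iff₀ (by positivity)] at h2; nlinarith

theorem meas_cell_mem {Q : ℕ} (hQ : 0 < Q) {A : Finset ℕ} (hA : ∀ c ∈ A, c < Q) :
    hm {y | cell Q y ∈ A} = ENNReal.ofReal (A.card / Q) := by
  have := sum_measure_preimage_singleton (μ := hm) A (f := cell Q)
    fun c _ => measurable_cell Q (measurableSet_singleton c)
  erw [← this]
  erw [Finset.sum_congr rfl fun c hc => meas_cell hQ (hA c hc)]
  rw [Finset.sum_const, nsmul_eq_mul,
    ← ENNReal.ofReal_natCast, ← ENNReal.ofReal_mul (by positivity)]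
  congr 1; ring

theorem bands {E : Set T} {ε : ℝ} (hε : 0 ≤ ε) (hE : hm E ≤ ENNReal.ofReal ε) {S : ℕ}
    (hS : 0 < S) : ∃ (x : ℕ → ℝ) (Bad : Finset ℕ), (Bad.card : ℝ) ≤ ε * S ∧ ∀ s < S, s ∉ Bad →
      (s : ℝ) / S ≤ x s ∧ x s ≤ (s + 1) / S ∧ (x s : T) ∉ E := by
  classical
  have : ∀ s : ℕ, ∃ x : ℝ, (∃ y, cell S y = s ∧ y ∉ E) →
      (s : ℝ) / S ≤ x ∧ x ≤ (s + 1) / S ∧ (x : T) ∉ E := by
    intro s
    by_cases h : ∃ y, cell S y = s ∧ y ∉ E
    · obtain ⟨y, h1, h2⟩ := h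
      obtain ⟨h3, h4⟩ := (cell_eq_iff hS y s).1 h1
      exact ⟨rep y, fun _ => ⟨h3, h4.le, by rwa [coe_rep]⟩⟩
    · exact ⟨0, fun h' => absurd h' h⟩
  choose x hx using this
  refine ⟨x, (range S).filter fun s => ¬ ∃ y, cell S y = s ∧ y ∉ E, ?_, fun s hs hb => hx s ?_⟩
  · set B := (range S).filter fun s => ¬ ∃ y, cell S y = s ∧ y ∉ E
    have h1 : hm {y | cell S y ∈ B} ≤ ENNReal.ofReal ε := by
      refine (measure_mono fun y hy => ?_).trans hE
      by_contra h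
      have hy' : cell S y ∈ B := hy
      exact (mem_filter.1 hy').2 ⟨y, rfl, h⟩
    rw [meas_cell_mem hS fun c hc => mem_range.1 (mem_filter.1 hc).1,
      ENNReal.ofReal_le_ofReal_iff hε, div_le_iff₀ (by exact_mod_cast hS)] at h1
    exact h1
  · by_contra h; exact hb (mem_filter.2 ⟨mem_range.2 hs, h⟩)

theorem dens {ε κ' : ℝ} (hε : 0 < ε) (hκ' : 0 < κ') : ∃ p : ℝ, 0 < p ∧ p ≤ 1 ∧ Irrational p ∧
    ∃ (A : ℕ) (E : Set T), hm E ≤ ENNReal.ofReal ε ∧ ∀ x ∉ E, ∀ b₁ b₂ : T, ∃ α ≤ A,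
      ‖(α : ℤ) • x - b₁‖ ≤ κ' ∧ ‖(α : ℤ) • (p : T) - b₂‖ ≤ κ' := by
  obtain ⟨D₀, hD₀⟩ := exists_nat_one_div_lt (K := ℝ) (half_pos hκ')
  set D := D₀ + 1 with hD
  have hD0 : 0 < D := by omega
  have hD' : (0 : ℝ) < D := by exact_mod_cast hD0
  have hD1 : (1 : ℝ) / D ≤ κ' / 2 := by rw [hD]; push_cast; exact hD₀.le
  set V : ℕ → Set T := fun a =>
    {y | ∃ j < D, ∀ n ≤ a, κ' / 2 < ‖(n : ℤ) • y - (((j : ℝ) / D : ℝ) : T)‖} with hV
  have mV : ∀ a, MeasurableSet (V a) := by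
    intro a
    simp only [hV, Set.ofPred_exists, Set.ofPred_and, Set.ofPred_forall]
    refine MeasurableSet.iUnion fun j => (MeasurableSet.const _).inter
      (MeasurableSet.iInter fun n => MeasurableSet.iInter fun _ => ?_)
    exact measurableSet_lt measurable_const (by fun_prop)
  have anti : Antitone V := fun a b hab y ⟨j, hj, h⟩ => ⟨j, hj, fun n hn => h n (hn.trans hab)⟩
  have lim := tendsto_measure_iInter_atTop (μ := hm) (fun a => (mV a).nullMeasurableSet) anti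
    ⟨0, measure_ne_top _ _⟩
  have null : hm (⋂ a, V a) = 0 := by
    refine measure_mono_null (t := ⋃ n : ℕ, {y : T | ‖((n + 1 : ℕ) : ℤ) • y + 0‖ ≤ 0})
      (fun y hy => ?_) (measure_iUnion_null fun n => ?_)
    · by_contra h
      have h0 : addOrderOf y = 0 := by
        rw [addOrderOf_eq_zero_iff']
        intro n hn h1
        refine h (Set.mem_iUnion.2 ⟨n - 1, ?_⟩)
        have : n - 1 + 1 = n := by omega
        simp [this, h1]
      have hd := denseRange_zsmul_iff_nsmul.1 (AddCircle.denseRange_zsmul_iff.2 h0)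
      have : ∀ j : ℕ, ∃ n : ℕ, dist (((j : ℝ) / D : ℝ) : T) (n • y) < κ' / 2 :=
        fun j => hd.exists_dist_lt _ (half_pos hκ')
      choose n hn using this
      obtain ⟨j, hj, h2⟩ := Set.mem_iInter.1 hy (∑ j ∈ range D, n j)
      have h3 := h2 (n j) (Finset.single_le_sum (f := n) (fun _ _ => Nat.zero_le _)
        (mem_range.2 hj))
      have h4 := hn j
      rw [dist_comm, dist_eq_norm, ← natCast_zsmul] at h4
      linarith
    · simpa using meas_ball (a := ((n + 1 : ℕ) : ℤ)) (by omega) 0 (ρ := 0)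
  rw [null] at lim
  obtain ⟨a, ha⟩ := (lim.eventually (ge_mem_nhds (ENNReal.ofReal_pos.2 hε))).exists
  set A := D + a * D with hA
  have hA' : (0 : ℝ) < A := by exact_mod_cast (show 0 < A by omega)
  obtain ⟨p, hp, hp1, hp2⟩ := exists_irrational_btwn
    (show max 0 (1 / D - κ' / 2 / A) < (1 : ℝ) / D from
      max_lt (by positivity) (by linarith [show 0 < κ' / 2 / A by positivity]))
  refine ⟨p, (le_max_left _ _).trans_lt hp1, hp2.le.trans ?_, hp, A,
    (fun x => (D : ℤ) • x) ⁻¹' V a, ?_, fun x hx b₁ b₂ => ?_⟩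
  · rw [div_le_one hD']; exact_mod_cast hD0
  · rwa [(mp_zsmul (by omega)).measure_preimage (mV a).nullMeasurableSet]
  · have c1 := norm_sub_cell hD0 b₂
    have c2 := cell_lt hD0 b₂
    set α₁ := cell D b₂
    have c3 := norm_sub_cell hD0 (b₁ - (α₁ : ℤ) • x)
    have c4 := cell_lt hD0 (b₁ - (α₁ : ℤ) • x)
    set j := cell D (b₁ - (α₁ : ℤ) • x)
    simp only [hV, Set.mem_preimage, Set.mem_ofPred_eq, not_exists, not_and, not_forall,
      not_lt] at hx
    obtain ⟨n, hn, h⟩ := hx j c4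
    have hα : α₁ + n * D ≤ A := by nlinarith
    refine ⟨α₁ + n * D, hα, ?_, ?_⟩
    · have : ((α₁ + n * D : ℕ) : ℤ) • x - b₁ = ((n : ℤ) • (D : ℤ) • x - (((j : ℝ) / D : ℝ) : T))
          - (b₁ - (α₁ : ℤ) • x - (((j : ℝ) / D : ℝ) : T)) := by push_cast; module
      rw [this]; exact (norm_sub_le _ _).trans (by linarith)
    · have e1 : (((α₁ + n * D : ℕ) : ℤ) : ℝ) * p
          = α₁ / D + ((α₁ + n * D : ℕ) * (p - 1 / D)) + ((n : ℤ) : ℝ) := by
        push_cast; field_simp; ring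
      have : ((α₁ + n * D : ℕ) : ℤ) • (p : T) - b₂
          = ((((α₁ + n * D : ℕ) * (p - 1 / D) : ℝ)) : T) - (b₂ - (((α₁ : ℝ) / D : ℝ) : T)) := by
        rw [zsmul_coe, e1, AddCircle.coe_add, coe_int, AddCircle.coe_add]; abel
      rw [this]
      refine (norm_sub_le _ _).trans ?_
      have e2 : |((α₁ + n * D : ℕ) * (p - 1 / D) : ℝ)| ≤ κ' / 2 := by
        have e3 : |p - 1 / D| ≤ κ' / 2 / A := by
          rw [abs_le]; constructor <;> linarith [(le_max_right _ _).trans_lt hp1,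
            show 0 < κ' / 2 / A by positivity]
        rw [abs_mul, Nat.abs_cast]
        calc _ ≤ A * (κ' / 2 / A) := by gcongr
          _ = _ := by field_simp
      linarith [norm_coe_le ((α₁ + n * D : ℕ) * (p - 1 / D) : ℝ)]

theorem folner (G : Finset ℤ) (hG : 0 ∉ G) {δ : ℝ} (hδ : 0 < δ) : ∃ B B' : Finset ℤ, 1 ∈ B ∧
    0 ∉ B' ∧ B ⊆ B' ∧ (∀ a ∈ B, ∀ g ∈ G, a * g ∈ B') ∧ (B'.card : ℝ) ≤ (1 + δ) * B.card := by
  classical
  set Bx : ℕ → Finset ℤ := fun E => (Fintype.piFinset fun _ : G => range (E + 1)).image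
    fun e => ∏ g : G, (g : ℤ) ^ e g with hBx
  have h1 : ∀ E, 1 ∈ Bx E := fun E => mem_image.2 ⟨0, by simp, by simp⟩
  have h2 : ∀ E, (Bx E).card ≤ (E + 1) ^ G.card := fun E =>
    card_image_le.trans (by simp [Fintype.card_piFinset])
  have h3 : ∃ E, ((Bx (E + 1)).card : ℝ) ≤ (1 + δ) * (Bx E).card := by
    by_contra h
    push Not at h
    have h4 : ∀ E, (1 + δ) ^ E ≤ ((Bx E).card : ℝ) := by
      intro E
      induction E with
      | zero => simpa using Finset.card_pos.2 ⟨1, h1 0⟩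
      | succ E ih => rw [pow_succ']; exact (by gcongr : _ ≤ (1 + δ) * _).trans (h E).le
    have h5 := tendsto_pow_const_div_const_pow_of_one_lt G.card (show 1 < 1 + δ by linarith)
    obtain ⟨n, hn, hn1⟩ := ((h5.eventually (gt_mem_nhds (show 0 < 1 / (1 + δ) by positivity))).and
      (eventually_ge_atTop 1)).exists
    obtain ⟨E, rfl⟩ : ∃ E, n = E + 1 := ⟨n - 1, by omega⟩
    have h6 : (1 + δ) ^ E ≤ ((E + 1 : ℕ) : ℝ) ^ G.card := (h4 E).trans (by exact_mod_cast h2 E)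
    rw [div_lt_div_iff₀ (by positivity) (by positivity), pow_succ] at hn
    nlinarith
  obtain ⟨E, hE⟩ := h3
  refine ⟨Bx E, Bx (E + 1), h1 E, ?_, ?_, ?_, hE⟩
  · intro h
    obtain ⟨e, -, he⟩ := mem_image.1 h
    obtain ⟨g, -, hg⟩ := Finset.prod_eq_zero_iff.1 he
    exact hG ((pow_eq_zero_iff'.1 hg).1 ▸ g.2)
  · refine image_subset_image (Fintype.piFinset_subset _ _ fun g => by simp)
  · intro a ha g hg
    obtain ⟨e, he, rfl⟩ := mem_image.1 ha
    refine mem_image.2 ⟨e + Pi.single ⟨g, hg⟩ 1, ?_, ?_⟩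
    · simp only [Fintype.mem_piFinset, mem_range, Pi.add_apply, Pi.single_apply] at *
      intro g'; have := he g'; split_ifs <;> omega
    · simp only [Pi.add_apply, pow_add, Finset.prod_mul_distrib]
      congr 1
      rw [Finset.prod_eq_single ⟨g, hg⟩]
      · simp
      · intro b _ hb; simp [hb]
      · simp

theorem minhash {β : Type*} [DecidableEq β] {q : ℕ} (U D : Finset β) (hD : D ⊆ U) (ι : β → Fin q)
    (hι : Set.InjOn ι U) :
    (univ.filter fun ω : Equiv.Perm (Fin q) => ∃ u ∈ D, ∀ v ∈ U, ω (ι v) ≤ ω (ι u)).card * U.card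
      ≤ D.card * (univ : Finset (Equiv.Perm (Fin q))).card := by
  set E : β → Finset (Equiv.Perm (Fin q)) := fun u =>
    univ.filter fun ω => ∀ v ∈ U, ω (ι v) ≤ ω (ι u) with hE
  have h1 : ∀ u ∈ U, ∀ u' ∈ U, (E u).card ≤ (E u').card := by
    intro u hu u' hu'
    refine card_le_card_of_injOn (fun ω => ω * Equiv.swap (ι u) (ι u')) ?_
      fun _ _ _ _ h => mul_right_cancel h
    intro ω hω
    simp only [hE, coe_filter, mem_univ, true_and, Set.mem_ofPred_eq, Equiv.Perm.mul_apply,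
      Equiv.swap_apply_right] at *
    intro v hv
    rw [Equiv.swap_apply_def]
    split_ifs
    · exact hω u' hu'
    · exact le_rfl
    · exact hω v hv
  have h2 : ∑ v ∈ U, (E v).card ≤ (univ : Finset (Equiv.Perm (Fin q))).card := by
    rw [← card_biUnion]
    · exact card_le_univ _
    · intro u hu v hv huv
      refine Finset.disjoint_left.2 fun ω h h' => huv (hι hu hv (ω.injective ?_))
      exact le_antisymm ((mem_filter.1 h').2 u hu) ((mem_filter.1 h).2 v hv)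
  have h3 : ∀ u ∈ D, (E u).card * U.card ≤ (univ : Finset (Equiv.Perm (Fin q))).card := by
    intro u hu
    refine le_trans ?_ h2
    rw [mul_comm, ← smul_eq_mul, ← Finset.sum_const]
    exact Finset.sum_le_sum fun v hv => h1 u (hD hu) v hv
  calc _ ≤ (∑ u ∈ D, (E u).card) * U.card := by
        refine Nat.mul_le_mul_right _ (le_trans (card_le_card fun ω hω => ?_) card_biUnion_le)
        obtain ⟨u, hu, h⟩ := (mem_filter.1 hω).2
        exact mem_biUnion.2 ⟨u, hu, mem_filter.2 ⟨mem_univ _, h⟩⟩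
    _ ≤ _ := by
        rw [Finset.sum_mul, ← smul_eq_mul, ← Finset.sum_const]
        exact Finset.sum_le_sum h3

end Vale.Agent.P130
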