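import Vale.Agent.P130.Hilb

/-! The spectral isomorphism. -/

noncomputable section
open MeasureTheory Finset Filter Topology
open scoped ComplexConjugate Real ENNReal Nat BoundedContinuousFunction InnerProductSpace

namespace Vale.Agent.P130

set_option maxHeartbeats 1600000 in
theorem main : ∃ (μ : Measure X) (_ : IsProbabilityMeasure μ) (_ : NoAtoms μ)
    (hT : ∀ n, MeasurePreserving (sh n) μ μ) (f : Lp ℂ 2 μ), ∫ ξ, f ξ ∂μ = 0 ∧
      (∀ a b : ℤ, ⟪Lp.compMeasurePreservingₗᵢ ℂ (sh a) (hT a) f,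
        Lp.compMeasurePreservingₗᵢ ℂ (sh b) (hT b) f⟫_ℂ = if a = b then 1 else 0) ∧
      ∀ g : Lp ℂ 2 μ, ∫ ξ, g ξ ∂μ = 0 →
        (∀ a, ⟪Lp.compMeasurePreservingₗᵢ ℂ (sh a) (hT a) f, g⟫_ℂ = 0) → g = 0 := by
  obtain ⟨N, m, sk, W, h0, ⟨δ, hδ, hd⟩, hB, hC⟩ := towers
  have hN := fun j => (h0 j).1
  have hW := fun j => (h0 j).2.2.2.2
  obtain ⟨μ, hμ, hT, hae, law, law', happ⟩ := model hN (fun j => (h0 j).2.2.1)
    (fun j => (h0 j).2.2.2.1) hδ hd
  set f : ℕ → ℕ → ℕ := fun d => pull (N d) (sk d) with hf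
  have hNt : Tendsto (fun d => (N d : ℝ)) atTop atTop := by
    refine tendsto_natCast_atTop_atTop.comp (StrictMono.tendsto_atTop
      (strictMono_nat_of_lt_succ fun j => ?_))
    rw [(h0 j).2.2.1]; nlinarith [hN j, (h0 j).2.1]
  have me : ∀ d, Measurable fun ζ : X => ζ (0, d) := fun d => measurable_pi_apply _
  have hna : NoAtoms μ := ⟨fun ξ => by
    have : μ.real {ξ} ≤ 0 := by
      refine ge_of_tendsto' hNt.inv_tendsto_atTop fun d => ?_
      have h1 := law d fun i => if i = ξ (0, d) then 1 else 0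
      have hs : MeasurableSet {ζ : X | ζ (0, d) = ξ (0, d)} := me d (measurableSet_singleton _)
      have h2 : (fun ζ : X => if ζ (0, d) = ξ (0, d) then (1 : ℝ) else 0)
          = Set.indicator {ζ : X | ζ (0, d) = ξ (0, d)} 1 := by
        ext ζ; simp [Set.indicator_apply]
      rw [h2, integral_indicator_one hs] at h1
      refine (measureReal_mono (by simp)).trans (h1.trans_le ?_)
      rw [Finset.sum_ite_eq', Pi.inv_apply, ← one_div]
      gcongr; split_ifs <;> simp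
    rwa [← measureReal_eq_zero_iff, ← (measureReal_nonneg).ge_iff_eq']⟩
  have mem : ∀ d (h : ℕ → ℂ), MemLp (fun ξ : X => h (ξ (0, d))) 2 μ := fun d h =>
    MemLp.of_bound ((measurable_of_countable h).comp (me d)).aestronglyMeasurable
      (∑ i ∈ range (N d), ‖h i‖) ((hae d).mono fun ξ hξ =>
        Finset.single_le_sum (f := fun i => ‖h i‖) (fun _ _ => norm_nonneg _) (mem_range.2 hξ.1))
  have bP : ∀ d h, BM fun η => W d η * ft (N d) h η := fun d h => (hW d).bm.mul (BM_ft _ _)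
  obtain ⟨Lh, hLh⟩ : ∃ Lh : ℕ → (ℕ → ℂ) →ₗ[ℂ] Lp ℂ 2 μ, ∀ d h,
      Lh d h =ᵐ[μ] fun ξ => h (ξ (0, d)) :=
    ⟨fun d => ⟨⟨fun h => (mem d h).toLp _, fun h h' => MemLp.toLp_add (mem d h) (mem d h')⟩,
      fun a h => MemLp.toLp_const_smul a (mem d h)⟩, fun d h => (mem d h).coeFn_toLp⟩
  obtain ⟨Ps, hPs⟩ : ∃ Ps : ℕ → (ℕ → ℂ) →ₗ[ℂ] K, ∀ d h,
      Ps d h =ᵐ[hm] fun η => W d η * ft (N d) h η := by
    refine ⟨fun d => ⟨⟨fun h => ((bP d h).memLp 2).toLp _, fun h h' => ?_⟩, fun a h => ?_⟩,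
      fun d h => ((bP d h).memLp 2).coeFn_toLp⟩
    · rw [← MemLp.toLp_add]; congr 1; ext η
      rw [Pi.add_apply, ← mul_add, ← ft_add]; rfl
    · rw [← MemLp.toLp_const_smul, RingHom.id_apply]; dsimp only; congr 1; ext η
      rw [Pi.smul_apply, smul_eq_mul, mul_left_comm, ← ft_smul _ a]; rfl
  have nL : ∀ d h, ‖Lh d h‖ = nt (N d) h := by
    intro d h
    rw [norm_L2, nt_eq, ← law d fun i => ‖h i‖ ^ 2]; congr 1
    exact integral_congr_ae ((hLh d h).mono fun ξ e => by simp only [e])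
  have nP : ∀ d h, ‖Ps d h‖ = nt (N d) h := by
    intro d h
    rw [norm_L2, nt, ← nm_um (hW d), nm]; congr 1
    exact integral_congr_ae ((hPs d h).mono fun ξ e => by simp only [e])
  have Lpr : ∀ j (h : ℕ → ℂ) d, j ≤ d → Lh d (fun x => h (pr f j d x)) = Lh j h := by
    intro j h d hd
    induction d, hd using Nat.le_induction with
    | base => simp [pr_self]
    | succ d hd ih =>
      rw [← ih]
      refine Lp.ext ?_
      filter_upwards [hLh (d + 1) fun x => h (pr f j (d + 1) x), hLh d fun x => h (pr f j d x),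
        hae d] with ξ e1 e2 e3
      rw [e1, e2, pr_succ f hd, ← e3.2]
  set I : Lp ℂ 2 μ →L[ℂ] ℂ := innerSL ℂ ((memLp_const (1 : ℂ)).toLp _) with hI
  have hI1 : ∀ g, I g = ∫ ξ, g ξ ∂μ := by
    intro g
    rw [hI, innerSL_apply_apply, L2.inner_def]
    refine integral_congr_ae ((memLp_const (1 : ℂ) (p := 2) (μ := μ)).coeFn_toLp.mono fun ξ e => ?_)
    simp [e]
  have hI2 : ∀ d h, I (Lh d h) = (∑ i ∈ range (N d), h i) / N d := fun d h => by
    rw [hI1, integral_congr_ae (hLh d h), law']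
  clear_value I
  set U : ℤ → Lp ℂ 2 μ →ₗᵢ[ℂ] Lp ℂ 2 μ := fun n => Lp.compMeasurePreservingₗᵢ ℂ (sh n) (hT n)
    with hU
  have cU : ∀ n g, U n g =ᵐ[μ] fun ξ => g (sh n ξ) := fun n g =>
    Lp.coeFn_compMeasurePreserving g (hT n)
  have IU : ∀ n g, I (U n g) = I g := fun n g => by
    rw [hI1, hI1, integral_congr_ae (cU n g), ← integral_map (hT n).measurable.aemeasurable
      (by rw [(hT n).map_eq]; exact Lp.aestronglyMeasurable g), (hT n).map_eq]
  set R : Lp ℂ 2 μ → K → Prop := fun g F => I g = 0 ∧ ∀ ε > (0 : ℝ), ∀ᶠ d in atTop,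
    ∃ h, ‖g - Lh d h‖ ≤ ε ∧ ‖F - Ps d h‖ ≤ ε with hR
  have Radd : ∀ g F g' F', R g F → R g' F' → R (g + g') (F + F') := by
    rintro g F g' F' ⟨a1, a2⟩ ⟨b1, b2⟩
    refine ⟨by simp [a1, b1], fun ε hε => ?_⟩
    filter_upwards [a2 _ (half_pos hε), b2 _ (half_pos hε)] with d ⟨h, c1, c2⟩ ⟨h', c3, c4⟩
    refine ⟨h + h', ?_, ?_⟩ <;> rw [map_add, add_sub_add_comm] <;>
      exact (norm_add_le _ _).trans (by linarith)
  have Rsm : ∀ (a : ℂ) g F, R g F → R (a • g) (a • F) := by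
    rintro a g F ⟨a1, a2⟩
    refine ⟨by simp [a1], fun ε hε => ?_⟩
    filter_upwards [a2 (ε / (‖a‖ + 1)) (by positivity)] with d ⟨h, c1, c2⟩
    have : ‖a‖ * (ε / (‖a‖ + 1)) ≤ ε := by
      rw [← mul_div_assoc, div_le_iff₀ (by positivity)]; nlinarith
    refine ⟨a • h, ?_, ?_⟩ <;> rw [map_smul, ← smul_sub, norm_smul] <;>
      exact le_trans (by gcongr) this
  have Rsub : ∀ g F g' F', R g F → R g' F' → R (g - g') (F - F') := fun g F g' F' h h' => by
    simpa [sub_eq_add_neg] using Radd _ _ _ _ h (Rsm (-1) _ _ h')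
  have Rn : ∀ g F, R g F → ‖g‖ = ‖F‖ := by
    rintro g F ⟨-, a2⟩
    refine eq_of_forall_dist_le fun ε hε => ?_
    obtain ⟨d, h, c1, c2⟩ := (a2 _ (half_pos hε)).exists
    have c3 := abs_norm_sub_norm_le g (Lh d h)
    have c4 := abs_norm_sub_norm_le F (Ps d h)
    rw [nL, abs_le] at c3; rw [nP, abs_le] at c4
    rw [Real.dist_eq, abs_le]; constructor <;> linarith
  have Ri : ∀ g F g' F', R g F → R g' F' → ⟪g, g'⟫_ℂ = ⟪F, F'⟫_ℂ := fun g F g' F' h h' => by
    rw [inner_eq_sum_norm_sq_div_four, inner_eq_sum_norm_sq_div_four, Rn _ _ (Radd _ _ _ _ h h'),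
      Rn _ _ (Rsub _ _ _ _ h h'), Rn _ _ (Radd _ _ _ _ h (Rsm _ _ _ h')),
      Rn _ _ (Rsub _ _ _ _ h (Rsm _ _ _ h'))]
  have Rcl : ∀ g F, (∀ ε > (0 : ℝ), ∃ g' F', R g' F' ∧ ‖g - g'‖ ≤ ε ∧ ‖F - F'‖ ≤ ε) → R g F := by
    intro g F h
    refine ⟨norm_le_zero_iff.1 (le_of_forall_pos_le_add fun ε hε => ?_), fun ε hε => ?_⟩
    · obtain ⟨g', F', ⟨a1, -⟩, a2, -⟩ := h (ε / (‖I‖ + 1)) (by positivity)
      have := I.le_opNorm (g - g')
      rw [map_sub, a1, sub_zero] at this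
      have h2 : ‖I‖ * (ε / (‖I‖ + 1)) ≤ ε := by
        rw [← mul_div_assoc, div_le_iff₀ (by positivity)]; nlinarith
      rw [zero_add]; exact this.trans (le_trans (by gcongr) h2)
    · obtain ⟨g', F', ⟨-, a1⟩, a2, a3⟩ := h _ (half_pos hε)
      filter_upwards [a1 _ (half_pos hε)] with d ⟨h, c1, c2⟩
      exact ⟨h, (norm_sub_le_norm_sub_add_norm_sub _ g' _).trans (by linarith),
        (norm_sub_le_norm_sub_add_norm_sub _ F' _).trans (by linarith)⟩
  have Rlev : ∀ j (h : ℕ → ℂ), ∑ i ∈ range (N j), h i = 0 → ∃ F, R (Lh j h) F ∧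
      Tendsto (fun d => Ps d fun x => h (pr f j d x)) atTop (𝓝 F) := by
    intro j h hz
    have c1 : CauchySeq fun d => Ps (d + (j + 2)) fun x => h (pr f j (d + (j + 2)) x) := by
      refine cauchySeq_of_le_geometric (1 / 2) (5 * nt (N j) h * (1 / 2) ^ (j + 2)) (by norm_num)
        fun d => ?_
      rw [dist_comm, dist_eq_norm, add_right_comm d 1, norm_sub_L2 (hPs _ _) (hPs _ _)]
      refine (hB j h hz (d + (j + 2)) (by omega)).trans (le_of_eq ?_)
      ring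
    obtain ⟨F, hF⟩ := cauchySeq_tendsto_of_complete c1
    have hF' := (tendsto_add_atTop_iff_nat (f := fun d => Ps d fun x => h (pr f j d x)) _).1 hF
    refine ⟨F, ⟨by rw [hI2, hz, zero_div], fun ε hε => ?_⟩, hF'⟩
    filter_upwards [(Metric.tendsto_nhds.1 hF') ε hε, eventually_ge_atTop j] with d c2 c3
    rw [dist_comm, dist_eq_norm] at c2
    exact ⟨_, by rw [Lpr j h d c3]; simp [hε.le], c2.le⟩
  set B : (X →ᵇ ℂ) →L[ℂ] Lp ℂ 2 μ := BoundedContinuousFunction.toLp 2 μ ℂ with hB'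
  have cB : ∀ F, B F =ᵐ[μ] F := fun F => BoundedContinuousFunction.coeFn_toLp 2 μ ℂ F
  have Bd : ∀ g, ∀ ε > (0 : ℝ), ∃ F, ‖g - B F‖ ≤ ε := fun g ε hε => by
    obtain ⟨F, hF⟩ := (BoundedContinuousFunction.toLp_denseRange ℂ μ ℂ (p := 2)
      (by simp)).exists_dist_lt g hε
    exact ⟨F, by rw [← dist_eq_norm]; exact hF.le⟩
  have Ba : ∀ F, ∀ ε > (0 : ℝ), ∀ᶠ d in atTop, ‖B F - Lh d fun y => F (Xi N f d y)‖ ≤ ε := by
    intro F ε hε
    filter_upwards [(happ F).eventually (ge_mem_nhds (pow_pos hε 2))] with d hd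
    rw [norm_sub_L2 (cB F) (hLh _ _), Real.sqrt_le_left hε.le]; exact hd
  clear_value B
  have Rall : ∀ g, I g = 0 → ∃ F, R g F := by
    intro g hg
    refine ext_rel (fun _ _ _ _ h h' => Rn _ _ (Rsub _ _ _ _ h h')) Rcl fun ε hε => ?_
    set ε' := ε / (2 * (‖I‖ + 1)) with hε'
    obtain ⟨F, hF⟩ := Bd g ε' (by positivity)
    obtain ⟨j, hj⟩ := (Ba F ε' (by positivity)).exists
    set h : ℕ → ℂ := fun y => F (Xi N f j y)
    have c1 : ‖g - Lh j h‖ ≤ 2 * ε' :=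
      (norm_sub_le_norm_sub_add_norm_sub _ (B F) _).trans (by linarith)
    set a := (∑ i ∈ range (N j), h i) / N j with ha
    have c2 : ‖a‖ ≤ ‖I‖ * (2 * ε') := by
      have := I.le_opNorm (g - Lh j h)
      rw [map_sub, hg, hI2, zero_sub, norm_neg] at this
      exact this.trans (by gcongr)
    have hNj : (N j : ℂ) ≠ 0 := by exact_mod_cast (hN j).ne'
    obtain ⟨F', c3, -⟩ := Rlev j (h - fun _ => a) (by
      simp only [Pi.sub_apply, Finset.sum_sub_distrib, ha]; simp; field_simp; ring)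
    refine ⟨_, _, c3, ?_⟩
    rw [map_sub, ← sub_add]
    refine (norm_add_le _ _).trans ?_
    have c4 : ‖Lh j fun _ => a‖ ≤ ‖a‖ := by
      rw [nL]; exact nt_le_sup (norm_nonneg _) fun _ _ => le_rfl
    have c5 : 2 * ε' + ‖I‖ * (2 * ε') = ε := by rw [hε']; field_simp; ring
    linarith
  have RU : ∀ n g F, R g F → R (U n g) (Mu (fourier (-n)) F) := by
    rintro n g F ⟨a1, a2⟩
    refine ⟨by rw [IU, a1], fun ε hε => ?_⟩
    have hε5 : 0 < ε / 5 := by positivity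
    obtain ⟨F₀, hF₀⟩ := Bd g _ hε5
    have t1 : Tendsto (fun d => 2 * ‖F₀‖ * √((|n| : ℤ) / (N d : ℝ))) atTop (𝓝 0) := by
      simpa using ((hNt.const_div_atTop ((|n| : ℤ) : ℝ)).sqrt).const_mul (2 * ‖F₀‖)
    filter_upwards [a2 _ hε5, Ba F₀ _ hε5, Ba (F₀.compContinuous ⟨sh n, continuous_sh n⟩) _ hε5,
      t1.eventually (ge_mem_nhds hε5)] with d ⟨h, c1, c2⟩ c3 c4 c5
    set h₀ : ℕ → ℂ := fun y => F₀ (Xi N f d y) with hh₀
    have e1 : U n (B F₀) = B (F₀.compContinuous ⟨sh n, continuous_sh n⟩) := by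
      refine Lp.ext ?_
      filter_upwards [cU n (B F₀), cB (F₀.compContinuous ⟨sh n, continuous_sh n⟩),
        (hT n).quasiMeasurePreserving.ae (cB F₀)] with ξ b1 b2 b3
      rw [b1, b2, b3]; rfl
    refine ⟨fun y => (F₀.compContinuous ⟨sh n, continuous_sh n⟩) (Xi N f d y), ?_, ?_⟩
    · refine (norm_sub_le_norm_sub_add_norm_sub _ (U n (B F₀)) _).trans ?_
      rw [← map_sub, LinearIsometry.norm_map, e1]; linarith
    · refine (norm_sub_le_norm_sub_add_norm_sub _ (Mu (fourier (-n)) (Ps d h₀)) _).trans ?_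
      have d1 : ‖F - Ps d h₀‖ ≤ 4 * (ε / 5) := by
        refine (norm_sub_le_norm_sub_add_norm_sub _ (Ps d h) _).trans ?_
        rw [← map_sub, nP, ← nL, map_sub]
        have := norm_sub_le_norm_sub_add_norm_sub (Lh d h) g (Lh d h₀)
        have := norm_sub_le_norm_sub_add_norm_sub g (B F₀) (Lh d h₀)
        rw [norm_sub_rev] at c1
        linarith
      have d2 := norm_Mu (fourier (-n)) (F - Ps d h₀)
      rw [fourier_norm, one_mul, map_sub] at d2
      have d3 := shift_est (N d) (fun k => h₀ (rot (N d) k 0)) (C := ‖F₀‖)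
        (fun k => F₀.norm_coe_le_norm _) n
      have d4 : ‖Mu (fourier (-n)) (Ps d h₀) - Ps d fun y =>
          (F₀.compContinuous ⟨sh n, continuous_sh n⟩) (Xi N f d y)‖ ≤ ε / 5 := by
        rw [norm_sub_rev, norm_sub_L2 (hPs _ _) ((coe_Mu _ _).trans ((hPs d h₀).mono
          fun η e => by beta_reduce; rw [e]))]
        refine le_of_eq_of_le ?_ (d3.trans c5)
        rw [← nm_um (hW d)]
        refine nm_congr fun η => ?_
        rw [ft_congr (u := fun k => h₀ (rot (N d) (k + n) 0)) (v := fun y =>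
          (F₀.compContinuous ⟨sh n, continuous_sh n⟩) (Xi N f d y)) fun k hk => by
            simp [hh₀, sh_Xi f (hN d), rot],
          ft_congr (u := fun k => h₀ (rot (N d) k 0)) (v := h₀) fun k hk => by
            rw [show rot (N d) k 0 = rot (N d) 0 k by simp [rot], rot_zero hk],
          fourier_eq, neg_smul]
        congr 1; ring
      linarith
  have RM : ∀ g F, R g F → ∀ ψ ∈ Submodule.span ℂ (Set.range (fourier (T := 1))),
      ∃ g', R g' (Mu ψ F) := by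
    intro g F h ψ hψ
    induction hψ using Submodule.span_induction with
    | mem _ hx =>
      obtain ⟨n, rfl⟩ := hx
      exact ⟨_, by simpa using RU (-n) g F h⟩
    | zero => exact ⟨_, by simpa using Rsm 0 g F h⟩
    | add _ _ _ _ h1 h2 =>
      obtain ⟨g1, h1⟩ := h1; obtain ⟨g2, h2⟩ := h2
      exact ⟨_, by simpa using Radd _ _ _ _ h1 h2⟩
    | smul a _ _ h1 =>
      obtain ⟨g1, h1⟩ := h1
      exact ⟨_, by simpa using Rsm a _ _ h1⟩
  obtain ⟨g₀, hg₀⟩ : ∃ g, R g (fourierLp 2 0) := by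
    refine ext_rel (R := fun F g => R g F) (fun _ _ _ _ h h' => (Rn _ _ (Rsub _ _ _ _ h h')).symm)
      (fun F g h => Rcl g F fun ε hε => ?_) fun ε hε => ?_
    · obtain ⟨F', g', h1, h2, h3⟩ := h ε hε
      exact ⟨g', F', h1, h3, h2⟩
    have hε3 : 0 < ε / 3 := by positivity
    obtain ⟨j, h, Θ, hz, hΘ, hd⟩ := hC _ hε3
    obtain ⟨F, c1, c2⟩ := Rlev j h hz
    set Θ' : K := (hΘ.bm.memLp 2).toLp Θ
    have cΘ : Θ' =ᵐ[hm] Θ := MemLp.coeFn_toLp _
    have c3 : ‖F - Θ'‖ ≤ ε / 3 := by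
      refine le_of_tendsto (c2.sub_const Θ').norm ?_
      filter_upwards [eventually_ge_atTop j] with d hd'
      rw [norm_sub_L2 (hPs _ _) cΘ]; exact hd d hd'
    obtain ⟨ψ, p1, p2⟩ := trunc hΘ hε3
    have p3 : ψ ∈ closure (Submodule.span ℂ (Set.range (fourier (T := 1))) : Set C(T, ℂ)) := by
      rw [← Submodule.topologicalClosure_coe, span_fourier_closure_eq_top]; trivial
    obtain ⟨ψ', p4, p5⟩ := Metric.mem_closure_iff.1 p3 (ε / 3 / (‖F‖ + 1)) (by positivity)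
    obtain ⟨g', c4⟩ := RM _ _ c1 ψ' p4
    refine ⟨_, _, c4, ?_⟩
    have q1 : ‖fourierLp 2 0 - Mu ψ Θ'‖ ≤ ε / 3 := by
      rw [norm_sub_L2 (coeFn_fourierLp 2 0) ((coe_Mu _ _).trans (cΘ.mono
        fun η e => by beta_reduce; rw [e]))]
      simpa [nm] using p2
    have q2 := norm_Mu ψ (Θ' - F)
    rw [map_sub, norm_sub_rev Θ'] at q2
    have q3 := norm_Mu (ψ - ψ') F
    rw [map_sub, ContinuousLinearMap.sub_apply, ← dist_eq_norm ψ] at q3
    have q4 : dist ψ ψ' * ‖F‖ ≤ ε / 3 := by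
      rw [lt_div_iff₀ (by positivity)] at p5; nlinarith [dist_nonneg (x := ψ) (y := ψ')]
    have q5 : ‖ψ‖ * ‖F - Θ'‖ ≤ ε / 3 := (mul_le_of_le_one_left (norm_nonneg _) p1).trans c3
    have := norm_sub_le_norm_sub_add_norm_sub (fourierLp 2 0) (Mu ψ Θ') (Mu ψ' F)
    have := norm_sub_le_norm_sub_add_norm_sub (Mu ψ Θ') (Mu ψ F) (Mu ψ' F)
    linarith
  have Rf : ∀ n, R (U n g₀) (fourierLp 2 (-n)) := by
    intro n
    have e : Mu (fourier (-n)) (fourierLp 2 0) = fourierLp 2 (-n) := by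
      refine Lp.ext ?_
      filter_upwards [coe_Mu (fourier (-n)) (fourierLp 2 0), coeFn_fourierLp (T := 1) 2 0,
        coeFn_fourierLp (T := 1) 2 (-n)] with η b1 b2 b3
      rw [b1, b2, b3, fourier_zero, mul_one]
    rw [← e]; exact RU n _ _ hg₀
  refine ⟨μ, hμ, hna, hT, g₀, by rw [← hI1, hg₀.1], fun a b => ?_, fun g hg h => ?_⟩
  · rw [Ri _ _ _ _ (Rf a) (Rf b), orthonormal_iff_ite.1 orthonormal_fourier]; simp
  · obtain ⟨F, hF⟩ := Rall g (by rw [hI1, hg])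
    rw [← norm_eq_zero, Rn _ _ hF, norm_eq_zero]
    refine (fourierBasis (T := 1)).repr.injective (lp.ext (funext fun n => ?_))
    have := h (-n)
    rw [Ri _ _ _ _ (Rf (-n)) hF, neg_neg] at this
    rw [HilbertBasis.repr_apply_apply, coe_fourierBasis, this]; simp

end Vale.Agent.P130
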