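import Vale.Agent.P130.Tower

/-! The symbolic model of the limit of the towers. -/

noncomputable section
open MeasureTheory Finset Filter Topology
open scoped ComplexConjugate Real ENNReal Nat BoundedContinuousFunction

namespace Vale.Agent.P130

def rot (N : ℕ) (t : ℤ) (x : ℕ) : ℕ := ((x + t) % N).toNat

theorem rot_cast {N : ℕ} (hN : 0 < N) (t : ℤ) (x : ℕ) : (rot N t x : ℤ) = (x + t) % N :=
  Int.toNat_of_nonneg (Int.emod_nonneg _ (by omega))

theorem rot_lt {N : ℕ} (hN : 0 < N) (t : ℤ) (x : ℕ) : rot N t x < N := by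
  have := Int.emod_lt_of_pos (x + t) (show (0 : ℤ) < N by omega)
  rw [← rot_cast hN] at this; omega

theorem rot_rot {N : ℕ} (hN : 0 < N) (a b : ℤ) (x : ℕ) : rot N a (rot N b x) = rot N (a + b) x := by
  rw [rot, rot_cast hN, Int.emod_add_emod, rot]; congr 2; ring

theorem rot_zero {N x : ℕ} (hx : x < N) : rot N 0 x = x := by
  rw [rot, add_zero, Int.emod_eq_of_lt (by omega) (by omega)]; simp

theorem rot_one {N : ℕ} (hN : 0 < N) (x : ℕ) : rot N 1 x = (x + 1) % N := by
  have := rot_cast hN 1 x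
  exact_mod_cast this

theorem rot_perm {N : ℕ} (hN : 0 < N) (t : ℤ) : IsPerm N (rot N t) :=
  IsPerm.of_inj (fun x _ => rot_lt hN t x) fun x hx y hy h => by
    have := congrArg (rot N (-t)) h
    rwa [rot_rot hN, rot_rot hN, neg_add_cancel, rot_zero hx, rot_zero hy] at this

theorem card_rot {N' N : ℕ} (hN' : 0 < N') (hN : 0 < N) {f : ℕ → ℕ} (hf : ∀ x, f x < N) (t : ℤ) :
    ((range N').filter fun y => f (rot N' t y) ≠ rot N t (f y)).card ≤ t.natAbs * dfc N' N f := by
  have key : ∀ s : ℤ, ((range N').filter fun y =>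
      f (rot N' (s + 1) y) ≠ rot N 1 (f (rot N' s y))).card = dfc N' N f := by
    intro s
    rw [dfc, ← (rot_perm hN' s).card fun x => f ((x + 1) % N') ≠ (f x + 1) % N]
    simp only [← rot_one hN', ← rot_one hN, rot_rot hN', add_comm s]
  induction t using Int.induction_on with
  | zero =>
    rw [Nat.le_iff_lt_or_eq]; right
    simp only [Int.natAbs_zero, zero_mul, card_eq_zero, filter_eq_empty_iff, mem_range]
    intro y hy; rw [rot_zero hy, rot_zero (hf y)]; simp
  | succ t ih =>
    have : ((t : ℤ) + 1).natAbs = (t : ℤ).natAbs + 1 := by omega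
    rw [this, add_mul, one_mul]
    refine le_trans (card_le_card fun y hy => ?_)
      ((card_union_le _ _).trans (add_le_add ih (key t).le))
    simp only [mem_union, mem_filter] at hy ⊢
    by_contra h
    push Not at h
    exact hy.2 (by rw [h.2 hy.1, h.1 hy.1, rot_rot hN, add_comm])
  | pred t ih =>
    have : (-(t : ℤ) - 1).natAbs = (-(t : ℤ)).natAbs + 1 := by omega
    rw [this, add_mul, one_mul]
    refine le_trans (card_le_card fun y hy => ?_)
      ((card_union_le _ _).trans (add_le_add ih (key (-t - 1)).le))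
    simp only [mem_union, mem_filter] at hy ⊢
    by_contra h
    push Not at h
    have h1 := h.2 hy.1
    rw [sub_add_cancel, h.1 hy.1] at h1
    have h2 := congrArg (rot N (-1)) h1
    rw [rot_rot hN, rot_rot hN, neg_add_cancel, rot_zero (hf _)] at h2
    exact hy.2 (by rw [← h2]; congr 1; ring)

theorem int_cell {E : Type*} [NormedAddCommGroup E] [NormedSpace ℝ E] [CompleteSpace E] {Q : ℕ}
    (hQ : 0 < Q) (F : ℕ → E) : ∫ y, F (cell Q y) ∂hm = (Q : ℝ)⁻¹ • ∑ c ∈ range Q, F c := by
  have hms : ∀ c, MeasurableSet {y | cell Q y = c} :=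
    fun c => measurable_cell Q (measurableSet_singleton c)
  have : ∀ y, F (cell Q y) = ∑ c ∈ range Q, Set.indicator {y | cell Q y = c} (fun _ => F c) y := by
    intro y
    rw [Finset.sum_eq_single (cell Q y)]
    · simp
    · intro b _ hb; simp [hb.symm]
    · intro h; exact absurd (mem_range.2 (cell_lt hQ y)) h
  simp only [this]
  rw [integral_finsetSum _ fun c _ => (integrable_const _).indicator (hms c), Finset.smul_sum]
  refine Finset.sum_congr rfl fun c hc => ?_
  rw [integral_indicator_const _ (hms c), Measure.real, meas_cell hQ (mem_range.1 hc),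
    ENNReal.toReal_ofReal (by positivity), one_div]

theorem levels {N m : ℕ → ℕ} {sk : ℕ → ℕ → ℕ → ℕ} (hN : ∀ j, 0 < N j)
    (hNs : ∀ j, N (j + 1) = m j * N j) (hp : ∀ j k, IsPerm (N j) (sk j k)) :
    ∃ H : ℕ → ℕ → ℕ, (∀ d, IsPerm (N d) (H d)) ∧ ∀ d ω,
      pull (N d) (sk d) (H (d + 1) (cell (N (d + 1)) ω)) = H d (cell (N d) ω) := by
  let G : ℕ → ℕ → ℕ := fun d => Nat.rec (fun y => y)
    (fun d g y => g (pull (N d) (sk d) y) * m d + y / N d) d
  have hG1 : ∀ d y, G (d + 1) y = G d (pull (N d) (sk d) y) * m d + y / N d := fun _ _ => rfl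
  have hf : ∀ d y, pull (N d) (sk d) y < N d := fun d y => (hp d _).lt (Nat.mod_lt _ (hN d))
  have hk : ∀ d, ∀ y < N (d + 1), y / N d < m d := fun d y hy =>
    (Nat.div_lt_iff_lt_mul (hN d)).2 (hNs d ▸ hy)
  have hdiv : ∀ d, ∀ y < N (d + 1), G (d + 1) y / m d = G d (pull (N d) (sk d) y) ∧
      G (d + 1) y % m d = y / N d := by
    intro d y hy
    have := hk d y hy
    rw [hG1, add_comm, Nat.add_mul_mod_self_right, Nat.add_mul_div_right _ _ (Nat.zero_lt_of_lt this),
      Nat.mod_eq_of_lt this, Nat.div_eq_of_lt this, zero_add]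
    exact ⟨rfl, rfl⟩
  have hG : ∀ d, IsPerm (N d) (G d) := by
    intro d
    induction d with
    | zero => exact isPerm_id _
    | succ d ih =>
      refine IsPerm.of_inj (fun y hy => ?_) fun y hy z hz h => ?_
      · have := hk d y hy
        rw [hNs, mul_comm, ← Nat.div_lt_iff_lt_mul (Nat.zero_lt_of_lt this), (hdiv d y hy).1]
        exact ih.lt (hf d y)
      · have h1 : y / N d = z / N d := by rw [← (hdiv d y hy).2, h, (hdiv d z hz).2]
        have h2 := ih.2.1 (hf d y) (hf d z) (by rw [← (hdiv d y hy).1, h, (hdiv d z hz).1])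
        rw [pull, pull, h1] at h2
        have h3 := (hp d _).2.1 (Nat.mod_lt _ (hN d)) (Nat.mod_lt _ (hN d)) h2
        rw [← Nat.div_add_mod y (N d), ← Nat.div_add_mod z (N d), h1, h3]
  clear_value G
  have hH : ∀ d, IsPerm (N d) (Function.invFunOn (G d) (Set.Iio (N d))) := fun d =>
    Set.BijOn.symm (hG d).invOn_invFunOn.symm (hG d)
  refine ⟨_, hH, fun d ω => ?_⟩
  have c1 := cell_lt (hN (d + 1)) ω
  have c2 := cell_lt (hN d) ω
  refine (hG d).2.1 (hf d _) ((hH d).lt c2) ?_
  have hm0 : 0 < m d := by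
    have := hN (d + 1)
    rw [hNs] at this; exact Nat.pos_of_mul_pos_right this
  rw [← (hdiv d _ ((hH _).lt c1)).1, (hG _).invOn_invFunOn.2 c1, (hG _).invOn_invFunOn.2 c2, hNs,
    cell_div _ _ hm0]

abbrev X := ℤ × ℕ → ℕ

def sh (n : ℤ) (ξ : X) : X := fun w => ξ (w.1 + n, w.2)

@[fun_prop] theorem continuous_sh (n : ℤ) : Continuous (sh n) := by unfold sh; fun_prop

def Xi (N : ℕ → ℕ) (f : ℕ → ℕ → ℕ) (d y : ℕ) : X := fun w => pr f w.2 d (rot (N d) w.1 y)

theorem sh_Xi {N : ℕ → ℕ} (f : ℕ → ℕ → ℕ) {d : ℕ} (hN : 0 < N d) (n : ℤ) (y : ℕ) :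
    sh n (Xi N f d y) = Xi N f d (rot (N d) n y) := by
  ext w; simp only [sh, Xi, rot_rot hN]

theorem model {N m : ℕ → ℕ} {sk : ℕ → ℕ → ℕ → ℕ} (hN : ∀ j, 0 < N j)
    (hNs : ∀ j, N (j + 1) = m j * N j) (hp : ∀ j k, IsPerm (N j) (sk j k)) {δ : ℕ → ℝ}
    (hδ : Summable δ)
    (hd : ∀ j, (dfc (N (j + 1)) (N j) (pull (N j) (sk j)) : ℝ) ≤ δ j * N (j + 1)) :
    ∃ μ : Measure X, IsProbabilityMeasure μ ∧ (∀ n, MeasurePreserving (sh n) μ μ) ∧
      (∀ d, ∀ᵐ ξ ∂μ, ξ (0, d) < N d ∧ pull (N d) (sk d) (ξ (0, d + 1)) = ξ (0, d)) ∧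
      (∀ d (F : ℕ → ℝ), ∫ ξ, F (ξ (0, d)) ∂μ = (∑ i ∈ range (N d), F i) / N d) ∧
      (∀ d (F : ℕ → ℂ), ∫ ξ, F (ξ (0, d)) ∂μ = (∑ i ∈ range (N d), F i) / N d) ∧
      ∀ F : X →ᵇ ℂ, Tendsto (fun d => ∫ ξ, ‖F ξ - F (Xi N (fun d => pull (N d) (sk d)) d
        (ξ (0, d)))‖ ^ 2 ∂μ) atTop (𝓝 0) := by
  obtain ⟨H, hH, hx1⟩ := levels hN hNs hp
  set f : ℕ → ℕ → ℕ := fun d => pull (N d) (sk d) with hf
  set x : ℕ → T → ℕ := fun d ω => H d (cell (N d) ω) with hx
  have hx1 : ∀ d ω, f d (x (d + 1) ω) = x d ω := hx1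
  have hx2 : ∀ d ω, x d ω < N d := fun d ω => (hH d).lt (cell_lt (hN d) ω)
  have mx : ∀ d, Measurable (x d) := fun d => (measurable_of_countable _).comp (measurable_cell _)
  have law : ∀ d (F : ℕ → ℝ), ∫ ω, F (x d ω) ∂hm = (∑ i ∈ range (N d), F i) / N d := by
    intro d F
    rw [int_cell (hN d) fun c => F (H d c), (hH d).sum F, smul_eq_mul, mul_comm, div_eq_mul_inv]
  have law' : ∀ d (F : ℕ → ℂ), ∫ ω, F (x d ω) ∂hm = (∑ i ∈ range (N d), F i) / N d := by
    intro d F
    rw [int_cell (hN d) fun c => F (H d c), (hH d).sum F, Complex.real_smul, mul_comm,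
      div_eq_mul_inv]; simp
  set ξ : T → X := fun ω w => liminf (fun d => Xi N f d (x d ω) w) atTop with hξ
  have mξ : Measurable ξ := measurable_pi_lambda _ fun w => Measurable.liminf fun d =>
    (measurable_of_countable fun y => Xi N f d y w).comp (mx d)
  have lim : ∀ ω w, (∀ᶠ d in atTop, Xi N f (d + 1) (x (d + 1) ω) w = Xi N f d (x d ω) w) →
      ∀ᶠ d in atTop, Xi N f d (x d ω) w = ξ ω w := by
    intro ω w h
    obtain ⟨D, hD⟩ := eventually_atTop.1 h
    have h1 : ∀ᶠ d in atTop, Xi N f d (x d ω) w = Xi N f D (x D ω) w := by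
      filter_upwards [eventually_ge_atTop D] with d hd
      induction d, hd using Nat.le_induction with
      | base => rfl
      | succ d hd ih => rw [hD d hd, ih]
    have h2 : ξ ω w = Xi N f D (x D ω) w := by
      simp only [hξ]; rw [liminf_congr h1, liminf_const]
    rw [h2]; exact h1
  have e0 : ∀ ω j, ξ ω (0, j) = x j ω := by
    intro ω j
    have h1 : ∀ᶠ d in atTop, Xi N f d (x d ω) (0, j) = x j ω := by
      filter_upwards [eventually_ge_atTop j] with d hd
      simp only [Xi, rot_zero (hx2 _ _)]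
      induction d, hd using Nat.le_induction with
      | base => exact pr_self _ _ _
      | succ d hd ih => rw [pr_succ f hd, hx1, ih]
    simp only [hξ]; rw [liminf_congr h1, liminf_const]
  have ae : ∀ᵐ ω ∂hm, Tendsto (fun d => Xi N f d (x d ω)) atTop (𝓝 (ξ ω)) := by
    simp only [tendsto_pi_nhds]
    refine ae_all_iff.2 fun w => ?_
    have bc := ae_eventually_notMem (μ := hm) (s := fun d => {ω |
      f d (rot (N (d + 1)) w.1 (x (d + 1) ω)) ≠ rot (N d) w.1 (f d (x (d + 1) ω))})
      (ne_top_of_le_ne_top (hδ.mul_left (w.1.natAbs : ℝ)).tsum_ofReal_ne_top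
        (ENNReal.tsum_le_tsum fun d => ?_))
    · filter_upwards [bc] with ω hω
      refine tendsto_const_nhds.congr' (EventuallyEq.symm (lim ω w ?_))
      filter_upwards [hω, eventually_ge_atTop w.2] with d h1 h2
      simp only [Set.mem_ofPred_eq, not_not] at h1
      simp only [Xi]
      rw [pr_succ f h2, h1, hx1]
    · set P : ℕ → Prop := fun y => f d (rot (N (d + 1)) w.1 y) ≠ rot (N d) w.1 (f d y) with hP
      have hN' : (0 : ℝ) < N (d + 1) := by exact_mod_cast hN _
      calc _ ≤ hm {ω | cell (N (d + 1)) ω ∈ (range (N (d + 1))).filter fun c => P (H (d + 1) c)} :=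
            measure_mono fun ω hω => mem_filter.2 ⟨mem_range.2 (cell_lt (hN _) ω), hω⟩
        _ ≤ _ := by
            rw [meas_cell_mem (hN _) fun c hc => mem_range.1 (mem_filter.1 hc).1, (hH _).card P]
            refine ENNReal.ofReal_le_ofReal ?_
            have := card_rot (hN (d + 1)) (hN d) (f := f d)
              (fun y => (hp d _).lt (Nat.mod_lt _ (hN d))) w.1
            rw [div_le_iff₀ hN', mul_assoc]
            calc _ ≤ ((w.1.natAbs * dfc (N (d + 1)) (N d) (f d) : ℕ) : ℝ) := by exact_mod_cast this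
              _ ≤ _ := by rw [Nat.cast_mul]; gcongr; exact hd d
  have me : ∀ d, Measurable fun ζ : X => ζ (0, d) := fun d => measurable_pi_apply _
  have dct : ∀ F : X →ᵇ ℝ, Tendsto (fun d => ∫ ω, F (Xi N f d (x d ω)) ∂hm) atTop
      (𝓝 (∫ ω, F (ξ ω) ∂hm)) := fun F =>
    tendsto_integral_of_dominated_convergence (fun _ => ‖F‖) (fun d =>
      ((measurable_of_countable fun y => F (Xi N f d y)).comp (mx d)).aestronglyMeasurable)
      (integrable_const _) (fun d => Eventually.of_forall fun ω => F.norm_coe_le_norm _)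
      (ae.mono fun ω h => (F.continuous.tendsto _).comp h)
  refine ⟨hm.map ξ, Measure.isProbabilityMeasure_map mξ.aemeasurable,
    fun n => ⟨(continuous_sh n).measurable, ?_⟩, fun d => ?_, fun d F => ?_, fun d F => ?_,
    fun F => ?_⟩
  · have := Measure.isProbabilityMeasure_map (μ := hm) mξ.aemeasurable
    refine ext_of_forall_integral_eq_of_IsFiniteMeasure fun F => ?_
    rw [integral_map (continuous_sh n).measurable.aemeasurable F.continuous.aestronglyMeasurable,
      integral_map mξ.aemeasurable F.continuous.aestronglyMeasurable,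
      integral_map mξ.aemeasurable (f := fun ζ => F (sh n ζ)) (by fun_prop)]
    refine tendsto_nhds_unique (dct (F.compContinuous ⟨sh n, continuous_sh n⟩)) ?_
    refine (dct F).congr fun d => ?_
    rw [law d fun y => F (Xi N f d y), law d fun y =>
      (F.compContinuous ⟨sh n, continuous_sh n⟩) (Xi N f d y),
      ← (rot_perm (hN d) n).sum fun y => F (Xi N f d y)]
    simp [sh_Xi f (hN d)]
  · refine (ae_map_iff mξ.aemeasurable ?_).2 (Eventually.of_forall fun ω => ?_)
    · exact ((me d).prodMk (me (d + 1))) (MeasurableSet.of_discrete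
        (s := {w : ℕ × ℕ | w.1 < N d ∧ f d w.2 = w.1}))
    · rw [e0, e0]; exact ⟨hx2 d ω, hx1 d ω⟩
  · rw [integral_map mξ.aemeasurable (f := fun ζ => F (ζ (0, d)))
      ((measurable_of_countable F).comp (me d)).aestronglyMeasurable, ← law]
    simp [e0]
  · rw [integral_map mξ.aemeasurable (f := fun ζ => F (ζ (0, d)))
      ((measurable_of_countable F).comp (me d)).aestronglyMeasurable, ← law']
    simp [e0]
  · have m1 : ∀ d, Measurable fun ζ : X => ‖F ζ - F (Xi N f d (ζ (0, d)))‖ ^ 2 := fun d =>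
      ((F.continuous.measurable.sub ((measurable_of_countable fun y => F (Xi N f d y)).comp
        (me d))).norm).pow_const 2
    simp only [fun d => integral_map mξ.aemeasurable (μ := hm) (m1 d).aestronglyMeasurable, e0]
    have := tendsto_integral_of_dominated_convergence (μ := hm)
      (F := fun d ω => ‖F (ξ ω) - F (Xi N f d (x d ω))‖ ^ 2) (f := fun _ => 0)
      (fun _ => (‖F‖ + ‖F‖) ^ 2) (fun d => by
        simpa [e0, Function.comp_def] using ((m1 d).comp mξ).aestronglyMeasurable)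
      (integrable_const _) (fun d => Eventually.of_forall fun ω => by
        rw [norm_pow, norm_norm]
        gcongr
        exact (norm_sub_le _ _).trans (add_le_add (F.norm_coe_le_norm _) (F.norm_coe_le_norm _)))
      (ae.mono fun ω h => by
        have := ((((F.continuous.tendsto _).comp h).const_sub (F (ξ ω))).norm).pow 2
        simpa using this)
    simpa using this

end Vale.Agent.P130
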