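import Vale.Agent.P130.Core

/-! One step of the inductive construction. -/

noncomputable section
open MeasureTheory Finset Filter Topology
open scoped ComplexConjugate Real ENNReal Nat

namespace Vale.Agent.P130

theorem pull_sum {M : Type*} [AddCommMonoid M] {N : ℕ} (m : ℕ) {sk : ℕ → ℕ → ℕ}
    (h : ∀ k, IsPerm N (sk k)) (F : ℕ → M) :
    ∑ x ∈ range (m * N), F (pull N sk x) = m • ∑ i ∈ range N, F i := by
  rw [sum_blocks, Finset.sum_congr rfl fun k _ => (Finset.sum_congr rfl fun i hi => by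
    rw [pull_block _ _ (mem_range.1 hi)]).trans ((h k).sum F)]
  simp

theorem pull_nt {N m : ℕ} (hm0 : 0 < m) {sk : ℕ → ℕ → ℕ} (h : ∀ k, IsPerm N (sk k)) (u : ℕ → ℂ) :
    nt (m * N) (fun x => u (pull N sk x)) = nt N u := by
  have : (m : ℝ) ≠ 0 := by positivity
  rw [nt_eq, nt_eq, pull_sum m h fun x => ‖u x‖ ^ 2, nsmul_eq_mul, Nat.cast_mul,
    mul_div_mul_left _ _ this]

theorem dfc_pull {N D : ℕ} (m : ℕ) {sk : ℕ → ℕ → ℕ} (h : ∀ k, dfc N N (sk k) ≤ D) :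
    dfc (m * N) N (pull N sk) ≤ m * (D + 1) := by
  rw [dfc, card_filter, sum_blocks]
  calc _ ≤ ∑ k ∈ range m, (D + 1) := Finset.sum_le_sum fun k hk => by
        rw [← card_filter]
        refine le_trans (card_le_card (t := insert (N - 1) ((range N).filter
          fun x => sk k ((x + 1) % N) ≠ (sk k x + 1) % N)) fun i hi => ?_)
          ((card_insert_le _ _).trans (add_le_add (h k) le_rfl))
        simp only [mem_filter, mem_insert, mem_range] at hi hk ⊢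
        by_contra hc
        push Not at hc
        have h1 : (k + 1) * N ≤ m * N := Nat.mul_le_mul_right _ hk
        rw [add_mul] at h1
        refine hi.2 ?_
        rw [Nat.mod_eq_of_lt (by omega), add_assoc, pull_block _ _ (by omega),
          pull_block _ _ hi.1, ← hc.2 hi.1, Nat.mod_eq_of_lt (by omega)]
    _ = _ := by simp

theorem nt_Abar {N Q Q' : ℕ} (hQ : 0 < Q) (hQ' : 0 < Q') {σ : ℕ → ℕ → ℕ → ℕ}
    (hσ : ∀ c c', IsPerm N (σ c c')) (h : ℕ → ℂ) : nt N (Abar Q Q' σ h) ≤ nt N h := by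
  have h1 : (0 : ℝ) < Q := by exact_mod_cast hQ
  have h2 : (0 : ℝ) < Q' := by exact_mod_cast hQ'
  unfold Abar
  rw [nt_smul, norm_inv, norm_mul, Complex.norm_natCast, Complex.norm_natCast,
    inv_mul_le_iff₀ (by positivity)]
  refine (nt_sum_le _ _ _).trans ?_
  calc _ ≤ ∑ c ∈ range Q, ∑ c' ∈ range Q', nt N h := Finset.sum_le_sum fun c _ =>
        (nt_sum_le _ _ _).trans (Finset.sum_le_sum fun c' _ => ((hσ c c').nt h).le)
    _ = _ := by simp; ring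

theorem sum_Abar {N Q Q' : ℕ} (hQ : 0 < Q) (hQ' : 0 < Q') {σ : ℕ → ℕ → ℕ → ℕ}
    (hσ : ∀ c c', IsPerm N (σ c c')) (h : ℕ → ℂ) :
    ∑ i ∈ range N, Abar Q Q' σ h i = ∑ i ∈ range N, h i := by
  have h1 : (Q : ℂ) ≠ 0 := by exact_mod_cast hQ.ne'
  have h2 : (Q' : ℂ) ≠ 0 := by exact_mod_cast hQ'.ne'
  unfold Abar
  rw [← Finset.mul_sum, Finset.sum_comm, Finset.sum_congr rfl fun c _ =>
    Finset.sum_comm.trans (Finset.sum_congr rfl fun c' _ => (hσ c c').sum h)]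
  simp only [Finset.sum_const, card_range, nsmul_eq_mul]; field_simp

/-- seminorms on sequences -/
def SN (P : (ℕ → ℂ) → ℝ) : Prop :=
  (∀ u v, P (fun x => u x + v x) ≤ P u + P v) ∧ ∀ (a : ℂ) u, P (fun x => a * u x) = ‖a‖ * P u

theorem SN.sum {P : (ℕ → ℂ) → ℝ} (h : SN P) {ι : Type*} (s : Finset ι) (u : ι → ℕ → ℂ) :
    P (fun x => ∑ i ∈ s, u i x) ≤ ∑ i ∈ s, P (u i) := by
  classical
  induction s using Finset.induction_on with
  | empty => simpa using (h.2 0 fun _ => 0).le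
  | insert a s ha ih =>
    simp only [Finset.sum_insert ha]
    exact (h.1 _ _).trans (add_le_add le_rfl ih)

theorem SN_abar (N Q Q' : ℕ) (σ : ℕ → ℕ → ℕ → ℕ) : SN fun u => nt N (Abar Q Q' σ u) := by
  refine ⟨fun u v => le_of_eq_of_le (nt_congr fun x _ => ?_) (nt_add_le _ _ _), fun a u => ?_⟩
  · simp only [Abar, Finset.sum_add_distrib, mul_add]
  · beta_reduce
    rw [← nt_smul]; refine nt_congr fun x _ => ?_
    simp only [Abar, ← Finset.mul_sum]; ring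

def cmp (N' N : ℕ) (f : ℕ → ℕ) (Θ : T → ℂ) (u : ℕ → ℂ) : ℝ :=
  nm (fun η => ft N' (fun x => u (f x)) η - Θ η * ft N u η)

theorem SN_cmp (N' N : ℕ) (f : ℕ → ℕ) {Θ : T → ℂ} (hΘ : UM Θ) : SN (cmp N' N f Θ) := by
  have := hΘ.bm
  refine ⟨fun u v => le_of_eq_of_le (nm_congr fun η => ?_) (nm_add_le (by fun_prop) (by fun_prop)),
    fun a u => ?_⟩
  · simp only [ft_add]; congr 1; ring
  · rw [cmp, cmp, ← nm_smul]; refine nm_congr fun η => ?_
    simp only [ft_smul]; congr 1; ring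

theorem cmp_le {N m : ℕ} (hm0 : 0 < m) {sk : ℕ → ℕ → ℕ} (h : ∀ k, IsPerm N (sk k)) {Θ : T → ℂ}
    (hΘ : UM Θ) (u : ℕ → ℂ) : cmp (m * N) N (pull N sk) Θ u ≤ 2 * nt N u := by
  have := hΘ.bm
  refine (nm_sub_le (by fun_prop) (by fun_prop)).trans ?_
  rw [nm_um hΘ, ← nt, ← nt, pull_nt hm0 h]; linarith

theorem decomp {N Q Q' m q R : ℕ} (hQ : 0 < Q) (hQ' : 0 < Q') {σ : ℕ → ℕ → ℕ → ℕ}
    (hσ : ∀ c c', IsPerm N (σ c c')) {B B' : Finset ℤ} (hB : 0 ∈ B) (hB' : 0 ∈ B')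
    (hR : ∀ r ∈ B, |r| ≤ R) (hR' : ∀ r ∈ B', |r| ≤ R) {g g' : T → ℂ} {δ δ' ε : ℝ} (hδ : 0 ≤ δ)
    (hδ' : 0 ≤ δ') (hε : 0 ≤ ε)
    (hg : ∀ c < Q, ∀ y, ‖ind Q c y - tr B (ind Q c) y‖ ≤ δ * ‖g y‖)
    (hg' : ∀ c < Q', ∀ y, ‖ind Q' c y - tr B' (ind Q' c) y‖ ≤ δ' * ‖g' y‖) {β β' : T}
    (hβ : nt m (fun k => g (th m k + β)) ≤ 2) (hβ' : nt m (fun k => g' (ta m q k + β')) ≤ 2)
    {P : (ℕ → ℂ) → ℝ} (hP : SN P) (hP1 : ∀ u, P u ≤ 2 * nt (m * N) u)
    (hP2 : ∀ (r l : ℤ) (c₀ : ℕ → ℂ), (r, l) ≠ (0, 0) → |r| ≤ R → |l| ≤ R →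
      P (ten N c₀ (gam m q r l)) ≤ ε * nt N c₀) {h : ℕ → ℂ} (hh : nt N h ≤ 1) :
    P (fun x => h (pull N (sel Q Q' σ m q β β') x) - Abar Q Q' σ h (x % N))
      ≤ Q * Q' * (4 * δ + 4 * B.card * δ' + B.card * B'.card * ε) := by
  classical
  set a : ℕ → ℕ → ℤ × ℤ → ℂ := fun c c' w => fourierCoeff (ind Q c) w.1 *
    fourierCoeff (ind Q' c') w.2 * ch (w.1 • β + w.2 • β') with ha
  set er : ℕ → ℕ → ℕ → ℂ := fun c c' k => ind Q c (th m k + β) * ind Q' c' (ta m q k + β')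
    - tr B (ind Q c) (th m k + β) * tr B' (ind Q' c') (ta m q k + β') with her
  have h00 : ((0 : ℤ), (0 : ℤ)) ∈ B ×ˢ B' := mem_product.2 ⟨hB, hB'⟩
  have e : ∀ x, h (pull N (sel Q Q' σ m q β β') x) - Abar Q Q' σ h (x % N)
      = ∑ c ∈ range Q, ∑ c' ∈ range Q', (ten N (fun i => h (σ c c' i)) (er c c') x +
        ∑ w ∈ (B ×ˢ B').erase (0, 0), a c c' w * ten N (fun i => h (σ c c' i))
          (gam m q w.1 w.2) x) := by
    intro x
    rw [pull, sel, ← sum_ind hQ _ fun c => h (σ c (cell Q' (ta m q (x / N : ℕ) + β')) (x % N)),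
      Abar, Finset.mul_sum, ← Finset.sum_sub_distrib]
    refine Finset.sum_congr rfl fun c hc => ?_
    rw [← sum_ind hQ' _ fun c' => h (σ c c' (x % N)), Finset.mul_sum, Finset.mul_sum,
      ← Finset.sum_sub_distrib]
    refine Finset.sum_congr rfl fun c' hc' => ?_
    have e1 : tr B (ind Q c) (th m (x / N : ℕ) + β) * tr B' (ind Q' c') (ta m q (x / N : ℕ) + β')
        = ∑ w ∈ B ×ˢ B', a c c' w * gam m q w.1 w.2 (x / N) := by
      rw [tr, tr, Finset.sum_mul_sum, Finset.sum_product]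
      refine Finset.sum_congr rfl fun r _ => Finset.sum_congr rfl fun l _ => ?_
      simp only [ha, gam, smul_add, ch_add]; ring
    have e2 : a c c' (0, 0) * gam m q 0 0 (x / N) = ((Q : ℂ) * Q')⁻¹ := by
      simp only [ha, gam, fc_zero, int_ind hQ (mem_range.1 hc), int_ind hQ' (mem_range.1 hc'),
        zero_smul, add_zero, ch_zero, mul_inv]; ring
    rw [← Finset.add_sum_erase _ _ h00, e2] at e1
    simp only [ten, her, e1, mul_left_comm _ (h _), ← Finset.mul_sum]; ring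
  rw [funext e]
  refine (hP.sum _ _).trans ?_
  calc _ ≤ ∑ c ∈ range Q, ∑ c' ∈ range Q', (4 * δ + 4 * B.card * δ' + B.card * B'.card * ε) := by
        refine Finset.sum_le_sum fun c hc => (hP.sum _ _).trans
          (Finset.sum_le_sum fun c' hc' => (hP.1 _ _).trans (add_le_add ?_ ?_))
        · refine (hP1 _).trans ?_
          have n1 : nt m (er c c') ≤ nt m (fun k => ((δ * ‖g (th m k + β)‖ : ℝ) : ℂ) +
              ((B.card * δ' * ‖g' (ta m q k + β')‖ : ℝ) : ℂ)) := by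
            refine nt_mono fun k _ => ?_
            rw [← Complex.ofReal_add, Complex.norm_real, Real.norm_eq_abs,
              abs_of_nonneg (by positivity)]
            have : er c c' k = (ind Q c (th m k + β) - tr B (ind Q c) (th m k + β)) *
                ind Q' c' (ta m q k + β') + tr B (ind Q c) (th m k + β) *
                (ind Q' c' (ta m q k + β') - tr B' (ind Q' c') (ta m q k + β')) := by
              simp only [her]; ring
            rw [this]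
            refine (norm_add_le _ _).trans (add_le_add ?_ ?_)
            · rw [norm_mul]
              exact (mul_le_of_le_one_right (norm_nonneg _) (norm_ind _ _ _)).trans
                (hg c (mem_range.1 hc) _)
            · rw [norm_mul, mul_assoc]
              exact mul_le_mul (norm_tr (norm_ind _ _) _ _) (hg' c' (mem_range.1 hc') _)
                (norm_nonneg _) (by positivity)
          have n2 : ∀ (b : ℝ) (f : ℕ → ℂ), 0 ≤ b → nt m f ≤ 2 →
              nt m (fun k => ((b * ‖f k‖ : ℝ) : ℂ)) ≤ 2 * b := by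
            intro b f hb hf
            have : nt m (fun k => ((b * ‖f k‖ : ℝ) : ℂ)) ≤ nt m (fun k => b * f k) :=
              nt_mono fun k _ => by simp
            rw [nt_smul, Complex.norm_real, Real.norm_eq_abs, abs_of_nonneg hb] at this
            nlinarith
          have n3 := (n1.trans (nt_add_le _ _ _)).trans
            (add_le_add (n2 _ _ hδ hβ) (n2 _ _ (by positivity) hβ'))
          rw [nt_ten, (hσ c c').nt h]
          have := mul_le_of_le_one_right (nt_nonneg m (er c c')) hh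
          linarith
        · refine (hP.sum _ _).trans ((Finset.sum_le_card_nsmul _ _ ε fun w hw => ?_).trans ?_)
          · obtain ⟨w1, w2⟩ := mem_erase.1 hw
            have n1 := hP2 w.1 w.2 (fun i => h (σ c c' i)) w1 (hR _ (mem_product.1 w2).1)
              (hR' _ (mem_product.1 w2).2)
            rw [(hσ c c').nt h] at n1
            have n2 : ‖a c c' w‖ ≤ 1 := by
              simp only [ha, norm_mul, norm_ch, mul_one]
              exact mul_le_one₀ (norm_fc (norm_ind _ _) _) (norm_nonneg _)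
                (norm_fc (norm_ind _ _) _)
            rw [hP.2]
            calc _ ≤ ‖a c c' w‖ * ε := by
                  gcongr; exact n1.trans (mul_le_of_le_one_right hε hh)
              _ ≤ _ := mul_le_of_le_one_left hε n2
          · rw [nsmul_eq_mul, ← Nat.cast_mul, ← card_product]
            gcongr; exact erase_subset _ _
    _ = _ := by simp; ring

structure Stage where
  N : ℕ
  Q : ℕ
  Q' : ℕ
  σ : ℕ → ℕ → ℕ → ℕ
  U : Set (ℕ → ℂ)
  ε : ℝ
  D : ℕ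
  hN : 0 < N
  hQ : 0 < Q
  hQ' : 0 < Q'
  perm : ∀ c c', IsPerm N (σ c c')
  dfc : ∀ c c', dfc N N (σ c c') ≤ D
  inv : ∃ g, BM g ∧ nm g ≤ 1 ∧ ∀ p : ℝ, 0 < p → p ≤ 1 → ∀ᶠ t in atTop, ∀ β β' : T,
    nt (mm t) (fun k => g (ta (mm t) (qq p t) k + β')) ≤ 2 → ∃ Θ, UM Θ ∧ ∀ u ∈ U,
      cmp (mm t * N) N (pull N (sel Q Q' σ (mm t) (qq p t) β β')) Θ u ≤ ε

def Step (s s' : Stage) (ε' : ℝ) (m : ℕ) (sk : ℕ → ℕ → ℕ) (Θ : T → ℂ) : Prop :=
  2 ≤ m ∧ s'.N = m * s.N ∧ s'.D = m ∧ s'.ε = ε' ∧ (∀ k, ∃ c c', sk k = s.σ c c') ∧ UM Θ ∧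
  (∀ u ∈ s.U, cmp (m * s.N) s.N (pull s.N sk) Θ u ≤ s.ε) ∧
  (∀ h, nt s.N h ≤ 1 → (fun x => h (pull s.N sk x) - Abar s.Q s.Q' s.σ h (x % s.N)) ∈ s'.U) ∧
  (∀ h, nt s.N h ≤ 1 → ∑ i ∈ range s.N, h i = 0 →
    nt s'.N (Abar s'.Q s'.Q' s'.σ fun x => h (pull s.N sk x)) ≤ ε') ∧
  ∃ u ∈ s'.U, nt s'.N u ≤ 1 ∧ nt s'.N (Abar s'.Q s'.Q' s'.σ u) ≤ ε' ∧
    ∃ Θ', UM Θ' ∧ nm (fun η => ft s'.N u η - Θ' η) ≤ ε'

theorem step (s : Stage) {ε' : ℝ} (hε : 0 < ε') : ∃ s' m sk Θ, Step s s' ε' m sk Θ := by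
  obtain ⟨N, Q, Q', σ, U, ε, D, hN, hQ, hQ', hσ, hD, g₀, hg₀, hg₀1, hinv⟩ := s
  have hN1 : (0 : ℝ) < N := by exact_mod_cast hN
  have hQ1 : (0 : ℝ) < Q := by exact_mod_cast hQ
  have hQ2 : (0 : ℝ) < Q' := by exact_mod_cast hQ'
  set δ := ε' / (Q * Q') / 12 with hδ
  have hδ0 : 0 < δ := by positivity
  obtain ⟨B, g, hB, hg, hg1, hBg⟩ := cells_approx Q hδ0
  have hBc : (0 : ℝ) < B.card := by exact_mod_cast card_pos.2 ⟨0, hB⟩
  obtain ⟨B', g', hB', hg', hg1', hBg'⟩ := cells_approx Q' (show 0 < δ / B.card by positivity)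
  have hBc' : (0 : ℝ) < B'.card := by exact_mod_cast card_pos.2 ⟨0, hB'⟩
  obtain ⟨L, hL, hfl⟩ := chirp_flat hε
  set R := L + (B ∪ B').sup Int.natAbs with hR
  have hR' : ∀ r ∈ B ∪ B', |r| ≤ R := fun r hr => by
    have := Finset.le_sup (f := Int.natAbs) hr
    rw [← Int.natCast_natAbs]; exact_mod_cast (show r.natAbs ≤ R by omega)
  set εc := min ε' (4 * δ / (B.card * B'.card)) with hεc
  have hεc0 : 0 < εc := by positivity
  obtain ⟨p, hp0, hp1, Qn, gn, hQn, hgn, hgn1, hcore⟩ := core hN R hεc0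
  have hL0 : (L : ℤ) ≠ 0 := by omega
  obtain ⟨t, ⟨⟨σ', hσ', hA, hC⟩, hI⟩, hG, hm2⟩ := ((hcore.and (hinv p hp0 hp1)).and
    ((good_ev hL0 hp0 hp1).and (tendsto_mm.eventually_ge_atTop 2))).exists
  set m := mm t
  set q := qq p t
  have hm0 : 0 < m := by omega
  obtain ⟨β, hβ, -⟩ := avg2 hg hg hg1 hg1 m fun k => th m k
  obtain ⟨β', hβ', hβ0⟩ := avg2 hg' hg₀ hg1' hg₀1 m fun k => ta m q k
  obtain ⟨Θ, hΘ, hΘU⟩ := hI β β' hβ0
  set sk := sel Q Q' σ m q β β' with hsk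
  have dec : ∀ {P : (ℕ → ℂ) → ℝ}, SN P → (∀ u, P u ≤ 2 * nt (m * N) u) →
      (∀ (r l : ℤ) (c₀ : ℕ → ℂ), (r, l) ≠ (0, 0) → |r| ≤ R → |l| ≤ R →
        P (ten N c₀ (gam m q r l)) ≤ εc * nt N c₀) → ∀ h, nt N h ≤ 1 →
      P (fun x => h (pull N sk x) - Abar Q Q' σ h (x % N)) ≤ ε' := by
    intro P h1 h2 h3 h hh
    refine (decomp hQ hQ' hσ hB hB' (fun r hr => hR' r (mem_union_left _ hr))
      (fun r hr => hR' r (mem_union_right _ hr)) hδ0.le (by positivity) hεc0.le hBg hBg' hβ hβ'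
      h1 h2 h3 hh).trans ?_
    have a1 : (B.card : ℝ) * B'.card * εc ≤ 4 * δ := by
      have := min_le_right ε' (4 * δ / (B.card * B'.card))
      rwa [← hεc, le_div_iff₀' (by positivity)] at this
    have a2 : 4 * B.card * (δ / B.card) = 4 * δ := by field_simp
    calc _ ≤ Q * Q' * (12 * δ) := by gcongr; linarith
      _ = _ := by rw [hδ]; field_simp
  set c₀ : ℕ → ℂ := fun i => if i = 0 then (√N : ℝ) else 0 with hc₀
  have fc₀ : ∀ η, ft N c₀ η = 1 := by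
    intro η
    rw [ft, Finset.sum_eq_single 0]
    · simp only [hc₀, if_true, Nat.cast_zero, zero_smul, ch_zero, mul_one]
      rw [← Complex.ofReal_mul, inv_mul_cancel₀ (by positivity)]; simp
    · intro b _ hb; simp [hc₀, hb]
    · intro h; exact absurd (mem_range.2 hN) h
  have nc₀ : nt N c₀ = 1 := by rw [nt, funext fc₀, nm_one]
  have hLR : |(L : ℤ)| ≤ R := by rw [Nat.abs_cast]; exact_mod_cast (show L ≤ R by omega)
  have hL1 : ((L : ℤ), (0 : ℤ)) ≠ (0, 0) := fun h => hL0 (Prod.ext_iff.1 h).1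
  have hεε : εc * nt N c₀ ≤ ε' := by rw [nc₀, mul_one]; exact min_le_left _ _
  refine ⟨⟨m * N, Qn, N, σ', {u | (∃ h, nt N h ≤ 1 ∧
      u = fun x => h (pull N sk x) - Abar Q Q' σ h (x % N)) ∨ u = ten N c₀ (gam m q L 0)}, ε', m,
    by positivity, hQn, hN, fun c c' => (hσ' c c').1, fun c c' => (hσ' c c').2.1, gn, hgn, hgn1,
    fun p' hp0' hp1' => ?_⟩, m, sk, Θ, hm2, rfl, rfl, rfl, fun k => ⟨_, _, rfl⟩, hΘ, hΘU,
    fun h hh => Or.inl ⟨h, hh, rfl⟩, fun h hh h0 => ?_, _, Or.inr rfl, ?_,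
    (hA L 0 c₀ hL1 hLR (by simp)).trans hεε, fun η => ph (P0 L m ((N : ℤ) • η)),
    UM_ph (by fun_prop), ?_⟩
  · filter_upwards [hC p' hp0' hp1'] with t' ht' β₂ β₂' hb
    obtain ⟨Θ', h1, h2⟩ := ht' β₂ β₂' hb
    refine ⟨Θ', h1, ?_⟩
    rintro u (⟨h, hh, rfl⟩ | rfl)
    · exact dec (SN_cmp _ _ _ h1) (cmp_le (pow_pos (nn_pos t') 2) (fun k => (hσ' _ _).1) h1) h2 h hh
    · exact (h2 L 0 c₀ hL1 hLR (by simp)).trans hεε
  · refine le_of_eq_of_le (nt_congr fun x _ => ?_) (dec (SN_abar (m * N) Qn N σ') (fun u =>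
      (nt_Abar hQn hN (fun c c' => (hσ' c c').1) u).trans (by linarith [nt_nonneg (m * N) u]))
      hA h hh)
    simp only [Abar.eq_1 Qn, Finset.sum_sub_distrib, (hσ' _ _).2.2]
    have : ∑ c' ∈ range N, Abar Q Q' σ h ((x + c') % N) = 0 := by
      simp only [add_comm x]
      rw [(isPerm_add hN x).sum (Abar Q Q' σ h), sum_Abar hQ hQ' hσ, h0]
    simp [this]
  · beta_reduce
    rw [nt_ten, nc₀, mul_one]
    exact nt_le_sup one_pos.le fun k _ => (norm_ch _).le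
  · refine le_of_eq_of_le ?_ (hfl L (by simp) m hm0 hG.2.1)
    rw [← nm_comp (mp_zsmul (n := N) (by omega)) (F := fun y => P0 L m y - ph (P0 L m y))
      (by fun_prop)]
    refine nm_congr fun η => ?_
    rw [ft_ten, fc₀, mul_one, P0]; congr 3; ext k; simp [gam]

end Vale.Agent.P130
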