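import Vale.Agent.P130.Stage

/-! The sequence of towers. -/

noncomputable section
open MeasureTheory Finset Filter Topology
open scoped ComplexConjugate Real ENNReal Nat

namespace Vale.Agent.P130

/-- projection from the level `d` to the level `j` -/
def pr (f : ℕ → ℕ → ℕ) (j : ℕ) : ℕ → ℕ → ℕ
  | 0, x => x
  | d + 1, x => if d < j then x else pr f j d (f d x)

theorem pr_self (f : ℕ → ℕ → ℕ) (j x : ℕ) : pr f j j x = x := by
  cases j <;> simp [pr]

theorem pr_succ (f : ℕ → ℕ → ℕ) {j d : ℕ} (h : j ≤ d) (x : ℕ) :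
    pr f j (d + 1) x = pr f j d (f d x) := by
  rw [pr, if_neg (by omega)]

theorem norm_mean_le (N : ℕ) (h : ℕ → ℂ) : ‖(∑ i ∈ range N, h i) / N‖ ≤ nt N h := by
  rcases Nat.eq_zero_or_pos N with rfl | hN
  · simpa using nt_nonneg 0 h
  have hN' : (0 : ℝ) < N := by exact_mod_cast hN
  rw [nt_eq, norm_div, Complex.norm_natCast]
  refine Real.le_sqrt_of_sq_le ?_
  have h1 := sq_sum_le_card_mul_sum_sq (s := range N) (f := fun i => ‖h i‖)
  rw [card_range] at h1
  have h2 := pow_le_pow_left₀ (norm_nonneg _) (norm_sum_le (range N) h) 2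
  rw [div_pow, div_le_div_iff₀ (by positivity) hN']
  nlinarith

theorem SN.sub_const {P : (ℕ → ℂ) → ℝ} (hP : SN P) {N : ℕ} (h1 : ∀ u, P u ≤ 2 * nt N u)
    (u : ℕ → ℂ) (a : ℂ) : P (fun x => u x - a) ≤ P u + 2 * ‖a‖ := by
  simp only [sub_eq_add_neg]
  refine (hP.1 _ _).trans (add_le_add le_rfl ((h1 _).trans ?_))
  exact mul_le_mul_of_nonneg_left (nt_le_sup (norm_nonneg _) fun _ _ => by simp) two_pos.le

theorem towers : ∃ (N m : ℕ → ℕ) (sk : ℕ → ℕ → ℕ → ℕ) (W : ℕ → T → ℂ),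
    (∀ j, 0 < N j ∧ 2 ≤ m j ∧ N (j + 1) = m j * N j ∧ (∀ k, IsPerm (N j) (sk j k)) ∧ UM (W j)) ∧
    (∃ δ : ℕ → ℝ, Summable δ ∧ ∀ j,
      (dfc (N (j + 1)) (N j) (pull (N j) (sk j)) : ℝ) ≤ δ j * N (j + 1)) ∧
    (∀ (j : ℕ) (h : ℕ → ℂ), ∑ i ∈ range (N j), h i = 0 → ∀ d, j + 2 ≤ d →
      nm (fun η => W (d + 1) η * ft (N (d + 1))
        (fun x => h (pr (fun d => pull (N d) (sk d)) j (d + 1) x)) η - W d η * ft (N d)
        (fun x => h (pr (fun d => pull (N d) (sk d)) j d x)) η) ≤ 5 * nt (N j) h * (1 / 2) ^ d) ∧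
    ∀ ε > (0 : ℝ), ∃ (j : ℕ) (h : ℕ → ℂ) (Θ : T → ℂ), ∑ i ∈ range (N j), h i = 0 ∧ UM Θ ∧ ∀ d, j ≤ d →
      nm (fun η => W d η * ft (N d)
        (fun x => h (pr (fun d => pull (N d) (sk d)) j d x)) η - Θ η) ≤ ε := by
  choose nx m sk Θ hst using fun (s : Stage) (j : ℕ) =>
    step s (ε' := (1 / 2) ^ (j + 1)) (by positivity)
  let s0 : Stage := ⟨1, 1, 1, fun _ _ x => x, ∅, 1, 0, one_pos, one_pos, one_pos,
    fun _ _ => isPerm_id 1, fun _ _ => by simp [dfc], fun _ => 0, BM.const 0, by simp [nm_zero],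
    fun p _ _ => Eventually.of_forall fun t β β' _ =>
      ⟨fun _ => 1, ⟨measurable_const, by simp⟩, by simp⟩⟩
  let S : ℕ → Stage := fun j => Nat.rec s0 (fun j s => nx s j) j
  have hS : ∀ j, Step (S j) (S (j + 1)) ((1 / 2) ^ (j + 1)) (m (S j) j) (sk (S j) j) (Θ (S j) j) :=
    fun j => hst (S j) j
  have hS0 : (S 0).ε = 1 ∧ (S 0).D = 0 ∧ (S 0).N = 1 := ⟨rfl, rfl, rfl⟩
  clear_value S
  set N : ℕ → ℕ := fun j => (S j).N with hN
  set f : ℕ → ℕ → ℕ := fun d => pull (N d) (sk (S d) d) with hf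
  let W : ℕ → T → ℂ := fun j => Nat.rec (fun _ => 1) (fun j w η => w η * conj (Θ (S j) j η)) j
  have hW1 : ∀ j η, W (j + 1) η = W j η * conj (Θ (S j) j η) := fun _ _ => rfl
  have hΘ : ∀ j, UM (Θ (S j) j) := fun j => (hS j).2.2.2.2.2.1
  have hW : ∀ j, UM (W j) := by
    intro j
    induction j with
    | zero => exact ⟨measurable_const, by simp [W]⟩
    | succ j ih =>
      exact ⟨(ih.bm.mul (hΘ j).bm.conj).1, fun η => by rw [hW1]; simp [ih.2, (hΘ j).2]⟩
  clear_value W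
  have hm2 : ∀ j, 2 ≤ m (S j) j := fun j => (hS j).1
  have hm0 : ∀ j, 0 < m (S j) j := fun j => by have := hm2 j; omega
  have hNs : ∀ j, N (j + 1) = m (S j) j * N j := fun j => (hS j).2.1
  have hε : ∀ j, (S j).ε = (1 / 2) ^ j := by
    intro j; cases j with
    | zero => simp [hS0.1]
    | succ j => exact (hS j).2.2.2.1
  have hp : ∀ j k, IsPerm (N j) (sk (S j) j k) := fun j k => by
    obtain ⟨c, c', e⟩ := (hS j).2.2.2.2.1 k
    rw [e]; exact (S j).perm c c'
  set C : ℕ → (ℕ → ℂ) → ℝ := fun d => cmp (N (d + 1)) (N d) (f d) (Θ (S d) d) with hC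
  have hC1 : ∀ d, SN (C d) := fun d => SN_cmp _ _ _ (hΘ d)
  have hC2 : ∀ d u, C d u ≤ 2 * nt (N d) u := fun d u => by
    simp only [hC, hNs d]; exact cmp_le (hm0 d) (hp d) (hΘ d) u
  have hC3 : ∀ d, ∀ u ∈ (S d).U, C d u ≤ (1 / 2) ^ d := fun d u hu => by
    simp only [hC, hNs d, ← hε d]; exact (hS d).2.2.2.2.2.2.1 u hu
  have hC4 : ∀ d u, nm (fun η => W (d + 1) η * ft (N (d + 1)) (fun x => u (f d x)) η
      - W d η * ft (N d) u η) = C d u := by
    intro d u
    simp only [hC, cmp]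
    refine Eq.trans (nm_congr fun η => ?_) (nm_um (hW (d + 1)) _)
    have : conj (Θ (S d) d η) * Θ (S d) d η = 1 := by
      rw [Complex.conj_mul', (hΘ d).2]; simp
    rw [mul_sub, hW1 d η]; congr 2
    rw [← mul_assoc, mul_assoc (W d η), this, mul_one]
  have hnt : ∀ d u, nt (N (d + 1)) (fun x => u (f d x)) = nt (N d) u := fun d u => by
    rw [hNs]; exact pull_nt (hm0 d) (hp d) u
  have hsum : ∀ d (u : ℕ → ℂ), ∑ i ∈ range (N d), u i = 0 →
      ∑ x ∈ range (N (d + 1)), u (f d x) = 0 := fun d u h => by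
    rw [hNs, pull_sum _ (hp d), h, smul_zero]
  have hK : ∀ d v, nt (N d) v ≤ 1 → nt (N d) (Abar (S d).Q (S d).Q' (S d).σ v) ≤ (1 / 2) ^ d →
      C (d + 1) (fun x => v (f d x)) ≤ 5 * (1 / 2) ^ (d + 1) := by
    intro d v h1 h2
    have a1 := hC3 (d + 1) _ ((hS d).2.2.2.2.2.2.2.1 v h1)
    have a2 := hC2 (d + 1) (ten (N d) (Abar (S d).Q (S d).Q' (S d).σ v) fun _ => 1)
    rw [hNs d, nt_ten] at a2
    have a3 : nt (m (S d) d) (fun _ => 1) ≤ 1 := nt_le_sup one_pos.le fun _ _ => by simp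
    have a4 := mul_le_of_le_one_left (nt_nonneg (N d) (Abar (S d).Q (S d).Q' (S d).σ v)) a3
    have a5 := (hC1 (d + 1)).1 (fun x => v (f d x) - Abar (S d).Q (S d).Q' (S d).σ v (x % N d))
      (ten (N d) (Abar (S d).Q (S d).Q' (S d).σ v) fun _ => 1)
    simp only [ten, mul_one, sub_add_cancel] at a5
    rw [pow_succ] at *
    linarith
  have hpr : ∀ j (h : ℕ → ℂ) d, j ≤ d → nt (N d) (fun x => h (pr f j d x)) = nt (N j) h ∧
      (∑ i ∈ range (N j), h i = 0 → ∑ x ∈ range (N d), h (pr f j d x) = 0) := by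
    intro j h d hd
    induction d, hd using Nat.le_induction with
    | base => simp [pr_self]
    | succ d hd ih =>
      simp only [pr_succ f hd]
      exact ⟨(hnt d fun x => h (pr f j d x)).trans ih.1,
        fun h0 => hsum d (fun x => h (pr f j d x)) (ih.2 h0)⟩
  have hB : ∀ j (h : ℕ → ℂ), ∑ i ∈ range (N j), h i = 0 → ∀ d, j + 2 ≤ d →
      C d (fun x => h (pr f j d x)) ≤ 5 * nt (N j) h * (1 / 2) ^ d := by
    intro j h h0 d hd
    rcases (nt_nonneg (N j) h).eq_or_lt with hz | hz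
    · have := hC2 d fun x => h (pr f j d x)
      rw [(hpr j h d (by omega)).1] at this
      rw [← hz] at this ⊢; linarith
    obtain ⟨i, rfl⟩ : ∃ i, d = i + 2 := ⟨d - 2, by omega⟩
    have hi : j ≤ i := by omega
    set a : ℝ := nt (N j) h
    set g : ℕ → ℂ := fun x => (a⁻¹ : ℝ) * h (pr f j i x) with hg
    have g1 : nt (N i) g ≤ 1 := by
      rw [hg, nt_smul, (hpr j h i hi).1, Complex.norm_real, Real.norm_eq_abs,
        abs_of_pos (inv_pos.2 hz), inv_mul_cancel₀ hz.ne']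
    have g2 : ∑ x ∈ range (N i), g x = 0 := by
      rw [hg, ← Finset.mul_sum, (hpr j h i hi).2 h0, mul_zero]
    have g3 := hK (i + 1) (fun x => g (f i x)) ((hnt i g).trans_le g1)
      ((hS i).2.2.2.2.2.2.2.2.1 g g1 g2)
    rw [hg, (hC1 _).2, Complex.norm_real, Real.norm_eq_abs, abs_of_pos (inv_pos.2 hz),
      inv_mul_le_iff₀ hz] at g3
    simp only [pr_succ f (show j ≤ i + 1 by omega), pr_succ f hi]
    linarith
  have hN2 : ∀ j, 2 ^ j ≤ N j := by
    intro j
    induction j with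
    | zero => exact (S 0).hN
    | succ j ih => rw [hNs, pow_succ']; exact Nat.mul_le_mul (hm2 j) ih
  refine ⟨N, fun j => m (S j) j, fun j => sk (S j) j, W,
    fun j => ⟨(S j).hN, hm2 j, hNs j, hp j, hW j⟩, ⟨fun j => 4 * (1 / 2) ^ j,
      summable_geometric_two.mul_left _, fun j => ?_⟩, fun j h h0 d hd => ?_, fun ε hε0 => ?_⟩
  · have h1 := dfc_pull (m (S j) j) (N := N j) (D := (S j).D) (sk := sk (S j) j) fun k => by
      obtain ⟨c, c', e⟩ := (hS j).2.2.2.2.1 k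
      rw [e]; exact (S j).dfc c c'
    have h2 : 2 ^ j * ((S j).D + 1) ≤ 4 * N j := by
      cases j with
      | zero => simp [hS0, hN]
      | succ j =>
        rw [(hS j).2.2.1, hNs, pow_succ]
        nlinarith [hN2 j, hm2 j, Nat.mul_le_mul (hN2 j) (le_refl (m (S j) j))]
    have h3 : (2 : ℝ) ^ j * ((S j).D + 1) ≤ 4 * N j := by exact_mod_cast h2
    have h4 : ((S j).D + 1 : ℝ) ≤ 4 * (1 / 2) ^ j * N j := by
      rw [one_div, inv_pow, mul_right_comm, ← div_eq_mul_inv, le_div_iff₀' (by positivity)]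
      exact h3
    rw [hNs]
    calc _ ≤ ((m (S j) j * ((S j).D + 1) : ℕ) : ℝ) := by exact_mod_cast h1
      _ ≤ m (S j) j * (4 * (1 / 2) ^ j * N j) := by push_cast; gcongr
      _ = _ := by push_cast; ring
  · simp only [pr_succ _ (show j ≤ d by omega)]
    exact (hC4 d fun x => h (pr f j d x)).trans_le (hB j h h0 d hd)
  obtain ⟨j, hj⟩ := exists_pow_lt_of_lt_one (show 0 < ε / 22 by positivity)
    (show (1 / 2 : ℝ) < 1 by norm_num)
  obtain ⟨u, hu, u1, u2, Θ', hΘ', u3⟩ := (hS j).2.2.2.2.2.2.2.2.2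
  have hj' : (1 / 2 : ℝ) ^ (j + 1) ≤ ε / 22 := by
    rw [pow_succ]; linarith [show (0 : ℝ) < (1 / 2) ^ j by positivity]
  generalize j + 1 = i at *
  have hNi : (N i : ℂ) ≠ 0 := by exact_mod_cast (S i).hN.ne'
  set a : ℂ := (∑ x ∈ range (N i), u x) / N i with ha
  have a1 : ‖a‖ ≤ (1 / 2) ^ i := by
    rw [ha, ← sum_Abar (S i).hQ (S i).hQ' (S i).perm]; exact (norm_mean_le _ _).trans u2
  have a2 : (1 / 2 : ℝ) ^ i ≤ 1 := pow_le_one₀ (by norm_num) (by norm_num)
  have a3 : nt (N i) (fun _ => a) ≤ (1 / 2) ^ i := nt_le_sup (by positivity) fun _ _ => a1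
  have h0 : ∑ x ∈ range (N i), (u x - a) = 0 := by
    rw [Finset.sum_sub_distrib, ha]; simp; field_simp; ring
  have h1 : nt (N i) (fun x => u x - a) ≤ 2 := (nt_sub_le _ _ _).trans (by linarith)
  have h2 : ∀ d, i ≤ d → C d (fun x => u (pr f i d x) - a) ≤ 10 * (1 / 2) ^ d := by
    intro d hd
    rcases hd.eq_or_lt with rfl | hd
    · simp only [pr_self]
      linarith [(hC1 i).sub_const (hC2 i) u a, hC3 i u hu, show (0 : ℝ) < (1 / 2) ^ i by positivity]
    rcases (show i + 1 ≤ d from hd).eq_or_lt with rfl | hd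
    · simp only [pr_succ f le_rfl, pr_self]
      have := (hC1 (i + 1)).sub_const (hC2 _) (fun x => u (f i x)) a
      have := hK i u u1 u2
      rw [pow_succ] at *
      linarith [show (0 : ℝ) < (1 / 2) ^ i by positivity]
    · refine (hB i (fun x => u x - a) h0 d hd).trans ?_
      gcongr; linarith
  refine ⟨i, fun x => u x - a, fun η => W i η * Θ' η, h0,
    ⟨((hW i).bm.mul hΘ'.bm).1, fun η => by simp [(hW i).2, hΘ'.2]⟩, fun d hd => ?_⟩
  have b0 := fun d => (hW d).bm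
  have b1 := hΘ'.bm
  have : nm (fun η => W d η * ft (N d) (fun x => u (pr f i d x) - a) η - W i η * Θ' η)
      ≤ 22 * (1 / 2) ^ i - 20 * (1 / 2) ^ d := by
    induction d, hd using Nat.le_induction with
    | base =>
      simp only [pr_self, ← mul_sub]
      rw [nm_um (hW i)]
      have := nm_sub_le (F := fun η => ft (N i) u η - Θ' η) (G := ft (N i) fun _ => a)
        (by fun_prop) (by fun_prop)
      refine le_of_eq_of_le (nm_congr fun η => ?_) (this.trans (by unfold nt at a3; linarith))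
      rw [ft_sub]; congr 1; ring
    | succ d hd ih =>
      refine (nm_tri (G := fun η => W d η * ft (N d) (fun x => u (pr f i d x) - a) η)
        (by fun_prop) (by fun_prop) (by fun_prop)).trans ?_
      simp only [pr_succ f hd]
      have := (hC4 d fun x => u (pr f i d x) - a).trans_le (h2 d hd)
      rw [pow_succ]; linarith
  linarith [show (0 : ℝ) < (1 / 2) ^ d by positivity]

end Vale.Agent.P130
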